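import Mathlib

/-!
# P243, ticket E2: contact points of an inscribed linear image of the unit ball

* `contact_slab`: if `N` maps the closed unit ball into the convex body `K` and the unit vector
  `y` is a contact (`N y ∉ interior K`), then `K ⊆ {N z | ⟪z, y⟫ ≤ 1}`.
* `perturb_mem`: if `⟪H y, y⟫ < 0` at every contact `y`, then `N ∘ (1 + t H)` still maps the unit
  ball into `K` for all small `t > 0`.
-/

open scoped InnerProductSpace

namespace Vale.Agent.Lib.P243.helper23.Ell

variable {E : Type*} [NormedAddCommGroup E] [InnerProductSpace ℝ E]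

set_option linter.unusedVariables false in
/-- Supporting slab at a contact point: if the invertible linear map `N` sends the closed unit
ball into the convex set `K` (with nonempty interior) and the unit vector `y` is a contact,
i.e. `N y ∉ interior K`, then every `z` with `N z ∈ K` satisfies `⟪z, y⟫ ≤ 1`. -/
theorem contact_slab [FiniteDimensional ℝ E] {K : Set E} (hK : Convex ℝ K) (hKcl : IsClosed K)
    (hKi : (interior K).Nonempty) (N : E ≃L[ℝ] E)
    (hNK : ∀ z : E, ‖z‖ ≤ 1 → N z ∈ K) {y : E} (hy : ‖y‖ = 1)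
    (hyc : N y ∉ interior K) : ∀ z : E, N z ∈ K → ⟪z, y⟫_ℝ ≤ 1 := by
  obtain ⟨f, hf⟩ := geometric_hahn_banach_open_point hK.interior isOpen_interior hyc
  have hfK : ∀ a ∈ K, f a ≤ f (N y) := by
    intro a ha
    have hmem : a ∈ closure (interior K) := by
      rw [hK.closure_interior_eq_closure_of_nonempty_interior hKi]
      exact subset_closure ha
    have hcl : IsClosed {b : E | f b ≤ f (N y)} := isClosed_le f.continuous continuous_const
    exact closure_minimal (fun b hb => (hf b hb).le) hcl hmem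
  set g : E →L[ℝ] ℝ := f.comp (N : E →L[ℝ] E) with hg
  have hgle : ∀ z, N z ∈ K → g z ≤ g y := fun z hz => hfK _ hz
  set w : E := (InnerProductSpace.toDual ℝ E).symm g with hw
  have hwg : ∀ z, ⟪w, z⟫_ℝ = g z := fun z => InnerProductSpace.toDual_symm_apply
  -- `w ≠ 0`
  have hw0 : w ≠ 0 := by
    intro h0
    obtain ⟨a, ha⟩ := hKi
    have h1 : f a < f (N y) := hf a ha
    have h2 : g (N.symm a) = f a := by simp [hg]
    have h3 : g y = f (N y) := rfl
    have h4 : g (N.symm a) = 0 := by rw [← hwg, h0, inner_zero_left]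
    have h5 : g y = 0 := by rw [← hwg, h0, inner_zero_left]
    linarith
  have hwpos : 0 < ‖w‖ := norm_pos_iff.mpr hw0
  -- `‖w‖ ≤ ⟪w, y⟫`
  have h1 : ‖w‖ ≤ ⟪w, y⟫_ℝ := by
    have hz : ‖(‖w‖⁻¹ : ℝ) • w‖ ≤ 1 := by
      rw [norm_smul, norm_inv, norm_norm, inv_mul_cancel₀ hwpos.ne']
    have h := hgle _ (hNK _ hz)
    rw [← hwg, ← hwg, inner_smul_right, real_inner_self_eq_norm_sq] at h
    have : ‖w‖⁻¹ * ‖w‖ ^ 2 = ‖w‖ := by
      field_simp
    linarith
  have h2 : ⟪w, y⟫_ℝ ≤ ‖w‖ := by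
    have := real_inner_le_norm w y
    rw [hy, mul_one] at this
    exact this
  have heq : ⟪w, y⟫_ℝ = ‖w‖ * ‖y‖ := by rw [hy, mul_one]; exact le_antisymm h2 h1
  have hwy : w = ‖w‖ • y := by
    have := (inner_eq_norm_mul_iff_real).mp heq
    rw [hy, one_smul] at this
    exact this
  intro z hz
  have h := hgle z hz
  rw [← hwg, ← hwg] at h
  have h3 : ⟪w, z⟫_ℝ = ‖w‖ * ⟪z, y⟫_ℝ := by
    conv_lhs => rw [hwy]
    rw [inner_smul_left, real_inner_comm]
    simp
  have h4 : ⟪w, y⟫_ℝ = ‖w‖ := le_antisymm h2 h1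
  rw [h3, h4] at h
  by_contra hcon
  push Not at hcon
  nlinarith

set_option linter.unusedVariables false in
/-- Perturbation lemma: if `⟪H y, y⟫ < 0` at every contact `y` (unit vectors with
`N y ∉ interior K`), then `N ∘ (1 + t H)` maps the closed unit ball into `K` for all small
`t > 0`. -/
theorem perturb_mem [FiniteDimensional ℝ E] {K : Set E} (hKcl : IsClosed K) (N : E ≃L[ℝ] E)
    (hNK : ∀ z : E, ‖z‖ ≤ 1 → N z ∈ K) (H : E →L[ℝ] E)
    (hH : ∀ y : E, ‖y‖ = 1 → N y ∉ interior K → ⟪H y, y⟫_ℝ < 0) :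
    ∃ t₀ : ℝ, 0 < t₀ ∧ ∀ t : ℝ, 0 < t → t ≤ t₀ → ∀ z : E, ‖z‖ ≤ 1 → N (z + t • H z) ∈ K := by
  -- interior points of the ball are mapped into the interior of `K`
  have hint : ∀ z : E, ‖z‖ < 1 → N z ∈ interior K := by
    intro z hz
    have hopen : IsOpen (N '' Metric.ball (0 : E) 1) :=
      N.toHomeomorph.isOpenMap _ Metric.isOpen_ball
    have hsub : N '' Metric.ball (0 : E) 1 ⊆ K := by
      rintro _ ⟨x, hx, rfl⟩
      have hx' : ‖x‖ < 1 := by simpa [Metric.mem_ball, dist_zero_right] using hx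
      exact hNK x hx'.le
    exact interior_maximal hsub hopen ⟨z, by simpa [Metric.mem_ball, dist_zero_right] using hz, rfl⟩
  have hcontH : Continuous fun x : E => ⟪H x, x⟫_ℝ := by fun_prop
  -- the contact set
  set Y : Set E := {y | ‖y‖ = 1 ∧ N y ∉ interior K} with hY
  have hYcompact : IsCompact Y := by
    have hcl : IsClosed Y := by
      have h1 : IsClosed {y : E | ‖y‖ = 1} := isClosed_eq continuous_norm continuous_const
      have h2 : IsClosed {y : E | N y ∉ interior K} := by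
        have hopen : IsOpen {y : E | N y ∈ interior K} := isOpen_interior.preimage N.continuous
        exact hopen.isClosed_compl
      exact h1.inter h2
    refine (isCompact_closedBall (0 : E) 1).of_isClosed_subset hcl (fun y hy => ?_)
    simp [Metric.mem_closedBall, dist_zero_right, hy.1]
  obtain ⟨δ, hδ, hδY⟩ : ∃ δ : ℝ, 0 < δ ∧ ∀ y ∈ Y, ⟪H y, y⟫_ℝ ≤ -2 * δ := by
    rcases Y.eq_empty_or_nonempty with hemp | hne
    · exact ⟨1, one_pos, by simp [hemp]⟩
    · obtain ⟨y₀, hy₀, hmax⟩ := hYcompact.exists_isMaxOn hne hcontH.continuousOn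
      have hneg := hH y₀ hy₀.1 hy₀.2
      refine ⟨-⟪H y₀, y₀⟫_ℝ / 2, by linarith, fun y hy => ?_⟩
      have h : ⟪H y, y⟫_ℝ ≤ ⟪H y₀, y₀⟫_ℝ := hmax hy
      linarith
  -- the part of the ball where `⟪H x, x⟫ ≥ -δ`
  set W : Set E := {x | ‖x‖ ≤ 1 ∧ -δ ≤ ⟪H x, x⟫_ℝ} with hW
  have hWcompact : IsCompact W := by
    have hcl : IsClosed W :=
      (isClosed_le continuous_norm continuous_const).inter
        (isClosed_le continuous_const hcontH)
    refine (isCompact_closedBall (0 : E) 1).of_isClosed_subset hcl (fun x hx => ?_)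
    simp [Metric.mem_closedBall, dist_zero_right, hx.1]
  have hNW : N '' W ⊆ interior K := by
    rintro _ ⟨x, hx, rfl⟩
    rcases hx.1.lt_or_eq with hlt | heq
    · exact hint x hlt
    · by_contra hcon
      have := hδY x ⟨heq, hcon⟩
      linarith [hx.2]
  obtain ⟨ε, hε, hthick⟩ :=
    (hWcompact.image N.continuous).exists_thickening_subset_open isOpen_interior hNW
  set M : ℝ := ‖(N : E →L[ℝ] E)‖ * ‖H‖ + 1 with hM
  have hMpos : 0 < M := by positivity
  have hH2 : 0 < ‖H‖ ^ 2 + 1 := by positivity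
  refine ⟨min (ε / (2 * M)) (δ / (‖H‖ ^ 2 + 1)), lt_min (by positivity) (by positivity), ?_⟩
  intro t ht htle z hz
  have ht1 : t ≤ ε / (2 * M) := htle.trans (min_le_left _ _)
  have ht2 : t ≤ δ / (‖H‖ ^ 2 + 1) := htle.trans (min_le_right _ _)
  have hHz : ‖H z‖ ≤ ‖H‖ := by
    have := H.le_opNorm z
    nlinarith [norm_nonneg H]
  by_cases hzW : z ∈ W
  · -- `N (z + t H z)` is within `ε` of `N z ∈ N '' W`
    apply interior_subset
    apply hthick
    rw [Metric.mem_thickening_iff]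
    refine ⟨N z, ⟨z, hzW, rfl⟩, ?_⟩
    have hdist : dist (N (z + t • H z)) (N z) = t * ‖N (H z)‖ := by
      rw [dist_eq_norm, map_add, add_sub_cancel_left, map_smul, norm_smul, Real.norm_eq_abs,
        abs_of_pos ht]
    rw [hdist]
    have hNH : ‖N (H z)‖ ≤ ‖(N : E →L[ℝ] E)‖ * ‖H‖ := by
      have h1 : ‖N (H z)‖ ≤ ‖(N : E →L[ℝ] E)‖ * ‖H z‖ := (N : E →L[ℝ] E).le_opNorm (H z)
      exact h1.trans (mul_le_mul_of_nonneg_left hHz (norm_nonneg _))
    have h3 : t * ‖N (H z)‖ ≤ t * M := by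
      apply mul_le_mul_of_nonneg_left _ ht.le
      rw [hM]; linarith
    have h4 : t * M ≤ ε / 2 := by
      have := mul_le_mul_of_nonneg_right ht1 hMpos.le
      have h5 : ε / (2 * M) * M = ε / 2 := by field_simp
      linarith
    linarith
  · -- here `⟪H z, z⟫ < -δ`, so `‖z + t H z‖ ≤ 1`
    have hlt : ⟪H z, z⟫_ℝ < -δ := by
      by_contra hcon
      push Not at hcon
      exact hzW ⟨hz, hcon⟩
    apply hNK
    have hsq : ‖z + t • H z‖ ^ 2 ≤ 1 := by
      rw [norm_add_sq_real, inner_smul_right, norm_smul, Real.norm_eq_abs, abs_of_pos ht,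
        real_inner_comm]
      have hz2 : ‖z‖ ^ 2 ≤ 1 := by
        have := norm_nonneg z
        nlinarith
      have h1 : (t * ‖H z‖) ^ 2 ≤ t ^ 2 * ‖H‖ ^ 2 := by
        rw [mul_pow]
        apply mul_le_mul_of_nonneg_left _ (sq_nonneg t)
        exact pow_le_pow_left₀ (norm_nonneg _) hHz 2
      have h2 : t * (‖H‖ ^ 2 + 1) ≤ δ := by
        have := mul_le_mul_of_nonneg_right ht2 hH2.le
        have h5 : δ / (‖H‖ ^ 2 + 1) * (‖H‖ ^ 2 + 1) = δ := by field_simp
        linarith
      have h3 : t ^ 2 * ‖H‖ ^ 2 ≤ t * δ := by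
        have h6 : t * ‖H‖ ^ 2 ≤ δ := by nlinarith [sq_nonneg ‖H‖]
        have := mul_le_mul_of_nonneg_left h6 ht.le
        nlinarith
      have h4 : 2 * (t * ⟪H z, z⟫_ℝ) ≤ -2 * (t * δ) := by
        have := mul_le_mul_of_nonneg_left hlt.le ht.le
        linarith
      nlinarith
    have hnn := norm_nonneg (z + t • H z)
    nlinarith

end Vale.Agent.Lib.P243.helper23.Ell
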