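import Mathlib

open scoped InnerProductSpace Topology

namespace Vale.Agent.Lib.P243.helper23.Ell

variable {E : Type*} [NormedAddCommGroup E] [InnerProductSpace ℝ E]

/-- The solid ellipsoid centred at the origin with orthonormal axes `f 0, f 1, f 2` and
semi-axes `σ 0, σ 1, σ 2`: the points `x` with `∑ i, (⟪x, f i⟫ / σ i)^2 ≤ 1`. -/
def ellipsoid (f : OrthonormalBasis (Fin 3) ℝ E) (σ : Fin 3 → ℝ) : Set E :=
  {x | ∑ i, (⟪x, f i⟫_ℝ / σ i) ^ 2 ≤ 1}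

theorem mem_ellipsoid {f : OrthonormalBasis (Fin 3) ℝ E} {σ : Fin 3 → ℝ} {x : E} :
    x ∈ ellipsoid f σ ↔ ∑ i, (⟪x, f i⟫_ℝ / σ i) ^ 2 ≤ 1 := Iff.rfl

/-- `(g, σ)` is a singular system of the linear map `N`: the vectors `N (g i)` are pairwise
orthogonal of lengths `σ i > 0`, written as a formula for the pulled back inner product. -/
def SingSys (N : E →L[ℝ] E) (g : OrthonormalBasis (Fin 3) ℝ E) (σ : Fin 3 → ℝ) : Prop :=
  (∀ i, 0 < σ i) ∧ ∀ x x' : E, ⟪N x, N x'⟫_ℝ = ∑ i, σ i ^ 2 * ⟪x, g i⟫_ℝ * ⟪x', g i⟫_ℝ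

/-- The perturbation `N ∘ (1 + t H)` has, for all small `t > 0`, a larger value of
`|det| / ‖·‖` than `N`. -/
def Improves (N H : E →L[ℝ] E) : Prop :=
  ∀ᶠ t in 𝓝[>] (0 : ℝ),
    ‖N ∘L (ContinuousLinearMap.id ℝ E + t • H)‖
      < |LinearMap.det ((ContinuousLinearMap.id ℝ E + t • H : E →L[ℝ] E) : E →ₗ[ℝ] E)| * ‖N‖

end Vale.Agent.Lib.P243.helper23.Ell
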