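import Mathlib

/-!
# P243, ticket E3: the finite inequality behind the oblate case of the ellipsoid lemma

`exists_good_contact`: given at most four contacts with weights `c j > 0`, `∑ c j = 2`,
`∑ c j * α j ^ 2 = 1`, `α j ^ 2 + β j ^ 2 = 1`, `α j, β j ≥ 0`, some contact `j` has
`β j > 0` and `β j ≥ (16/25) * (∑ k, c k * α k - c j * α j)`.
-/

open scoped BigOperators

namespace Vale.Agent.Lib.P243.helper23.Ell

/-- One-variable bound: `c (1 - c) (2 - c) ≤ 25/64` on `[0, 2]`. -/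
theorem cubic_le {c : ℝ} (h0 : 0 ≤ c) (h2 : c ≤ 2) : c * (2 - c) * (1 - c) ≤ 25 / 64 := by
  rcases le_total c 1 with h1 | h1
  · nlinarith [mul_nonneg (sq_nonneg (c - 21 / 50)) (by linarith : (0 : ℝ) ≤ 54 / 25 - c)]
  · have : c * (2 - c) * (1 - c) ≤ 0 :=
      mul_nonpos_of_nonneg_of_nonpos (mul_nonneg h0 (by linarith)) (by linarith)
    linarith

/-- The pointwise bound `c (2 - c) (1 - p) ≤ 25/64 + (3/4) c - (3/4) p` for `0 ≤ p ≤ c ≤ 2`. -/
theorem pointwise_le {c p : ℝ} (hc : 0 < c) (h2 : c ≤ 2) (hp0 : 0 ≤ p) (hpc : p ≤ c) :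
    c * (2 - c) * (1 - p) ≤ 25 / 64 + 3 / 4 * c - 3 / 4 * p := by
  have hA : 0 ≤ 25 / 64 + 3 / 4 * c - c * (2 - c) := by nlinarith [sq_nonneg (c - 5 / 8)]
  have hB : 0 ≤ 25 / 64 - c * (2 - c) * (1 - c) := by
    have := cubic_le hc.le h2
    linarith
  have h1 := mul_nonneg (sub_nonneg.mpr hpc) hA
  have h3 := mul_nonneg hp0 hB
  -- `c * (RHS - LHS) = (c - p) * A + p * B`
  have key : c * (25 / 64 + 3 / 4 * c - 3 / 4 * p - c * (2 - c) * (1 - p))
      = (c - p) * (25 / 64 + 3 / 4 * c - c * (2 - c)) + p * (25 / 64 - c * (2 - c) * (1 - c)) := by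
    ring
  have h4 : 0 ≤ c * (25 / 64 + 3 / 4 * c - 3 / 4 * p - c * (2 - c) * (1 - p)) := by
    rw [key]; linarith
  have h5 : 0 ≤ 25 / 64 + 3 / 4 * c - 3 / 4 * p - c * (2 - c) * (1 - p) :=
    nonneg_of_mul_nonneg_right h4 hc
  linarith

theorem exists_good_contact {n : ℕ} (hn : n ≤ 4) (c α β : Fin n → ℝ) (hc : ∀ j, 0 < c j)
    (hα0 : ∀ j, 0 ≤ α j) (hβ0 : ∀ j, 0 ≤ β j)
    (hab : ∀ j, α j ^ 2 + β j ^ 2 = 1) (hsum : ∑ j, c j = 2) (hα : ∑ j, c j * α j ^ 2 = 1) :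
    ∃ j, 0 < β j ∧ (16 / 25 : ℝ) * (∑ k, c k * α k - c j * α j) ≤ β j := by
  classical
  by_contra hcon
  push Not at hcon
  set A : ℝ := ∑ k, c k * α k with hA
  -- the sum over the other contacts
  have herase : ∀ j, A - c j * α j = ∑ k ∈ Finset.univ.erase j, c k * α k := by
    intro j
    rw [hA, ← Finset.add_sum_erase Finset.univ (fun k => c k * α k) (Finset.mem_univ j)]
    ring
  have herase_c : ∀ j, 2 - c j = ∑ k ∈ Finset.univ.erase j, c k := by
    intro j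
    rw [← hsum, ← Finset.add_sum_erase Finset.univ (fun k => c k) (Finset.mem_univ j)]
    ring
  have herase_p : ∀ j, 1 - c j * α j ^ 2 = ∑ k ∈ Finset.univ.erase j, c k * α k ^ 2 := by
    intro j
    rw [← hα, ← Finset.add_sum_erase Finset.univ (fun k => c k * α k ^ 2) (Finset.mem_univ j)]
    ring
  have hrest_nonneg : ∀ j, 0 ≤ A - c j * α j := by
    intro j
    rw [herase j]
    exact Finset.sum_nonneg (fun k _ => mul_nonneg (hc k).le (hα0 k))
  -- `c j ≤ 2`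
  have hc2 : ∀ j, c j ≤ 2 := by
    intro j
    have h := herase_c j
    have : 0 ≤ ∑ k ∈ Finset.univ.erase j, c k := Finset.sum_nonneg (fun k _ => (hc k).le)
    linarith
  -- each `β j` is at most `(16/25) (A - c j α j)`
  have hβle : ∀ j, β j ≤ 16 / 25 * (A - c j * α j) := by
    intro j
    rcases (hβ0 j).lt_or_eq with hpos | hzero
    · exact (hcon j hpos).le
    · rw [← hzero]
      exact mul_nonneg (by norm_num) (hrest_nonneg j)
  -- Cauchy-Schwarz on the other contacts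
  have hCS : ∀ j, (A - c j * α j) ^ 2 ≤ (2 - c j) * (1 - c j * α j ^ 2) := by
    intro j
    rw [herase j, herase_c j, herase_p j]
    apply Finset.sum_sq_le_sum_mul_sum_of_sq_le_mul
    · intro k _; exact (hc k).le
    · intro k _; exact mul_nonneg (hc k).le (sq_nonneg _)
    · intro k _; exact le_of_eq (by ring)
  -- `p j = c j α j ^ 2 ≤ c j`
  have hα1 : ∀ j, α j ^ 2 ≤ 1 := by
    intro j
    have := hab j
    nlinarith [sq_nonneg (β j)]
  have hp0 : ∀ j, 0 ≤ c j * α j ^ 2 := fun j => mul_nonneg (hc j).le (sq_nonneg _)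
  have hpc : ∀ j, c j * α j ^ 2 ≤ c j := by
    intro j
    have := mul_le_mul_of_nonneg_left (hα1 j) (hc j).le
    linarith
  -- termwise bound
  have hterm : ∀ j, c j * β j ^ 2
      ≤ (16 / 25 : ℝ) ^ 2 * (25 / 64 + 3 / 4 * c j - 3 / 4 * (c j * α j ^ 2)) := by
    intro j
    have h1 : β j ^ 2 ≤ (16 / 25 * (A - c j * α j)) ^ 2 :=
      pow_le_pow_left₀ (hβ0 j) (hβle j) 2
    have h2 : (16 / 25 * (A - c j * α j)) ^ 2
        ≤ (16 / 25 : ℝ) ^ 2 * ((2 - c j) * (1 - c j * α j ^ 2)) := by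
      rw [mul_pow]
      exact mul_le_mul_of_nonneg_left (hCS j) (by norm_num)
    have h3 : c j * β j ^ 2 ≤ c j * ((16 / 25 : ℝ) ^ 2 * ((2 - c j) * (1 - c j * α j ^ 2))) :=
      mul_le_mul_of_nonneg_left (h1.trans h2) (hc j).le
    have h4 := pointwise_le (hc j) (hc2 j) (hp0 j) (hpc j)
    have h5 : c j * ((16 / 25 : ℝ) ^ 2 * ((2 - c j) * (1 - c j * α j ^ 2)))
        = (16 / 25 : ℝ) ^ 2 * (c j * (2 - c j) * (1 - c j * α j ^ 2)) := by ring
    rw [h5] at h3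
    exact h3.trans (mul_le_mul_of_nonneg_left h4 (by norm_num))
  -- sum up
  have hone : ∑ j, c j * β j ^ 2 = 1 := by
    have h1 : ∀ j, c j * β j ^ 2 = c j - c j * α j ^ 2 := by
      intro j
      have := hab j
      have hb : β j ^ 2 = 1 - α j ^ 2 := by linarith
      rw [hb]; ring
    rw [Finset.sum_congr rfl (fun j _ => h1 j), Finset.sum_sub_distrib, hsum, hα]
    norm_num
  have hsumle : ∑ j, c j * β j ^ 2
      ≤ ∑ j : Fin n, (16 / 25 : ℝ) ^ 2 * (25 / 64 + 3 / 4 * c j - 3 / 4 * (c j * α j ^ 2)) :=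
    Finset.sum_le_sum (fun j _ => hterm j)
  have hval : ∑ j : Fin n, (16 / 25 : ℝ) ^ 2 * (25 / 64 + 3 / 4 * c j - 3 / 4 * (c j * α j ^ 2))
      = (16 / 25 : ℝ) ^ 2 * ((n : ℝ) * (25 / 64) + 3 / 4 * 2 - 3 / 4 * 1) := by
    rw [← Finset.mul_sum, Finset.sum_sub_distrib, Finset.sum_add_distrib, ← Finset.mul_sum,
      ← Finset.mul_sum, hsum, hα]
    simp
  have hn' : (n : ℝ) ≤ 4 := by exact_mod_cast hn
  rw [hone, hval] at hsumle
  nlinarith
end Vale.Agent.Lib.P243.helper23.Ell
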