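import Mathlib
import Vale.Agent.Lib.P243.helper23.Ell.Defs

/-!
Three first-order perturbations `N ∘ (1 + t H)` that increase `|det| / ‖·‖`
(ball case, prolate case, oblate case).
-/

open scoped InnerProductSpace Topology

namespace Vale.Agent.Lib.P243.helper23.Ell

variable {E : Type*} [NormedAddCommGroup E] [InnerProductSpace ℝ E]

/-- positivity at `0` of a continuous function propagates to small `t > 0` -/
theorem ev_pos {f : ℝ → ℝ} (hf : Continuous f) (h0 : 0 < f 0) :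
    ∀ᶠ t in 𝓝[>] (0 : ℝ), 0 < f t :=
  ((hf.tendsto 0).eventually_const_lt h0).filter_mono nhdsWithin_le_nhds

theorem ev_gt : ∀ᶠ t in 𝓝[>] (0 : ℝ), 0 < t := self_mem_nhdsWithin

theorem opNorm_le_of_sq {T : E →L[ℝ] E} {C : ℝ} (hC : 0 ≤ C)
    (h : ∀ x, ‖T x‖ ^ 2 ≤ C ^ 2 * ‖x‖ ^ 2) : ‖T‖ ≤ C := by
  refine T.opNorm_le_bound hC (fun x => ?_)
  have h2 : ‖T x‖ ^ 2 ≤ (C * ‖x‖) ^ 2 := by rw [mul_pow]; exact h x
  exact (pow_le_pow_iff_left₀ (norm_nonneg _) (by positivity) two_ne_zero).mp h2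

/-- the determinant of an endomorphism through its matrix in an orthonormal basis -/
theorem det_eq_inner (b : OrthonormalBasis (Fin 3) ℝ E) (T : E →ₗ[ℝ] E) :
    LinearMap.det T = Matrix.det (Matrix.of fun i j : Fin 3 => ⟪T (b j), b i⟫_ℝ) := by
  rw [← LinearMap.det_toMatrix b.toBasis]
  congr 1
  ext i j
  rw [LinearMap.toMatrix_apply, Matrix.of_apply, b.coe_toBasis_repr_apply, b.repr_apply_apply,
    b.coe_toBasis, real_inner_comm]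

theorem sq_norm_of_singSys {N : E →L[ℝ] E} {g : OrthonormalBasis (Fin 3) ℝ E} {σ : Fin 3 → ℝ}
    (hS : SingSys N g σ) (y : E) :
    ‖N y‖ ^ 2 = σ 0 ^ 2 * ⟪y, g 0⟫_ℝ ^ 2 + σ 1 ^ 2 * ⟪y, g 1⟫_ℝ ^ 2 + σ 2 ^ 2 * ⟪y, g 2⟫_ℝ ^ 2 := by
  rw [← real_inner_self_eq_norm_sq, hS.2 y y, Fin.sum_univ_three]
  ring

theorem sq_norm_coord (g : OrthonormalBasis (Fin 3) ℝ E) (y : E) :
    ‖y‖ ^ 2 = ⟪y, g 0⟫_ℝ ^ 2 + ⟪y, g 1⟫_ℝ ^ 2 + ⟪y, g 2⟫_ℝ ^ 2 := by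
  rw [← g.sum_sq_inner_left y, Fin.sum_univ_three]

theorem inner_basis (g : OrthonormalBasis (Fin 3) ℝ E) (i j : Fin 3) :
    ⟪g i, g j⟫_ℝ = if i = j then 1 else 0 := g.inner_eq_ite i j

theorem le_opNorm_of_singSys {N : E →L[ℝ] E} {g : OrthonormalBasis (Fin 3) ℝ E} {σ : Fin 3 → ℝ}
    (hS : SingSys N g σ) : σ 0 ≤ ‖N‖ := by
  have h1 : ‖N (g 0)‖ ^ 2 = σ 0 ^ 2 := by
    rw [sq_norm_of_singSys hS]
    simp
  have h2 : ‖N (g 0)‖ = σ 0 := (sq_eq_sq₀ (norm_nonneg _) (hS.1 0).le).mp h1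
  have h3 := N.le_opNorm (g 0)
  rw [h2, g.orthonormal.1 0, mul_one] at h3
  exact h3

theorem det_id_add (b : OrthonormalBasis (Fin 3) ℝ E) (H : E →L[ℝ] E) (t : ℝ) :
    LinearMap.det ((ContinuousLinearMap.id ℝ E + t • H : E →L[ℝ] E) : E →ₗ[ℝ] E)
      = Matrix.det (Matrix.of fun i j : Fin 3 => ⟪b j + t • H (b j), b i⟫_ℝ) := by
  rw [det_eq_inner b]
  rfl

theorem comp_id_add_apply (N H : E →L[ℝ] E) (t : ℝ) (x : E) :
    (N ∘L (ContinuousLinearMap.id ℝ E + t • H)) x = N (x + t • H x) := by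
  simp

/-- ball case -/
theorem improve_ball (hdim : Module.finrank ℝ E = 3) {N : E →L[ℝ] E}
    {g : OrthonormalBasis (Fin 3) ℝ E} {σ : Fin 3 → ℝ} (hS : SingSys N g σ)
    (h1 : σ 1 = σ 0) (h2 : σ 2 = σ 0) (e : OrthonormalBasis (Fin 3) ℝ E) (θ : ℝ) (hθ : θ < 1)
    (hθ' : -1 ≤ θ) (H : E →L[ℝ] E)
    (hH : ∀ x, H x = ⟪x, e 0⟫_ℝ • e 0 - (θ * ⟪x, e 1⟫_ℝ) • e 1 + ⟪x, e 2⟫_ℝ • e 2) :
    Improves N H := by
  have _hd := hdim
  have hs : 0 < σ 0 := hS.1 0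
  have hNs : σ 0 ≤ ‖N‖ := le_opNorm_of_singSys hS
  have c0 : ∀ (t : ℝ) (x : E), ⟪x + t • H x, e 0⟫_ℝ = (1 + t) * ⟪x, e 0⟫_ℝ := by
    intro t x
    rw [hH]
    simp only [inner_add_left, inner_sub_left, real_inner_smul_left, inner_basis]
    simp
    ring
  have c1 : ∀ (t : ℝ) (x : E), ⟪x + t • H x, e 1⟫_ℝ = (1 - θ * t) * ⟪x, e 1⟫_ℝ := by
    intro t x
    rw [hH]
    simp only [inner_add_left, inner_sub_left, real_inner_smul_left, inner_basis]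
    simp
    ring
  have c2 : ∀ (t : ℝ) (x : E), ⟪x + t • H x, e 2⟫_ℝ = (1 + t) * ⟪x, e 2⟫_ℝ := by
    intro t x
    rw [hH]
    simp only [inner_add_left, inner_sub_left, real_inner_smul_left, inner_basis]
    simp
    ring
  have hdet : ∀ t : ℝ,
      LinearMap.det ((ContinuousLinearMap.id ℝ E + t • H : E →L[ℝ] E) : E →ₗ[ℝ] E)
        = (1 + t) * (1 - θ * t) * (1 + t) := by
    intro t
    rw [det_id_add e, Matrix.det_fin_three]
    simp only [Matrix.of_apply, c0, c1, c2, inner_basis]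
    simp
  unfold Improves
  filter_upwards [ev_gt, ev_pos (f := fun t => (1 - θ) - θ * t) (by fun_prop) (by simp; linarith),
    ev_pos (f := fun t => 1 - θ * t) (by fun_prop) (by simp)] with t ht0 ht1 ht2
  have hq : (1 - θ * t) ^ 2 ≤ (1 + t) ^ 2 := by
    have := mul_nonneg (mul_nonneg ht0.le (by linarith : (0 : ℝ) ≤ 1 + θ))
      (by nlinarith : (0 : ℝ) ≤ 2 + t * (1 - θ))
    nlinarith
  have hnorm : ‖N ∘L (ContinuousLinearMap.id ℝ E + t • H)‖ ≤ σ 0 * (1 + t) := by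
    refine opNorm_le_of_sq (by positivity) (fun x => ?_)
    rw [comp_id_add_apply, sq_norm_of_singSys hS, h1, h2, sq_norm_coord e x]
    have hy := sq_norm_coord g (x + t • H x)
    rw [sq_norm_coord e (x + t • H x), c0, c1, c2] at hy
    have h3 := mul_nonneg (sq_nonneg (σ 0)) (mul_nonneg (sub_nonneg.mpr hq) (sq_nonneg ⟪x, e 1⟫_ℝ))
    nlinarith
  rw [hdet t]
  have hpos : 0 < (1 + t) * (1 - θ * t) * (1 + t) := by positivity
  rw [abs_of_pos hpos]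
  have hgt : 1 < (1 - θ * t) * (1 + t) := by nlinarith
  calc ‖N ∘L (ContinuousLinearMap.id ℝ E + t • H)‖ ≤ σ 0 * (1 + t) := hnorm
    _ < (1 + t) * (1 - θ * t) * (1 + t) * σ 0 := by
        have := mul_pos (mul_pos hs (by linarith : (0 : ℝ) < 1 + t)) (sub_pos.mpr hgt)
        linarith
    _ ≤ (1 + t) * (1 - θ * t) * (1 + t) * ‖N‖ := by
        exact mul_le_mul_of_nonneg_left hNs hpos.le

/-- prolate case -/
theorem improve_prolate (hdim : Module.finrank ℝ E = 3) {N : E →L[ℝ] E}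
    {g : OrthonormalBasis (Fin 3) ℝ E} {σ : Fin 3 → ℝ} (hS : SingSys N g σ)
    (h1 : σ 1 < σ 0) (h2 : σ 2 ≤ σ 1) (e : OrthonormalBasis (Fin 3) ℝ E) (he : e 0 = g 0)
    (θ μ : ℝ) (hθ : θ < 1) (hθ' : -1 ≤ θ) (H : E →L[ℝ] E)
    (hH : ∀ x, H x = -(μ * ⟪x, e 0⟫_ℝ) • e 0 - (θ * ⟪x, e 1⟫_ℝ) • e 1 + ⟪x, e 2⟫_ℝ • e 2) :
    Improves N H := by
  have _hd := hdim
  have hs0 : 0 < σ 0 := hS.1 0
  have hs1 : 0 < σ 1 := hS.1 1
  have hs2 : 0 < σ 2 := hS.1 2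
  have hNs : σ 0 ≤ ‖N‖ := le_opNorm_of_singSys hS
  have c0 : ∀ (t : ℝ) (x : E), ⟪x + t • H x, e 0⟫_ℝ = (1 - μ * t) * ⟪x, e 0⟫_ℝ := by
    intro t x
    rw [hH]
    simp only [inner_add_left, inner_sub_left, real_inner_smul_left, inner_basis]
    simp
    ring
  have c1 : ∀ (t : ℝ) (x : E), ⟪x + t • H x, e 1⟫_ℝ = (1 - θ * t) * ⟪x, e 1⟫_ℝ := by
    intro t x
    rw [hH]
    simp only [inner_add_left, inner_sub_left, real_inner_smul_left, inner_basis]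
    simp
    ring
  have c2 : ∀ (t : ℝ) (x : E), ⟪x + t • H x, e 2⟫_ℝ = (1 + t) * ⟪x, e 2⟫_ℝ := by
    intro t x
    rw [hH]
    simp only [inner_add_left, inner_sub_left, real_inner_smul_left, inner_basis]
    simp
    ring
  have hdet : ∀ t : ℝ,
      LinearMap.det ((ContinuousLinearMap.id ℝ E + t • H : E →L[ℝ] E) : E →ₗ[ℝ] E)
        = (1 - μ * t) * (1 - θ * t) * (1 + t) := by
    intro t
    rw [det_id_add e, Matrix.det_fin_three]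
    simp only [Matrix.of_apply, c0, c1, c2, inner_basis]
    simp
  unfold Improves
  filter_upwards [ev_gt, ev_pos (f := fun t => (1 - θ) - θ * t) (by fun_prop) (by simp; linarith),
    ev_pos (f := fun t => 1 - θ * t) (by fun_prop) (by simp),
    ev_pos (f := fun t => 1 - μ * t) (by fun_prop) (by simp),
    ev_pos (f := fun t => σ 0 * (1 - μ * t) - σ 1 * (1 + t)) (by fun_prop) (by simp; linarith)]
    with t ht0 ht1 ht2 ht3 ht4
  have hq : (1 - θ * t) ^ 2 ≤ (1 + t) ^ 2 := by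
    have := mul_nonneg (mul_nonneg ht0.le (by linarith : (0 : ℝ) ≤ 1 + θ))
      (by nlinarith : (0 : ℝ) ≤ 2 + t * (1 - θ))
    nlinarith
  have hσ : (σ 1 * (1 + t)) ^ 2 ≤ (σ 0 * (1 - μ * t)) ^ 2 := by
    apply pow_le_pow_left₀ (by positivity)
    linarith
  have hσ21 : σ 2 ^ 2 ≤ σ 1 ^ 2 := pow_le_pow_left₀ hs2.le h2 2
  have hnorm : ‖N ∘L (ContinuousLinearMap.id ℝ E + t • H)‖ ≤ σ 0 * (1 - μ * t) := by
    refine opNorm_le_of_sq (by positivity) (fun x => ?_)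
    rw [comp_id_add_apply, sq_norm_of_singSys hS, sq_norm_coord e x]
    have hy := sq_norm_coord g (x + t • H x)
    rw [sq_norm_coord e (x + t • H x), ← he, c0, c1, c2] at hy
    rw [← he, c0]
    set G1 := ⟪x + t • H x, g 1⟫_ℝ
    set G2 := ⟪x + t • H x, g 2⟫_ℝ
    set x0 := ⟪x, e 0⟫_ℝ
    set x1 := ⟪x, e 1⟫_ℝ
    set x2 := ⟪x, e 2⟫_ℝ
    have hG : G1 ^ 2 + G2 ^ 2 = ((1 - θ * t) * x1) ^ 2 + ((1 + t) * x2) ^ 2 := by linarith
    have e1 : σ 1 ^ 2 * G1 ^ 2 + σ 2 ^ 2 * G2 ^ 2 ≤ σ 1 ^ 2 * (G1 ^ 2 + G2 ^ 2) := by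
      have := mul_le_mul_of_nonneg_right hσ21 (sq_nonneg G2)
      linarith
    have e2 : σ 1 ^ 2 * (((1 - θ * t) * x1) ^ 2 + ((1 + t) * x2) ^ 2)
        ≤ (σ 1 * (1 + t)) ^ 2 * (x1 ^ 2 + x2 ^ 2) := by
      have := mul_nonneg (sq_nonneg (σ 1)) (mul_nonneg (sub_nonneg.mpr hq) (sq_nonneg x1))
      nlinarith
    have e3 : (σ 1 * (1 + t)) ^ 2 * (x1 ^ 2 + x2 ^ 2)
        ≤ (σ 0 * (1 - μ * t)) ^ 2 * (x1 ^ 2 + x2 ^ 2) :=
      mul_le_mul_of_nonneg_right hσ (by positivity)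
    rw [hG] at e1
    nlinarith
  rw [hdet t]
  have hpos : 0 < (1 - μ * t) * (1 - θ * t) * (1 + t) := by positivity
  rw [abs_of_pos hpos]
  have hgt : 1 < (1 - θ * t) * (1 + t) := by nlinarith
  calc ‖N ∘L (ContinuousLinearMap.id ℝ E + t • H)‖ ≤ σ 0 * (1 - μ * t) := hnorm
    _ < (1 - μ * t) * (1 - θ * t) * (1 + t) * σ 0 := by
        have := mul_pos (mul_pos hs0 ht3) (sub_pos.mpr hgt)
        linarith
    _ ≤ (1 - μ * t) * (1 - θ * t) * (1 + t) * ‖N‖ := by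
        exact mul_le_mul_of_nonneg_left hNs hpos.le

/-- oblate case -/
theorem improve_oblate (hdim : Module.finrank ℝ E = 3) {N : E →L[ℝ] E}
    {g : OrthonormalBasis (Fin 3) ℝ E} {σ : Fin 3 → ℝ} (hS : SingSys N g σ)
    (h1 : σ 1 = σ 0) (h2 : σ 2 < σ 0) (h ε : ℝ) (hε : 0 < ε) (m : E) (hm : ⟪m, g 2⟫_ℝ = 0)
    (H : E →L[ℝ] E)
    (hH : ∀ x, H x = ((h + ε) * ⟪x, g 2⟫_ℝ) • g 2 - h • (x - ⟪x, g 2⟫_ℝ • g 2) + ⟪x, g 2⟫_ℝ • m) :
    Improves N H := by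
  have _hd := hdim
  have hb : 0 < σ 0 := hS.1 0
  have ha : 0 < σ 2 := hS.1 2
  have hNs : σ 0 ≤ ‖N‖ := le_opNorm_of_singSys hS
  set b := σ 0 with hbdef
  set a := σ 2 with hadef
  set m0 := ⟪m, g 0⟫_ℝ with hm0
  set m1 := ⟪m, g 1⟫_ℝ with hm1
  have c0 : ∀ (t : ℝ) (x : E), ⟪x + t • H x, g 0⟫_ℝ
      = (1 - t * h) * ⟪x, g 0⟫_ℝ + t * ⟪x, g 2⟫_ℝ * m0 := by
    intro t x
    rw [hH]
    simp only [inner_add_left, inner_sub_left, real_inner_smul_left, inner_basis]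
    simp
    ring
  have c1 : ∀ (t : ℝ) (x : E), ⟪x + t • H x, g 1⟫_ℝ
      = (1 - t * h) * ⟪x, g 1⟫_ℝ + t * ⟪x, g 2⟫_ℝ * m1 := by
    intro t x
    rw [hH]
    simp only [inner_add_left, inner_sub_left, real_inner_smul_left, inner_basis]
    simp
    ring
  have c2 : ∀ (t : ℝ) (x : E), ⟪x + t • H x, g 2⟫_ℝ = (1 + t * (h + ε)) * ⟪x, g 2⟫_ℝ := by
    intro t x
    rw [hH]
    simp only [inner_add_left, inner_sub_left, real_inner_smul_left, inner_basis, hm]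
    simp
    ring
  have hdet : ∀ t : ℝ,
      LinearMap.det ((ContinuousLinearMap.id ℝ E + t • H : E →L[ℝ] E) : E →ₗ[ℝ] E)
        = (1 - t * h) * (1 - t * h) * (1 + t * (h + ε)) := by
    intro t
    rw [det_id_add g, Matrix.det_fin_three]
    simp only [Matrix.of_apply, c0, c1, c2, inner_basis]
    simp
  set γ := (b ^ 2 - a ^ 2) / 2 with hγdef
  have hγ : 0 < γ := by
    have : a ^ 2 < b ^ 2 := pow_lt_pow_left₀ h2 ha.le two_ne_zero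
    rw [hγdef]; linarith
  set M2 := m0 ^ 2 + m1 ^ 2 with hM2
  have hM2nn : 0 ≤ M2 := by positivity
  set K := 4 * b ^ 4 * M2 / γ with hKdef
  have hK : K * γ = 4 * b ^ 4 * M2 := by rw [hKdef]; field_simp
  have hKnn : 0 ≤ K := by rw [hKdef]; positivity
  unfold Improves
  filter_upwards [ev_gt, ev_pos (f := fun t => 1 - t * h) (by fun_prop) (by simp),
    ev_pos (f := fun t => 4 - (1 - t * h) ^ 2) (by fun_prop) (by norm_num),
    ev_pos (f := fun t => b ^ 2 * (1 - t * h) ^ 2 - a ^ 2 * (1 + t * (h + ε)) ^ 2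
      - b ^ 2 * t ^ 2 * M2 - γ) (by fun_prop) (by simp; rw [hγdef]; linarith),
    ev_pos (f := fun t => 1 + t * (h + ε)) (by fun_prop) (by simp),
    ev_pos (f := fun t => b ^ 2 * (1 - t * h) ^ 2 * (ε - h * (h + ε) * t)
      * ((1 - t * h) * (1 + t * (h + ε)) + 1) - K * t) (by fun_prop)
      (by simp; positivity)]
    with t ht0 hP hP4 hc hQ hfin
  set P := 1 - t * h with hPdef
  set Q := 1 + t * (h + ε) with hQdef
  have hCnn : 0 ≤ b ^ 2 * P ^ 2 + K * t ^ 2 := by positivity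
  have hnorm : ‖N ∘L (ContinuousLinearMap.id ℝ E + t • H)‖
      ≤ Real.sqrt (b ^ 2 * P ^ 2 + K * t ^ 2) := by
    refine opNorm_le_of_sq (Real.sqrt_nonneg _) (fun x => ?_)
    rw [comp_id_add_apply, sq_norm_of_singSys hS, sq_norm_coord g x, Real.sq_sqrt hCnn,
      c0, c1, c2, h1]
    set x0 := ⟪x, g 0⟫_ℝ
    set x1 := ⟪x, g 1⟫_ℝ
    set s := ⟪x, g 2⟫_ℝ
    have key : γ * ((b ^ 2 * P ^ 2 + K * t ^ 2) * (x0 ^ 2 + x1 ^ 2 + s ^ 2)
        - (b ^ 2 * (P * x0 + t * s * m0) ^ 2 + b ^ 2 * (P * x1 + t * s * m1) ^ 2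
            + a ^ 2 * (Q * s) ^ 2))
        = (γ * s - b ^ 2 * P * t * (x0 * m0 + x1 * m1)) ^ 2
          + (4 - P ^ 2) * b ^ 4 * t ^ 2 * (x0 * m0 + x1 * m1) ^ 2
          + 4 * b ^ 4 * t ^ 2 * (x0 * m1 - x1 * m0) ^ 2
          + 4 * b ^ 4 * M2 * t ^ 2 * s ^ 2
          + γ * (b ^ 2 * P ^ 2 - a ^ 2 * Q ^ 2 - b ^ 2 * t ^ 2 * M2 - γ) * s ^ 2 := by
      rw [hM2]
      linear_combination (t ^ 2 * (x0 ^ 2 + x1 ^ 2 + s ^ 2)) * hK
    have hnn : 0 ≤ γ * ((b ^ 2 * P ^ 2 + K * t ^ 2) * (x0 ^ 2 + x1 ^ 2 + s ^ 2)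
        - (b ^ 2 * (P * x0 + t * s * m0) ^ 2 + b ^ 2 * (P * x1 + t * s * m1) ^ 2
            + a ^ 2 * (Q * s) ^ 2)) := by
      rw [key]
      have t1 : 0 ≤ (4 - P ^ 2) * b ^ 4 * t ^ 2 * (x0 * m0 + x1 * m1) ^ 2 := by
        have := hP4.le
        positivity
      have t2 : 0 ≤ γ * (b ^ 2 * P ^ 2 - a ^ 2 * Q ^ 2 - b ^ 2 * t ^ 2 * M2 - γ) * s ^ 2 := by
        have := hc.le
        positivity
      positivity
    have := nonneg_of_mul_nonneg_right hnn hγ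
    linarith
  rw [hdet t]
  have hpos : 0 < P * P * Q := by positivity
  rw [abs_of_pos hpos]
  have hD : 0 < P * P * Q * b := by positivity
  have hlt : Real.sqrt (b ^ 2 * P ^ 2 + K * t ^ 2) < P * P * Q * b := by
    rw [Real.sqrt_lt' hD]
    have e : (P * P * Q * b) ^ 2 - (b ^ 2 * P ^ 2 + K * t ^ 2)
        = t * (b ^ 2 * P ^ 2 * (ε - h * (h + ε) * t) * (P * Q + 1) - K * t) := by
      rw [hPdef, hQdef]; ring
    have := mul_pos ht0 hfin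
    linarith
  calc ‖N ∘L (ContinuousLinearMap.id ℝ E + t • H)‖
      ≤ Real.sqrt (b ^ 2 * P ^ 2 + K * t ^ 2) := hnorm
    _ < P * P * Q * b := hlt
    _ ≤ P * P * Q * ‖N‖ := mul_le_mul_of_nonneg_left hNs hpos.le

end Vale.Agent.Lib.P243.helper23.Ell
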