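import Mathlib

open scoped InnerProductSpace

namespace Vale.Agent.Lib.P243.helper23.Ell

variable {E : Type*} [NormedAddCommGroup E] [InnerProductSpace ℝ E] [FiniteDimensional ℝ E]

/-- In a finite-dimensional space the convex hull of a compact set is compact
(Caratheodory plus compactness of the parameter space). -/
theorem isCompact_convexHull_of_isCompact {s : Set E} (hs : IsCompact s) :
    IsCompact (convexHull ℝ s) := by
  classical
  set d := Module.finrank ℝ E with hd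
  let Φ : (Fin (d + 1) → E) × (Fin (d + 1) → ℝ) → E := fun q => ∑ i, q.2 i • q.1 i
  have hΦ : Continuous Φ := by
    apply continuous_finsetSum
    intro i _
    exact ((continuous_apply i).comp continuous_snd).smul ((continuous_apply i).comp continuous_fst)
  have hK : IsCompact ((Set.univ.pi fun _ : Fin (d + 1) => s) ×ˢ stdSimplex ℝ (Fin (d + 1))) :=
    (isCompact_univ_pi fun _ => hs).prod (isCompact_stdSimplex ℝ (Fin (d + 1)))
  have himg : convexHull ℝ s =
      Φ '' ((Set.univ.pi fun _ : Fin (d + 1) => s) ×ˢ stdSimplex ℝ (Fin (d + 1))) := by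
    apply Set.Subset.antisymm
    · intro x hx
      obtain ⟨ι, _, z, w, hzs, hai, hwpos, hwsum, hwz⟩ := eq_pos_convex_span_of_mem_convexHull hx
      have hcard : Fintype.card ι ≤ d + 1 := by
        have h1 := hai.card_le_finrank_succ
        have h2 : Module.finrank ℝ (vectorSpan ℝ (Set.range z)) ≤ d := Submodule.finrank_le _
        omega
      have hne : Nonempty ι := by
        by_contra hemp
        rw [not_nonempty_iff] at hemp
        simp at hwsum
      obtain ⟨i₀⟩ := hne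
      let emb : ι → Fin (d + 1) := fun i => Fin.castLE hcard (Fintype.equivFin ι i)
      have hemb : Function.Injective emb :=
        (Fin.castLE_injective hcard).comp (Fintype.equivFin ι).injective
      refine ⟨(Function.extend emb z (fun _ => z i₀), Function.extend emb w 0), ⟨?_, ?_, ?_⟩, ?_⟩
      · intro j _
        by_cases hj : ∃ i, emb i = j
        · obtain ⟨i, rfl⟩ := hj
          simp only [hemb.extend_apply]
          exact hzs ⟨i, rfl⟩
        · simp only [Function.extend_apply' _ _ _ hj]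
          exact hzs ⟨i₀, rfl⟩
      · intro j
        by_cases hj : ∃ i, emb i = j
        · obtain ⟨i, rfl⟩ := hj
          simp only [hemb.extend_apply]
          exact (hwpos i).le
        · simp only [Function.extend_apply' _ _ _ hj]
          simp
      · rw [← hwsum]
        symm
        apply Fintype.sum_of_injective emb hemb
        · intro j hj
          exact Function.extend_apply' _ _ _ (by simpa using hj)
        · intro i
          simp only [hemb.extend_apply]
      · rw [← hwz]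
        symm
        apply Fintype.sum_of_injective emb hemb
        · intro j hj
          have hj' : ¬∃ i, emb i = j := by simpa using hj
          simp only [Function.extend_apply' _ _ _ hj']
          simp
        · intro i
          simp only [hemb.extend_apply]
    · rintro _ ⟨⟨p, w⟩, ⟨hp, hw⟩, rfl⟩
      exact (convex_convexHull ℝ s).sum_mem (fun i _ => hw.1 i) hw.2
        (fun i _ => subset_convexHull ℝ s (hp i (Set.mem_univ i)))
  rw [himg]
  exact hK.image hΦ

/-- Oblate case: contact extraction by separation and the Caratheodory theorem. -/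
theorem oblate_contacts (hdim : Module.finrank ℝ E = 3) (g : OrthonormalBasis (Fin 3) ℝ E)
    (Y : Set E) (hYc : IsCompact Y) (hY1 : ∀ y ∈ Y, ‖y‖ = 1) (hYs : ∀ y ∈ Y, -y ∈ Y)
    (hQ : ∀ (h ε : ℝ) (m : E), 0 < ε → ⟪m, g 2⟫_ℝ = 0 →
      ∃ y ∈ Y, 0 ≤ (h + ε) * ⟪y, g 2⟫_ℝ ^ 2 - h * (1 - ⟪y, g 2⟫_ℝ ^ 2) +
        ⟪y, g 2⟫_ℝ * ⟪m, y⟫_ℝ) :
    ∃ (n : ℕ) (y : Fin n → E) (c : Fin n → ℝ), n ≤ 4 ∧ (∀ j, y j ∈ Y) ∧ (∀ j, 0 < c j) ∧
      (∀ j, 0 ≤ ⟪y j, g 2⟫_ℝ) ∧ ∑ j, c j = 2 ∧ ∑ j, c j * ⟪y j, g 2⟫_ℝ ^ 2 = 1 ∧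
      ∑ j, (c j * ⟪y j, g 2⟫_ℝ) • y j = g 2 := by
  classical
  have hg2 : ‖g 2‖ = 1 := g.orthonormal.1 2
  have hg22 : ⟪g 2, g 2⟫_ℝ = 1 := by rw [real_inner_self_eq_norm_sq, hg2]; norm_num
  set Z : E → E := fun y => ⟪y, g 2⟫_ℝ • y + (⟪y, g 2⟫_ℝ ^ 2 - 1) • g 2 with hZ
  have hZcont : Continuous Z := by fun_prop
  have hZneg : ∀ y, Z (-y) = Z y := by
    intro y
    simp only [hZ, inner_neg_left, neg_smul, smul_neg, neg_neg, neg_sq]
  have hα1 : ∀ y ∈ Y, ⟪y, g 2⟫_ℝ ^ 2 ≤ 1 := by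
    intro y hy
    have h1 := abs_real_inner_le_norm y (g 2)
    rw [hY1 y hy, hg2, mul_one] at h1
    exact (sq_le_one_iff_abs_le_one _).mpr h1
  -- the origin lies in the convex hull of the image of the contact set
  have h0 : (0 : E) ∈ convexHull ℝ (Z '' Y) := by
    by_contra hnot
    obtain ⟨F, u, hFu, hu0⟩ := geometric_hahn_banach_closed_point (convex_convexHull ℝ _)
      (isCompact_convexHull_of_isCompact (hYc.image hZcont)).isClosed hnot
    have hu : u < 0 := by simpa using hu0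
    set n : E := (InnerProductSpace.toDual ℝ E).symm F with hn
    have hnF : ∀ x, ⟪n, x⟫_ℝ = F x := fun x => InnerProductSpace.toDual_symm_apply
    set h : ℝ := ⟪n, g 2⟫_ℝ with hh
    set m : E := n - h • g 2 with hm
    have hm2 : ⟪m, g 2⟫_ℝ = 0 := by
      rw [hm, inner_sub_left, inner_smul_left, hg22]
      simp [hh]
    obtain ⟨y, hyY, hy⟩ := hQ h (-u) m (by linarith) hm2
    have hFy : F (Z y) < u := hFu _ (subset_convexHull ℝ _ ⟨y, hyY, rfl⟩)
    have hFZ : F (Z y) = ⟪y, g 2⟫_ℝ * ⟪n, y⟫_ℝ + (⟪y, g 2⟫_ℝ ^ 2 - 1) * h := by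
      rw [← hnF]
      simp only [hZ, inner_add_right, inner_smul_right]
      rfl
    have hmy : ⟪m, y⟫_ℝ = ⟪n, y⟫_ℝ - h * ⟪y, g 2⟫_ℝ := by
      rw [hm, inner_sub_left, inner_smul_left, real_inner_comm y (g 2)]
      simp
    have hα := hα1 y hyY
    rw [hmy] at hy
    nlinarith [mul_nonneg (neg_nonneg.mpr hu.le) (sub_nonneg.mpr hα)]
  obtain ⟨ι, _, z, w, hzr, hai, hwpos, hwsum, hwz⟩ := eq_pos_convex_span_of_mem_convexHull h0
  have hcard : Fintype.card ι ≤ 4 := by
    have h1 := hai.card_le_finrank_succ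
    have h2 : Module.finrank ℝ (vectorSpan ℝ (Set.range z)) ≤ Module.finrank ℝ E :=
      Submodule.finrank_le _
    omega
  have hex : ∀ i, ∃ y ∈ Y, Z y = z i := fun i => hzr ⟨i, rfl⟩
  choose y0 hy0Y hy0Z using hex
  let y1 : ι → E := fun i => if 0 ≤ ⟪y0 i, g 2⟫_ℝ then y0 i else -y0 i
  have hy1Y : ∀ i, y1 i ∈ Y := by
    intro i
    simp only [y1]
    split_ifs
    · exact hy0Y i
    · exact hYs _ (hy0Y i)
  have hy1Z : ∀ i, Z (y1 i) = z i := by
    intro i
    simp only [y1]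
    split_ifs
    · exact hy0Z i
    · rw [hZneg]; exact hy0Z i
  have hy1α : ∀ i, 0 ≤ ⟪y1 i, g 2⟫_ℝ := by
    intro i
    simp only [y1]
    split_ifs with hi
    · exact hi
    · rw [inner_neg_left]
      push Not at hi
      linarith
  have hsumZ : ∑ i, w i • Z (y1 i) = 0 := by
    simp only [hy1Z]
    exact hwz
  have hα2 : ∑ i, w i * (2 * ⟪y1 i, g 2⟫_ℝ ^ 2 - 1) = 0 := by
    have h1 := congrArg (fun v => ⟪v, g 2⟫_ℝ) hsumZ
    simp only [sum_inner, inner_smul_left, inner_zero_left, hZ, inner_add_left, hg22,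
      conj_trivial] at h1
    rw [← h1]
    apply Finset.sum_congr rfl
    intro i _
    ring
  have hsum1 : ∑ i, 2 * w i * ⟪y1 i, g 2⟫_ℝ ^ 2 = 1 := by
    have h1 : ∑ i, w i * (2 * ⟪y1 i, g 2⟫_ℝ ^ 2 - 1) =
        ∑ i, 2 * w i * ⟪y1 i, g 2⟫_ℝ ^ 2 - ∑ i, w i := by
      rw [← Finset.sum_sub_distrib]
      apply Finset.sum_congr rfl
      intro i _
      ring
    rw [h1, hwsum] at hα2
    linarith
  have hvec : ∑ i, (2 * w i * ⟪y1 i, g 2⟫_ℝ) • y1 i = g 2 := by
    have h1 : ∑ i, w i • Z (y1 i) = ∑ i, (w i * ⟪y1 i, g 2⟫_ℝ) • y1 i +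
        (∑ i, w i * (⟪y1 i, g 2⟫_ℝ ^ 2 - 1)) • g 2 := by
      rw [Finset.sum_smul, ← Finset.sum_add_distrib]
      apply Finset.sum_congr rfl
      intro i _
      simp only [hZ, smul_add, smul_smul]
    have h2 : ∑ i, w i * (⟪y1 i, g 2⟫_ℝ ^ 2 - 1) = -(1 / 2) := by
      have h3 : ∑ i, w i * (⟪y1 i, g 2⟫_ℝ ^ 2 - 1) =
          (1 / 2) * ∑ i, 2 * w i * ⟪y1 i, g 2⟫_ℝ ^ 2 - ∑ i, w i := by
        rw [Finset.mul_sum, ← Finset.sum_sub_distrib]
        apply Finset.sum_congr rfl
        intro i _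
        ring
      rw [h3, hsum1, hwsum]
      norm_num
    rw [hsumZ, h2] at h1
    have h3 : ∑ i, (w i * ⟪y1 i, g 2⟫_ℝ) • y1 i = (1 / 2 : ℝ) • g 2 := by
      rw [neg_smul] at h1
      have h4 := h1.symm
      rw [← sub_eq_add_neg, sub_eq_zero] at h4
      exact h4
    calc ∑ i, (2 * w i * ⟪y1 i, g 2⟫_ℝ) • y1 i
        = (2 : ℝ) • ∑ i, (w i * ⟪y1 i, g 2⟫_ℝ) • y1 i := by
          rw [Finset.smul_sum]
          apply Finset.sum_congr rfl
          intro i _
          rw [smul_smul]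
          ring_nf
      _ = g 2 := by
          rw [h3, smul_smul]
          norm_num
  let e := Fintype.equivFin ι
  refine ⟨Fintype.card ι, fun j => y1 (e.symm j), fun j => 2 * w (e.symm j), hcard,
    ?_, ?_, ?_, ?_, ?_, ?_⟩
  · intro j
    exact hy1Y _
  · intro j
    have := hwpos (e.symm j)
    linarith
  · intro j
    exact hy1α _
  · rw [e.symm.sum_comp (fun i => 2 * w i), ← Finset.mul_sum, hwsum]
    norm_num
  · rw [e.symm.sum_comp (fun i => 2 * w i * ⟪y1 i, g 2⟫_ℝ ^ 2)]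
    exact hsum1
  · rw [e.symm.sum_comp (fun i => (2 * w i * ⟪y1 i, g 2⟫_ℝ) • y1 i)]
    exact hvec

end Vale.Agent.Lib.P243.helper23.Ell
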