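import Mathlib
import Vale.Agent.Lib.P243.helper23.Ell.Defs

open scoped InnerProductSpace Topology

namespace Vale.Agent.Lib.P243.helper23.Ell

variable {E : Type*} [NormedAddCommGroup E] [InnerProductSpace ℝ E] [FiniteDimensional ℝ E]

/-- A symmetric convex set with nonempty interior contains a closed ball around the origin. -/
theorem exists_closedBall_subset {K : Set E} (hK : Convex ℝ K) (hKi : (interior K).Nonempty)
    (hsym : ∀ x ∈ K, -x ∈ K) : ∃ r : ℝ, 0 < r ∧ Metric.closedBall (0 : E) r ⊆ K := by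
  obtain ⟨x0, hx0⟩ := hKi
  have hneg : (fun x : E => -x) ⁻¹' interior K ⊆ interior K := by
    apply interior_maximal
    · intro x hx
      have h1 : -x ∈ K := interior_subset hx
      simpa using hsym _ h1
    · exact isOpen_interior.preimage continuous_neg
  have hx1 : -x0 ∈ interior K := hneg (by simpa using hx0)
  have h0 : (0 : E) ∈ interior K := by
    have := hK.interior hx0 hx1 (by norm_num : (0 : ℝ) ≤ 1 / 2) (by norm_num : (0 : ℝ) ≤ 1 / 2)
      (by norm_num)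
    simpa using this
  obtain ⟨ε, hε, hball⟩ := Metric.isOpen_iff.mp isOpen_interior 0 h0
  refine ⟨ε / 2, by positivity, ?_⟩
  intro x hx
  apply interior_subset
  apply hball
  rw [Metric.mem_closedBall] at hx
  rw [Metric.mem_ball]
  linarith

/-- Scaling law of the objective `|det| / ‖·‖` in dimension three. -/
theorem obj_smul (hdim : Module.finrank ℝ E = 3) (s : ℝ) (hs : 0 < s) (M : E →L[ℝ] E) :
    |LinearMap.det ((s • M : E →L[ℝ] E) : E →ₗ[ℝ] E)| / ‖s • M‖ =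
      s ^ 2 * (|LinearMap.det (M : E →ₗ[ℝ] E)| / ‖M‖) := by
  rw [ContinuousLinearMap.toLinearMap_smul, LinearMap.det_smul, hdim, norm_smul, abs_mul, abs_pow,
    Real.norm_eq_abs, abs_of_pos hs]
  by_cases hM : ‖M‖ = 0
  · simp [hM]
  · field_simp

theorem exists_optimum (hdim : Module.finrank ℝ E = 3) {K : Set E} (hK : Convex ℝ K)
    (hKc : IsCompact K) (hKi : (interior K).Nonempty) (hsym : ∀ x ∈ K, -x ∈ K) :
    ∃ (N : E ≃L[ℝ] E) (r : ℝ), 0 < r ∧ r ≤ ‖(N : E →L[ℝ] E)‖ ∧ (∀ z : E, ‖z‖ ≤ 1 → N z ∈ K) ∧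
      ∀ M : E →L[ℝ] E, (∀ z : E, ‖z‖ ≤ 1 → M z ∈ K) → r / 2 ≤ ‖M‖ →
        |LinearMap.det (M : E →ₗ[ℝ] E)| / ‖M‖ ≤
          |LinearMap.det ((N : E →L[ℝ] E) : E →ₗ[ℝ] E)| / ‖(N : E →L[ℝ] E)‖ := by
  obtain ⟨r, hr, hrK⟩ := exists_closedBall_subset hK hKi hsym
  obtain ⟨R, hR⟩ := hKc.isBounded.subset_closedBall (0 : E)
  have hnt : Nontrivial E := Module.nontrivial_of_finrank_pos (R := ℝ) (by omega)
  set S : Set (E →L[ℝ] E) := {M | (∀ z : E, ‖z‖ ≤ 1 → M z ∈ K) ∧ r / 2 ≤ ‖M‖} with hS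
  have hRpos : 0 ≤ R := by
    have : (0 : E) ∈ Metric.closedBall (0 : E) R := hR (hrK (by simp [hr.le]))
    simpa using this
  have hSbdd : ∀ M ∈ S, ‖M‖ ≤ R := by
    intro M hM
    apply ContinuousLinearMap.opNorm_le_of_unit_norm hRpos
    intro x hx
    have := hR (hM.1 x hx.le)
    simpa using this
  have hSclosed : IsClosed S := by
    have h1 : IsClosed {M : E →L[ℝ] E | ∀ z : E, ‖z‖ ≤ 1 → M z ∈ K} := by
      have : {M : E →L[ℝ] E | ∀ z : E, ‖z‖ ≤ 1 → M z ∈ K} =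
          ⋂ z : E, ⋂ _ : ‖z‖ ≤ 1, (fun M : E →L[ℝ] E => M z) ⁻¹' K := by
        ext M; simp
      rw [this]
      apply isClosed_iInter; intro z
      apply isClosed_iInter; intro _
      exact hKc.isClosed.preimage (by fun_prop)
    have h2 : IsClosed {M : E →L[ℝ] E | r / 2 ≤ ‖M‖} :=
      isClosed_le continuous_const continuous_norm
    exact h1.inter h2
  have hScomp : IsCompact S := by
    apply Metric.isCompact_of_isClosed_isBounded hSclosed
    rw [Metric.isBounded_iff_subset_closedBall (0 : E →L[ℝ] E)]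
    exact ⟨R, fun M hM => by simpa using hSbdd M hM⟩
  have hid : r • ContinuousLinearMap.id ℝ E ∈ S := by
    constructor
    · intro z hz
      apply hrK
      simp only [FunLike.coe_smul, ContinuousLinearMap.coe_id', Pi.smul_apply, id_eq,
        mem_closedBall_zero_iff, norm_smul, Real.norm_eq_abs, abs_of_pos hr]
      nlinarith
    · rw [norm_smul, ContinuousLinearMap.norm_id, Real.norm_eq_abs, abs_of_pos hr]; linarith
  set φ : (E →L[ℝ] E) → ℝ := fun M => |LinearMap.det (M : E →ₗ[ℝ] E)| / ‖M‖ with hφ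
  have hφcont : ContinuousOn φ S := by
    apply ContinuousOn.div
    · exact (continuous_abs.comp ContinuousLinearMap.continuous_det).continuousOn
    · exact continuous_norm.continuousOn
    · intro M hM
      have : 0 < ‖M‖ := lt_of_lt_of_le (by linarith) hM.2
      exact this.ne'
  obtain ⟨M0, hM0S, hM0max⟩ := hScomp.exists_isMaxOn ⟨_, hid⟩ hφcont
  have hM0pos : 0 < ‖M0‖ := lt_of_lt_of_le (by linarith) hM0S.2
  -- value at r • id
  have hφid : φ (r • ContinuousLinearMap.id ℝ E) = r ^ 2 := by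
    have := obj_smul hdim r hr (ContinuousLinearMap.id ℝ E)
    simp only [hφ]
    rw [this]
    simp [ContinuousLinearMap.norm_id]
  have hφM0 : 0 < φ M0 := by
    have h1 : φ (r • ContinuousLinearMap.id ℝ E) ≤ φ M0 := hM0max hid
    rw [hφid] at h1
    have : 0 < r ^ 2 := by positivity
    linarith
  -- the rescaled maximiser
  set s : ℝ := max 1 (r / ‖M0‖) with hs
  have hs1 : 1 ≤ s := le_max_left _ _
  have hspos : 0 < s := by linarith
  set N0 : E →L[ℝ] E := s • M0 with hN0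
  have hN0norm : ‖N0‖ = s * ‖M0‖ := by
    rw [hN0, norm_smul, Real.norm_eq_abs, abs_of_pos hspos]
  have hrN0 : r ≤ ‖N0‖ := by
    rw [hN0norm]
    have : r / ‖M0‖ ≤ s := le_max_right _ _
    rw [div_le_iff₀ hM0pos] at this
    exact this
  have hN0adm : ∀ z : E, ‖z‖ ≤ 1 → N0 z ∈ K := by
    intro z hz
    rcases le_total (r / ‖M0‖) 1 with h | h
    · have hs' : s = 1 := max_eq_left h
      rw [hN0, hs', one_smul]
      exact hM0S.1 z hz
    · have hs' : s = r / ‖M0‖ := max_eq_right h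
      apply hrK
      rw [mem_closedBall_zero_iff]
      have h1 : ‖N0 z‖ ≤ ‖N0‖ * ‖z‖ := N0.le_opNorm z
      have h2 : ‖N0‖ = r := by
        rw [hN0norm, hs']
        field_simp
      rw [h2] at h1
      nlinarith [norm_nonneg z]
  have hφN0 : φ M0 ≤ φ N0 := by
    have := obj_smul hdim s hspos M0
    simp only [hφ, hN0]
    rw [this]
    have h1 : 1 ≤ s ^ 2 := by nlinarith
    have h2 : 0 < |LinearMap.det (M0 : E →ₗ[ℝ] E)| / ‖M0‖ := hφM0
    nlinarith
  have hdet : (N0 : E →L[ℝ] E).det ≠ 0 := by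
    intro h0
    have : φ N0 = 0 := by
      simp only [hφ]
      have h0' : LinearMap.det (N0 : E →ₗ[ℝ] E) = 0 := h0
      rw [h0']; simp
    linarith
  refine ⟨N0.toContinuousLinearEquivOfDetNeZero hdet, r, hr, ?_, ?_, ?_⟩
  · rw [ContinuousLinearMap.coe_toContinuousLinearEquivOfDetNeZero]; exact hrN0
  · intro z hz
    rw [ContinuousLinearMap.toContinuousLinearEquivOfDetNeZero_apply]
    exact hN0adm z hz
  · intro M hM1 hM2
    rw [ContinuousLinearMap.coe_toContinuousLinearEquivOfDetNeZero]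
    have h1 : φ M ≤ φ M0 := hM0max (show M ∈ S from ⟨hM1, hM2⟩)
    exact le_trans h1 hφN0

theorem not_improves {K : Set E} (N : E ≃L[ℝ] E) (r : ℝ) (hr : 0 < r)
    (hrN : r ≤ ‖(N : E →L[ℝ] E)‖)
    (hopt : ∀ M : E →L[ℝ] E, (∀ z : E, ‖z‖ ≤ 1 → M z ∈ K) → r / 2 ≤ ‖M‖ →
      |LinearMap.det (M : E →ₗ[ℝ] E)| / ‖M‖ ≤
        |LinearMap.det ((N : E →L[ℝ] E) : E →ₗ[ℝ] E)| / ‖(N : E →L[ℝ] E)‖)
    (H : E →L[ℝ] E)
    (hmem : ∃ t₀ : ℝ, 0 < t₀ ∧ ∀ t : ℝ, 0 < t → t ≤ t₀ →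
      ∀ z : E, ‖z‖ ≤ 1 → N (z + t • H z) ∈ K) :
    ¬ Improves (N : E →L[ℝ] E) H := by
  intro himp
  obtain ⟨t₀, ht₀, hadm⟩ := hmem
  have hcont : Continuous fun t : ℝ =>
      (N : E →L[ℝ] E) ∘L (ContinuousLinearMap.id ℝ E + t • H) := by
    fun_prop
  have hnorm : ∀ᶠ t in 𝓝[>] (0 : ℝ),
      r / 2 < ‖(N : E →L[ℝ] E) ∘L (ContinuousLinearMap.id ℝ E + t • H)‖ := by
    have h0 : r / 2 < ‖(N : E →L[ℝ] E) ∘L (ContinuousLinearMap.id ℝ E + (0 : ℝ) • H)‖ := by
      simp only [zero_smul, add_zero, ContinuousLinearMap.comp_id]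
      linarith
    have h1 := (continuous_norm.comp hcont).continuousAt (x := (0 : ℝ))
    exact nhdsWithin_le_nhds (h1.eventually (lt_mem_nhds h0))
  have hsmall : ∀ᶠ t in 𝓝[>] (0 : ℝ), 0 < t ∧ t ≤ t₀ := by
    filter_upwards [Ioc_mem_nhdsGT ht₀] with t ht using ht
  obtain ⟨t, h1, h2, h3, h4⟩ := (himp.and (hnorm.and hsmall)).exists
  set M : E →L[ℝ] E := (N : E →L[ℝ] E) ∘L (ContinuousLinearMap.id ℝ E + t • H) with hM
  have hMadm : ∀ z : E, ‖z‖ ≤ 1 → M z ∈ K := by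
    intro z hz
    have := hadm t h3 h4 z hz
    simpa [hM] using this
  have hle := hopt M hMadm h2.le
  have hdetM : LinearMap.det (M : E →ₗ[ℝ] E) =
      LinearMap.det ((N : E →L[ℝ] E) : E →ₗ[ℝ] E) *
        LinearMap.det ((ContinuousLinearMap.id ℝ E + t • H : E →L[ℝ] E) : E →ₗ[ℝ] E) := by
    rw [hM, ContinuousLinearMap.toLinearMap_comp, LinearMap.det_comp]
  have hdetN : LinearMap.det ((N : E →L[ℝ] E) : E →ₗ[ℝ] E) ≠ 0 :=
    (LinearEquiv.isUnit_det' N.toLinearEquiv).ne_zero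
  have hdN : 0 < |LinearMap.det ((N : E →L[ℝ] E) : E →ₗ[ℝ] E)| := abs_pos.mpr hdetN
  have hMpos : 0 < ‖M‖ := by linarith
  have hNpos : 0 < ‖(N : E →L[ℝ] E)‖ := by linarith
  rw [hdetM, abs_mul, div_le_div_iff₀ hMpos hNpos] at hle
  have h5 : |LinearMap.det ((ContinuousLinearMap.id ℝ E + t • H : E →L[ℝ] E) : E →ₗ[ℝ] E)| *
      ‖(N : E →L[ℝ] E)‖ ≤ ‖M‖ := by
    by_contra hcon
    push Not at hcon
    nlinarith
  linarith

theorem exists_singSys (hdim : Module.finrank ℝ E = 3) (N : E ≃L[ℝ] E) :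
    ∃ (g : OrthonormalBasis (Fin 3) ℝ E) (σ : Fin 3 → ℝ),
      SingSys (N : E →L[ℝ] E) g σ ∧ σ 1 ≤ σ 0 ∧ σ 2 ≤ σ 1 ∧ ‖(N : E →L[ℝ] E)‖ = σ 0 := by
  set T : E →ₗ[ℝ] E :=
    ((ContinuousLinearMap.adjoint (N : E →L[ℝ] E) ∘L (N : E →L[ℝ] E) : E →L[ℝ] E) :
      E →ₗ[ℝ] E) with hT
  have hTinner : ∀ x y, ⟪T x, y⟫_ℝ = ⟪N x, N y⟫_ℝ := by
    intro x y
    simp [hT, ContinuousLinearMap.adjoint_inner_left]
  have hTsym : T.IsSymmetric := by
    intro x y
    rw [hTinner, real_inner_comm (T y) x, hTinner, real_inner_comm]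
  set g := hTsym.eigenvectorBasis hdim with hg
  set lam := hTsym.eigenvalues hdim with hlamdef
  have hTg : ∀ i, T (g i) = lam i • g i := fun i => by
    have h := hTsym.apply_eigenvectorBasis hdim i
    exact_mod_cast h
  have hgnorm : ∀ i, ‖g i‖ = 1 := fun i => g.orthonormal.1 i
  have hlam : ∀ i, lam i = ‖N (g i)‖ ^ 2 := by
    intro i
    have h := hTinner (g i) (g i)
    rw [hTg, inner_smul_left, real_inner_self_eq_norm_sq, real_inner_self_eq_norm_sq, hgnorm] at h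
    simpa using h
  have hlampos : ∀ i, 0 < lam i := by
    intro i
    rw [hlam]
    have hne : N (g i) ≠ 0 := by
      intro h
      have h2 : g i = 0 := N.injective (h.trans (map_zero N).symm)
      have h3 := hgnorm i
      rw [h2, norm_zero] at h3
      exact zero_ne_one h3
    have : 0 < ‖N (g i)‖ := norm_pos_iff.mpr hne
    positivity
  have hform : ∀ x x' : E, ⟪N x, N x'⟫_ℝ = ∑ i, lam i * ⟪x, g i⟫_ℝ * ⟪x', g i⟫_ℝ := by
    intro x x'
    rw [← hTinner]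
    have hx : x = ∑ i, ⟪g i, x⟫_ℝ • g i := (g.sum_repr' x).symm
    conv_lhs => rw [hx]
    simp only [map_sum, map_smul, hTg, sum_inner, inner_smul_left]
    apply Finset.sum_congr rfl
    intro i _
    simp only [conj_trivial]
    rw [real_inner_comm (g i) x, real_inner_comm (g i) x']
    ring
  have hσsq : ∀ i, Real.sqrt (lam i) ^ 2 = lam i := fun i => Real.sq_sqrt (hlampos i).le
  refine ⟨g, fun i => Real.sqrt (lam i), ⟨fun i => Real.sqrt_pos.mpr (hlampos i), ?_⟩, ?_, ?_, ?_⟩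
  · intro x x'
    change ⟪N x, N x'⟫_ℝ = ∑ i, Real.sqrt (lam i) ^ 2 * ⟪x, g i⟫_ℝ * ⟪x', g i⟫_ℝ
    rw [hform]
    apply Finset.sum_congr rfl
    intro i _
    rw [hσsq]
  · exact Real.sqrt_le_sqrt (hTsym.eigenvalues_antitone hdim (by decide : (0 : Fin 3) ≤ 1))
  · exact Real.sqrt_le_sqrt (hTsym.eigenvalues_antitone hdim (by decide : (1 : Fin 3) ≤ 2))
  · change ‖(N : E →L[ℝ] E)‖ = Real.sqrt (lam 0)
    apply le_antisymm
    · apply ContinuousLinearMap.opNorm_le_bound _ (Real.sqrt_nonneg _)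
      intro x
      change ‖N x‖ ≤ Real.sqrt (lam 0) * ‖x‖
      have h1 : ‖N x‖ ^ 2 = ∑ i, lam i * ⟪x, g i⟫_ℝ * ⟪x, g i⟫_ℝ := by
        rw [← real_inner_self_eq_norm_sq, hform]
      have h2 : ‖x‖ ^ 2 = ∑ i, ⟪x, g i⟫_ℝ * ⟪x, g i⟫_ℝ := by
        have := g.sum_sq_norm_inner_left x
        rw [← this]
        apply Finset.sum_congr rfl
        intro i _
        rw [Real.norm_eq_abs, sq_abs]; ring
      have h3 : ‖N x‖ ^ 2 ≤ lam 0 * ‖x‖ ^ 2 := by
        rw [h1, h2, Finset.mul_sum]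
        apply Finset.sum_le_sum
        intro i _
        have hle : lam i ≤ lam 0 := hTsym.eigenvalues_antitone hdim (Fin.zero_le i)
        have hsq : 0 ≤ ⟪x, g i⟫_ℝ * ⟪x, g i⟫_ℝ := mul_self_nonneg _
        nlinarith
      have h4 : ‖N x‖ ^ 2 ≤ (Real.sqrt (lam 0) * ‖x‖) ^ 2 := by
        rw [mul_pow, hσsq]; exact h3
      have h5 : 0 ≤ Real.sqrt (lam 0) * ‖x‖ := mul_nonneg (Real.sqrt_nonneg _) (norm_nonneg _)
      exact (pow_le_pow_iff_left₀ (norm_nonneg _) h5 two_ne_zero).mp h4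
    · have h1 : Real.sqrt (lam 0) = ‖N (g 0)‖ := by
        rw [hlam, Real.sqrt_sq (norm_nonneg _)]
      rw [h1]
      have h2 := (N : E →L[ℝ] E).le_opNorm (g 0)
      rw [hgnorm, mul_one] at h2
      exact h2

theorem ellipsoid_of_singSys (N : E ≃L[ℝ] E) {g : OrthonormalBasis (Fin 3) ℝ E}
    {σ : Fin 3 → ℝ} (hS : SingSys (N : E →L[ℝ] E) g σ) :
    ∃ f : OrthonormalBasis (Fin 3) ℝ E, (∀ i, f i = (σ i)⁻¹ • N (g i)) ∧
      (∀ z i, ⟪N z, f i⟫_ℝ = σ i * ⟪z, g i⟫_ℝ) ∧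
      ellipsoid f σ = N '' Metric.closedBall 0 1 := by
  obtain ⟨hσ, hform⟩ := hS
  have hσne : ∀ i, σ i ≠ 0 := fun i => (hσ i).ne'
  have hgg : ∀ i j, ⟪g i, g j⟫_ℝ = if i = j then 1 else 0 := fun i j =>
    (orthonormal_iff_ite.mp g.orthonormal) i j
  have hNg : ∀ z i, ⟪N z, N (g i)⟫_ℝ = σ i ^ 2 * ⟪z, g i⟫_ℝ := by
    intro z i
    have h := hform z (g i)
    have h' : ⟪N z, N (g i)⟫_ℝ = ∑ k, σ k ^ 2 * ⟪z, g k⟫_ℝ * ⟪g i, g k⟫_ℝ := h
    rw [h']
    simp [hgg]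
  set v : Fin 3 → E := fun i => (σ i)⁻¹ • N (g i) with hv
  have hon : Orthonormal ℝ v := by
    rw [orthonormal_iff_ite]
    intro i j
    simp only [hv, inner_smul_left, inner_smul_right, conj_trivial]
    rw [hNg, hgg]
    split_ifs with h
    · subst h
      have := hσne i
      field_simp
    · simp
  have hfin : Module.finrank ℝ E = 3 := by
    simpa using Module.finrank_eq_card_basis g.toBasis
  have hsp : ⊤ ≤ Submodule.span ℝ (Set.range v) := by
    have := hon.linearIndependent.span_eq_top_of_card_eq_finrank' (by simp [hfin])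
    exact this.ge
  have hfz : ∀ z i, ⟪N z, v i⟫_ℝ = σ i * ⟪z, g i⟫_ℝ := by
    intro z i
    simp only [hv, inner_smul_right]
    rw [hNg]
    have := hσne i
    field_simp
  have hsum : ∀ z : E, ∑ i, (⟪N z, v i⟫_ℝ / σ i) ^ 2 = ‖z‖ ^ 2 := by
    intro z
    rw [← g.sum_sq_norm_inner_left z]
    apply Finset.sum_congr rfl
    intro i _
    rw [hfz, Real.norm_eq_abs, sq_abs]
    have := hσne i
    field_simp
  refine ⟨OrthonormalBasis.mk hon hsp, ?_, ?_, ?_⟩
  · intro i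
    rw [OrthonormalBasis.coe_mk]
  · intro z i
    rw [OrthonormalBasis.coe_mk]
    exact hfz z i
  · ext x
    rw [mem_ellipsoid, OrthonormalBasis.coe_mk]
    constructor
    · intro hx
      refine ⟨N.symm x, ?_, by simp⟩
      have h1 := hsum (N.symm x)
      rw [N.apply_symm_apply] at h1
      rw [h1] at hx
      rw [mem_closedBall_zero_iff]
      nlinarith [norm_nonneg (N.symm x)]
    · rintro ⟨z, hz, rfl⟩
      rw [hsum]
      rw [mem_closedBall_zero_iff] at hz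
      nlinarith [norm_nonneg z]

end Vale.Agent.Lib.P243.helper23.Ell
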