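import Mathlib

/-!
# P243: contact extraction in the prolate and ball cases

Pure statements about a compact set `Y` of unit vectors in a three-dimensional real inner product
space: if no quadratic form of a certain family is negative on all of `Y`, then `Y` contains two
vectors `y₁, y₂` with `⟪y₁, y₂⟫ ^ 2 ≤ 1 / 2` (in the prolate case both orthogonal to `g 0`).
-/

open scoped InnerProductSpace

namespace Vale.Agent.Lib.P243.helper23.Ell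

variable {E : Type*} [NormedAddCommGroup E] [InnerProductSpace ℝ E] [FiniteDimensional ℝ E]

omit [FiniteDimensional ℝ E] in
/-- Parseval in dimension three for a unit vector. -/
theorem parseval3 (e : OrthonormalBasis (Fin 3) ℝ E) {y : E} (hy : ‖y‖ = 1) :
    ⟪y, e 0⟫_ℝ ^ 2 + ⟪y, e 1⟫_ℝ ^ 2 + ⟪y, e 2⟫_ℝ ^ 2 = 1 := by
  have h := e.sum_sq_inner_left y
  rw [Fin.sum_univ_three, hy] at h
  simpa using h

/-- An orthonormal basis of a three-dimensional space whose vector number `1` is a given unit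
vector. -/
theorem exists_basis_one (hdim : Module.finrank ℝ E = 3) (u : E) (hu : ‖u‖ = 1) :
    ∃ e : OrthonormalBasis (Fin 3) ℝ E, e 1 = u := by
  have hcard : Module.finrank ℝ E = Fintype.card (Fin 3) := by simp [hdim]
  have hv : Orthonormal ℝ (({1} : Set (Fin 3)).domRestrict (fun _ : Fin 3 => u)) := by
    refine ⟨fun i => hu, fun i j hij => ?_⟩
    exfalso
    apply hij
    apply Subtype.ext
    have hi : (i : Fin 3) = 1 := i.2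
    have hj : (j : Fin 3) = 1 := j.2
    rw [hi, hj]
  obtain ⟨b, hb⟩ := hv.exists_orthonormalBasis_extension_of_card_eq hcard
  exact ⟨b, hb 1 rfl⟩

/-- An orthonormal basis of a three-dimensional space whose vectors number `0` and `1` are a
given orthonormal pair. -/
theorem exists_basis_two (hdim : Module.finrank ℝ E = 3) (a b : E) (ha : ‖a‖ = 1) (hb : ‖b‖ = 1)
    (hab : ⟪a, b⟫_ℝ = 0) : ∃ e : OrthonormalBasis (Fin 3) ℝ E, e 0 = a ∧ e 1 = b := by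
  have hcard : Module.finrank ℝ E = Fintype.card (Fin 3) := by simp [hdim]
  set v : Fin 3 → E := fun i => if i = 0 then a else b with hvdef
  have hv : Orthonormal ℝ (({0, 1} : Set (Fin 3)).domRestrict v) := by
    refine ⟨fun i => ?_, fun i j hij => ?_⟩
    · show ‖v i‖ = 1
      rw [hvdef]
      dsimp only
      split_ifs
      · exact ha
      · exact hb
    · show ⟪v i, v j⟫_ℝ = 0
      have hi : (i : Fin 3) = 0 ∨ (i : Fin 3) = 1 := i.2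
      have hj : (j : Fin 3) = 0 ∨ (j : Fin 3) = 1 := j.2
      have hne : (i : Fin 3) ≠ (j : Fin 3) := fun h => hij (Subtype.ext h)
      rcases hi with hi | hi <;> rcases hj with hj | hj
      · exact absurd (hi.trans hj.symm) hne
      · rw [hvdef]; dsimp only; rw [hi, hj]; simpa using hab
      · rw [hvdef]; dsimp only; rw [hi, hj]; simpa [real_inner_comm] using hab
      · exact absurd (hi.trans hj.symm) hne
  obtain ⟨e, he⟩ := hv.exists_orthonormalBasis_extension_of_card_eq hcard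
  refine ⟨e, ?_, ?_⟩
  · rw [he 0 (by simp)]; simp [hvdef]
  · rw [he 1 (by simp)]; simp [hvdef]

theorem ball_contacts (hdim : Module.finrank ℝ E = 3) (g : OrthonormalBasis (Fin 3) ℝ E)
    (Y : Set E) (hYc : IsCompact Y) (hY1 : ∀ y ∈ Y, ‖y‖ = 1)
    (hQ : ∀ (e : OrthonormalBasis (Fin 3) ℝ E) (θ : ℝ), θ < 1 → -1 ≤ θ →
      ∃ y ∈ Y, 0 ≤ ⟪y, e 0⟫_ℝ ^ 2 - θ * ⟪y, e 1⟫_ℝ ^ 2 + ⟪y, e 2⟫_ℝ ^ 2) :
    ∃ y₁ ∈ Y, ∃ y₂ ∈ Y, ⟪y₁, y₂⟫_ℝ ^ 2 ≤ 1 / 2 := by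
  obtain ⟨y₁, hy₁, -⟩ := hQ g (-1) (by norm_num) le_rfl
  by_contra hcon
  push Not at hcon
  have hall : ∀ y ∈ Y, 1 / 2 < ⟪y₁, y⟫_ℝ ^ 2 := fun y hy => hcon y₁ hy₁ y hy
  have hcont : Continuous fun y : E => ⟪y₁, y⟫_ℝ ^ 2 := by fun_prop
  obtain ⟨y₀, hy₀, hmin⟩ := hYc.exists_isMinOn ⟨y₁, hy₁⟩ hcont.continuousOn
  set c : ℝ := ⟪y₁, y₀⟫_ℝ ^ 2 with hc
  have hc1 : 1 / 2 < c := hall y₀ hy₀
  have hcle : ∀ y ∈ Y, c ≤ ⟪y₁, y⟫_ℝ ^ 2 := fun y hy => hmin hy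
  obtain ⟨e, he⟩ := exists_basis_one hdim y₁ (hY1 y₁ hy₁)
  have hcpos : 0 < c := by linarith
  have hθ1 : 1 / (2 * c) < 1 := by
    rw [div_lt_one (by positivity)]
    linarith
  have hθ0 : 0 < 1 / (2 * c) := by positivity
  obtain ⟨y, hy, hval⟩ := hQ e (1 / (2 * c)) hθ1 (by linarith)
  have hpars := parseval3 e (hY1 y hy)
  have hb : c ≤ ⟪y, e 1⟫_ℝ ^ 2 := by
    rw [he, real_inner_comm]
    exact hcle y hy
  have hθc : 1 / (2 * c) * c = 1 / 2 := by field_simp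
  have h1 : 1 / (2 * c) * c ≤ 1 / (2 * c) * ⟪y, e 1⟫_ℝ ^ 2 :=
    mul_le_mul_of_nonneg_left hb hθ0.le
  nlinarith

theorem prolate_contacts (hdim : Module.finrank ℝ E = 3) (g : OrthonormalBasis (Fin 3) ℝ E)
    (Y : Set E) (hYc : IsCompact Y) (hY1 : ∀ y ∈ Y, ‖y‖ = 1)
    (hQ : ∀ (e : OrthonormalBasis (Fin 3) ℝ E), e 0 = g 0 → ∀ θ μ : ℝ, θ < 1 → -1 ≤ θ →
      ∃ y ∈ Y, 0 ≤ -(μ * ⟪y, e 0⟫_ℝ ^ 2) - θ * ⟪y, e 1⟫_ℝ ^ 2 + ⟪y, e 2⟫_ℝ ^ 2) :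
    ∃ y₁ ∈ Y, ∃ y₂ ∈ Y, ⟪y₁, g 0⟫_ℝ = 0 ∧ ⟪y₂, g 0⟫_ℝ = 0 ∧ ⟪y₁, y₂⟫_ℝ ^ 2 ≤ 1 / 2 := by
  have hcontg : Continuous fun y : E => ⟪y, g 0⟫_ℝ ^ 2 := by fun_prop
  -- (A1) a contact orthogonal to `g 0`
  have hA1 : ∃ y₁ ∈ Y, ⟪y₁, g 0⟫_ℝ = 0 := by
    obtain ⟨y', hy', -⟩ := hQ g rfl (-1) 0 (by norm_num) le_rfl
    by_contra hno
    push Not at hno
    obtain ⟨y₀, hy₀, hmin⟩ := hYc.exists_isMinOn ⟨y', hy'⟩ hcontg.continuousOn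
    set m : ℝ := ⟪y₀, g 0⟫_ℝ ^ 2 with hm
    have hmpos : 0 < m := by
      have := hno y₀ hy₀
      positivity
    have hmle : ∀ y ∈ Y, m ≤ ⟪y, g 0⟫_ℝ ^ 2 := fun y hy => hmin hy
    obtain ⟨y, hy, hval⟩ := hQ g rfl (-1) (1 / m) (by norm_num) le_rfl
    have hpars := parseval3 g (hY1 y hy)
    have ha := hmle y hy
    have h1 : 1 / m * m ≤ 1 / m * ⟪y, g 0⟫_ℝ ^ 2 :=
      mul_le_mul_of_nonneg_left ha (by positivity)
    have h2 : 1 / m * m = 1 := by field_simp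
    nlinarith
  obtain ⟨y₁, hy₁, hy₁g⟩ := hA1
  by_contra hcon
  push Not at hcon
  have hall : ∀ y ∈ Y, ⟪y, g 0⟫_ℝ = 0 → 1 / 2 < ⟪y₁, y⟫_ℝ ^ 2 :=
    fun y hy hyg => hcon y₁ hy₁ y hy hy₁g hyg
  have hcont : Continuous fun y : E => ⟪y₁, y⟫_ℝ ^ 2 := by fun_prop
  -- minimum of `⟪y₁, y⟫²` over the contacts orthogonal to `g 0`
  have hY0c : IsCompact (Y ∩ {y : E | ⟪y, g 0⟫_ℝ = 0}) :=
    hYc.inter_right (isClosed_eq (by fun_prop) continuous_const)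
  obtain ⟨y₀, hy₀, hmin⟩ := hY0c.exists_isMinOn ⟨y₁, hy₁, hy₁g⟩ hcont.continuousOn
  set c : ℝ := ⟪y₁, y₀⟫_ℝ ^ 2 with hc
  have hc1 : 1 / 2 < c := hall y₀ hy₀.1 hy₀.2
  have hcle : ∀ y ∈ Y, ⟪y, g 0⟫_ℝ = 0 → c ≤ ⟪y₁, y⟫_ℝ ^ 2 := fun y hy hyg => hmin ⟨hy, hyg⟩
  set c' : ℝ := (c + 1 / 2) / 2 with hc'
  have hc'1 : 1 / 2 < c' := by rw [hc']; linarith
  have hc'2 : c' < c := by rw [hc']; linarith
  -- on `Y' = Y ∩ {⟪y₁, y⟫² ≤ c'}` the form `⟪y, g 0⟫²` is bounded below by some `m > 0`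
  have hY'c : IsCompact (Y ∩ {y : E | ⟪y₁, y⟫_ℝ ^ 2 ≤ c'}) :=
    hYc.inter_right (isClosed_le hcont continuous_const)
  obtain ⟨m, hmpos, hmle⟩ : ∃ m : ℝ, 0 < m ∧
      ∀ y ∈ Y, ⟪y₁, y⟫_ℝ ^ 2 ≤ c' → m ≤ ⟪y, g 0⟫_ℝ ^ 2 := by
    rcases (Y ∩ {y : E | ⟪y₁, y⟫_ℝ ^ 2 ≤ c'}).eq_empty_or_nonempty with hemp | hne
    · refine ⟨1, one_pos, fun y hy hyc => ?_⟩
      have : y ∈ Y ∩ {y : E | ⟪y₁, y⟫_ℝ ^ 2 ≤ c'} := ⟨hy, hyc⟩
      rw [hemp] at this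
      exact absurd this (Set.notMem_empty y)
    · obtain ⟨z₀, hz₀, hzmin⟩ := hY'c.exists_isMinOn hne hcontg.continuousOn
      have hz₀g : ⟪z₀, g 0⟫_ℝ ≠ 0 := by
        intro h0
        have h1 := hcle z₀ hz₀.1 h0
        have h2 : ⟪y₁, z₀⟫_ℝ ^ 2 ≤ c' := hz₀.2
        linarith
      refine ⟨⟪z₀, g 0⟫_ℝ ^ 2, by positivity, fun y hy hyc => ?_⟩
      exact hzmin ⟨hy, hyc⟩
  -- the basis and the parameters
  have hg0 : ‖g 0‖ = 1 := g.orthonormal.1 0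
  have hgy : ⟪g 0, y₁⟫_ℝ = 0 := by rw [real_inner_comm]; exact hy₁g
  obtain ⟨e, he0, he1⟩ := exists_basis_two hdim (g 0) y₁ hg0 (hY1 y₁ hy₁) hgy
  have hc'pos : 0 < c' := by linarith
  have hθ1 : 1 / (2 * c') < 1 := by
    rw [div_lt_one (by positivity)]
    linarith
  have hθ0 : 0 < 1 / (2 * c') := by positivity
  obtain ⟨y, hy, hval⟩ := hQ e he0 (1 / (2 * c')) (1 / m) hθ1 (by linarith)
  have hpars := parseval3 e (hY1 y hy)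
  rw [he0, he1] at hval hpars
  have hb_eq : ⟪y, y₁⟫_ℝ = ⟪y₁, y⟫_ℝ := real_inner_comm _ _
  rw [hb_eq] at hval hpars
  have ha0 : 0 ≤ ⟪y, g 0⟫_ℝ ^ 2 := sq_nonneg _
  have hb0 : 0 ≤ ⟪y₁, y⟫_ℝ ^ 2 := sq_nonneg _
  have hμ0 : 0 < 1 / m := by positivity
  rcases le_or_gt (⟪y₁, y⟫_ℝ ^ 2) c' with hcase | hcase
  · have ha := hmle y hy hcase
    have h1 : 1 / m * m ≤ 1 / m * ⟪y, g 0⟫_ℝ ^ 2 :=
      mul_le_mul_of_nonneg_left ha hμ0.le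
    have h2 : 1 / m * m = 1 := by field_simp
    have h3 : 0 ≤ 1 / (2 * c') * ⟪y₁, y⟫_ℝ ^ 2 := mul_nonneg hθ0.le hb0
    nlinarith
  · have h1 : 1 / (2 * c') * c' < 1 / (2 * c') * ⟪y₁, y⟫_ℝ ^ 2 :=
      mul_lt_mul_of_pos_left hcase hθ0
    have h2 : 1 / (2 * c') * c' = 1 / 2 := by field_simp
    have h3 : 0 ≤ 1 / m * ⟪y, g 0⟫_ℝ ^ 2 := mul_nonneg hμ0.le ha0
    nlinarith

end Vale.Agent.Lib.P243.helper23.Ell
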