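import Mathlib
import Vale.Agent.Lib.P243.helper23.Ell.Defs
import Vale.Agent.Lib.P243.helper23.Ell.Contact
import Vale.Agent.Lib.P243.helper23.Ell.Optimum
import Vale.Agent.Lib.P243.helper23.Ell.Finite
import Vale.Agent.Lib.P243.helper23.Ell.Improve
import Vale.Agent.Lib.P243.helper23.Ell.Prolate
import Vale.Agent.Lib.P243.helper23.Ell.Oblate
import Vale.Agent.Lib.P243.Frame

open scoped InnerProductSpace Topology

namespace Vale.Agent.Lib.P243.helper23.Ell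

variable {E : Type*} [NormedAddCommGroup E] [InnerProductSpace ℝ E] [FiniteDimensional ℝ E]

/-- The contact set of the inscribed image `N (unit ball)` in `K`, pulled back to the sphere. -/
def contacts (K : Set E) (N : E ≃L[ℝ] E) : Set E := {y | ‖y‖ = 1 ∧ N y ∉ interior K}

theorem contacts_compact (K : Set E) (N : E ≃L[ℝ] E) : IsCompact (contacts K N) := by
  have h1 : contacts K N = Metric.sphere (0 : E) 1 ∩ (N ⁻¹' interior K)ᶜ := by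
    ext y
    simp [contacts]
  rw [h1]
  exact (isCompact_sphere 0 1).inter_right
    ((isOpen_interior.preimage N.continuous).isClosed_compl)

omit [FiniteDimensional ℝ E] in
theorem contacts_neg {K : Set E} (hsym : ∀ x ∈ K, -x ∈ K) (N : E ≃L[ℝ] E) {y : E}
    (hy : y ∈ contacts K N) : -y ∈ contacts K N := by
  refine ⟨by rw [norm_neg]; exact hy.1, fun h => hy.2 ?_⟩
  rw [map_neg] at h
  rw [mem_interior] at h ⊢
  obtain ⟨t, htK, hto, hmem⟩ := h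
  refine ⟨Neg.neg ⁻¹' t, ?_, hto.preimage continuous_neg, hmem⟩
  intro x hx
  have := hsym _ (htK hx)
  simpa using this

theorem contacts_slab {K : Set E} (hK : Convex ℝ K) (hKcl : IsClosed K)
    (hKi : (interior K).Nonempty) (hsym : ∀ x ∈ K, -x ∈ K) (N : E ≃L[ℝ] E)
    (hNK : ∀ z : E, ‖z‖ ≤ 1 → N z ∈ K) {y : E} (hy : y ∈ contacts K N) :
    ∀ z : E, N z ∈ K → |⟪z, y⟫_ℝ| ≤ 1 := by
  intro z hz
  have h1 := contact_slab hK hKcl hKi N hNK hy.1 hy.2 z hz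
  have h2 := contact_slab hK hKcl hKi N hNK hy.1 hy.2 (-z) (by rw [map_neg]; exact hsym _ hz)
  rw [inner_neg_left] at h2
  exact abs_le.2 ⟨by linarith, h1⟩

theorem contacts_star {K : Set E} (hKcl : IsClosed K) (N : E ≃L[ℝ] E) (r : ℝ) (hr : 0 < r)
    (hrN : r ≤ ‖(N : E →L[ℝ] E)‖) (hNK : ∀ z : E, ‖z‖ ≤ 1 → N z ∈ K)
    (hopt : ∀ M : E →L[ℝ] E, (∀ z : E, ‖z‖ ≤ 1 → M z ∈ K) → r / 2 ≤ ‖M‖ →
      |LinearMap.det (M : E →ₗ[ℝ] E)| / ‖M‖ ≤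
        |LinearMap.det ((N : E →L[ℝ] E) : E →ₗ[ℝ] E)| / ‖(N : E →L[ℝ] E)‖)
    (H : E →L[ℝ] E) (hH : Improves (N : E →L[ℝ] E) H) :
    ∃ y ∈ contacts K N, 0 ≤ ⟪H y, y⟫_ℝ := by
  by_contra hcon
  push Not at hcon
  have hmem := perturb_mem hKcl N hNK H (fun y hy1 hyc => hcon y ⟨hy1, hyc⟩)
  exact not_improves N r hr hrN hopt H hmem hH

/-- The operator that is diagonal in the orthonormal basis `e` with entries `c`. -/
noncomputable def diagOp (e : OrthonormalBasis (Fin 3) ℝ E) (c : Fin 3 → ℝ) : E →L[ℝ] E :=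
  ∑ i, c i • (innerSL ℝ (e i)).smulRight (e i)

omit [FiniteDimensional ℝ E] in
theorem diagOp_apply (e : OrthonormalBasis (Fin 3) ℝ E) (c : Fin 3 → ℝ) (x : E) :
    diagOp e c x = ∑ i, (c i * ⟪x, e i⟫_ℝ) • e i := by
  simp [diagOp, smul_smul, real_inner_comm]

omit [FiniteDimensional ℝ E] in
theorem diagOp_inner (e : OrthonormalBasis (Fin 3) ℝ E) (c : Fin 3 → ℝ) (y : E) :
    ⟪diagOp e c y, y⟫_ℝ = ∑ i, c i * ⟪y, e i⟫_ℝ ^ 2 := by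
  rw [diagOp_apply, sum_inner]
  refine Finset.sum_congr rfl (fun i _ => ?_)
  rw [real_inner_smul_left, real_inner_comm y (e i)]
  ring

omit [FiniteDimensional ℝ E] in
theorem hQ_ball (hdim : Module.finrank ℝ E = 3) {N : E ≃L[ℝ] E}
    {g : OrthonormalBasis (Fin 3) ℝ E} {σ : Fin 3 → ℝ} (hS : SingSys (N : E →L[ℝ] E) g σ)
    (h1 : σ 1 = σ 0) (h2 : σ 2 = σ 0) (Y : Set E)
    (hstar : ∀ H : E →L[ℝ] E, Improves (N : E →L[ℝ] E) H → ∃ y ∈ Y, 0 ≤ ⟪H y, y⟫_ℝ) :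
    ∀ (e : OrthonormalBasis (Fin 3) ℝ E) (θ : ℝ), θ < 1 → -1 ≤ θ →
      ∃ y ∈ Y, 0 ≤ ⟪y, e 0⟫_ℝ ^ 2 - θ * ⟪y, e 1⟫_ℝ ^ 2 + ⟪y, e 2⟫_ℝ ^ 2 := by
  intro e θ hθ hθ'
  have hI := improve_ball hdim hS h1 h2 e θ hθ hθ' (diagOp e ![1, -θ, 1]) (by
    intro x
    rw [diagOp_apply, Fin.sum_univ_three]
    simp only [Matrix.cons_val_zero, Matrix.cons_val_one, Matrix.cons_val_two,
      Matrix.head_cons, Matrix.tail_cons]
    module)
  obtain ⟨y, hy, h⟩ := hstar _ hI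
  refine ⟨y, hy, ?_⟩
  rw [diagOp_inner, Fin.sum_univ_three] at h
  simp only [Matrix.cons_val_zero, Matrix.cons_val_one, Matrix.cons_val_two,
      Matrix.head_cons, Matrix.tail_cons] at h
  linarith

omit [FiniteDimensional ℝ E] in
theorem hQ_prolate (hdim : Module.finrank ℝ E = 3) {N : E ≃L[ℝ] E}
    {g : OrthonormalBasis (Fin 3) ℝ E} {σ : Fin 3 → ℝ} (hS : SingSys (N : E →L[ℝ] E) g σ)
    (h1 : σ 1 < σ 0) (h2 : σ 2 ≤ σ 1) (Y : Set E)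
    (hstar : ∀ H : E →L[ℝ] E, Improves (N : E →L[ℝ] E) H → ∃ y ∈ Y, 0 ≤ ⟪H y, y⟫_ℝ) :
    ∀ (e : OrthonormalBasis (Fin 3) ℝ E), e 0 = g 0 → ∀ θ μ : ℝ, θ < 1 → -1 ≤ θ →
      ∃ y ∈ Y, 0 ≤ -(μ * ⟪y, e 0⟫_ℝ ^ 2) - θ * ⟪y, e 1⟫_ℝ ^ 2 + ⟪y, e 2⟫_ℝ ^ 2 := by
  intro e he θ μ hθ hθ'
  have hI := improve_prolate hdim hS h1 h2 e he θ μ hθ hθ' (diagOp e ![-μ, -θ, 1]) (by
    intro x
    rw [diagOp_apply, Fin.sum_univ_three]
    simp only [Matrix.cons_val_zero, Matrix.cons_val_one, Matrix.cons_val_two,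
      Matrix.head_cons, Matrix.tail_cons]
    module)
  obtain ⟨y, hy, h⟩ := hstar _ hI
  refine ⟨y, hy, ?_⟩
  rw [diagOp_inner, Fin.sum_univ_three] at h
  simp only [Matrix.cons_val_zero, Matrix.cons_val_one, Matrix.cons_val_two,
      Matrix.head_cons, Matrix.tail_cons] at h
  linarith

omit [FiniteDimensional ℝ E] in
theorem hQ_oblate (hdim : Module.finrank ℝ E = 3) {N : E ≃L[ℝ] E}
    {g : OrthonormalBasis (Fin 3) ℝ E} {σ : Fin 3 → ℝ} (hS : SingSys (N : E →L[ℝ] E) g σ)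
    (h1 : σ 1 = σ 0) (h2 : σ 2 < σ 0) (Y : Set E) (hY1 : ∀ y ∈ Y, ‖y‖ = 1)
    (hstar : ∀ H : E →L[ℝ] E, Improves (N : E →L[ℝ] E) H → ∃ y ∈ Y, 0 ≤ ⟪H y, y⟫_ℝ) :
    ∀ (h ε : ℝ) (m : E), 0 < ε → ⟪m, g 2⟫_ℝ = 0 →
      ∃ y ∈ Y, 0 ≤ (h + ε) * ⟪y, g 2⟫_ℝ ^ 2 - h * (1 - ⟪y, g 2⟫_ℝ ^ 2)
        + ⟪y, g 2⟫_ℝ * ⟪m, y⟫_ℝ := by
  intro h ε m hε hm
  have hI := improve_oblate hdim hS h1 h2 h ε hε m hm
    ((h + ε) • (innerSL ℝ (g 2)).smulRight (g 2)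
      - h • (ContinuousLinearMap.id ℝ E - (innerSL ℝ (g 2)).smulRight (g 2))
      + (innerSL ℝ (g 2)).smulRight m) (by
    intro x
    simp [smul_smul, real_inner_comm])
  obtain ⟨y, hy, hh⟩ := hstar _ hI
  refine ⟨y, hy, ?_⟩
  have hyy : ⟪y, y⟫_ℝ = 1 := by rw [real_inner_self_eq_norm_sq, hY1 y hy]; norm_num
  simp only [add_apply, sub_apply,
    smul_apply, ContinuousLinearMap.smulRight_apply, innerSL_apply_apply,
    ContinuousLinearMap.id_apply, inner_add_left, inner_sub_left, real_inner_smul_left,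
    hyy, real_inner_comm y (g 2)] at hh
  simp only [sq]
  linarith

omit [FiniteDimensional ℝ E] in
theorem det_of_unit (g' : OrthonormalBasis (Fin 3) ℝ E) {p q : E} (hp : ‖p‖ = 1) (hq : ‖q‖ = 1)
    (hp0 : ⟪p, g' 0⟫_ℝ = 0) (hq0 : ⟪q, g' 0⟫_ℝ = 0) (hpq : ⟪p, q⟫_ℝ ^ 2 ≤ 1 / 2) :
    16 / 25 ≤ |⟪p, g' 1⟫_ℝ * ⟪q, g' 2⟫_ℝ - ⟪p, g' 2⟫_ℝ * ⟪q, g' 1⟫_ℝ| := by
  have hpp := g'.sum_inner_mul_inner p p
  have hqq := g'.sum_inner_mul_inner q q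
  have hpq' := g'.sum_inner_mul_inner p q
  rw [Fin.sum_univ_three] at hpp hqq hpq'
  rw [real_inner_self_eq_norm_sq, hp, real_inner_comm p (g' 0), real_inner_comm p (g' 1),
    real_inner_comm p (g' 2), hp0] at hpp
  rw [real_inner_self_eq_norm_sq, hq, real_inner_comm q (g' 0), real_inner_comm q (g' 1),
    real_inner_comm q (g' 2), hq0] at hqq
  rw [real_inner_comm q (g' 0), real_inner_comm q (g' 1), real_inner_comm q (g' 2), hp0, hq0]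
    at hpq'
  generalize ⟪p, g' 1⟫_ℝ = p1 at *
  generalize ⟪p, g' 2⟫_ℝ = p2 at *
  generalize ⟪q, g' 1⟫_ℝ = q1 at *
  generalize ⟪q, g' 2⟫_ℝ = q2 at *
  generalize ⟪p, q⟫_ℝ = s at *
  have hd : (p1 * q2 - p2 * q1) ^ 2 = 1 - s ^ 2 := by
    have e : (p1 * q2 - p2 * q1) ^ 2
        = (0 * 0 + p1 * p1 + p2 * p2) * (0 * 0 + q1 * q1 + q2 * q2)
          - (0 * 0 + p1 * q1 + p2 * q2) ^ 2 := by ring
    rw [e, hpp, hqq, hpq']
    ring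
  by_contra hcon
  push Not at hcon
  have h1 := abs_lt.1 hcon
  nlinarith [sq_abs (p1 * q2 - p2 * q1)]

omit [FiniteDimensional ℝ E] in
theorem singSys_ball {N : E →L[ℝ] E} {g : OrthonormalBasis (Fin 3) ℝ E} {σ : Fin 3 → ℝ}
    (hS : SingSys N g σ) (h1 : σ 1 = σ 0) (h2 : σ 2 = σ 0)
    (g' : OrthonormalBasis (Fin 3) ℝ E) : SingSys N g' σ := by
  refine ⟨hS.1, fun x x' => ?_⟩
  rw [hS.2 x x']
  have e1 := g.sum_inner_mul_inner x x'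
  have e2 := g'.sum_inner_mul_inner x x'
  rw [Fin.sum_univ_three] at e1 e2
  rw [Fin.sum_univ_three, Fin.sum_univ_three]
  rw [real_inner_comm x' (g 0), real_inner_comm x' (g 1), real_inner_comm x' (g 2)] at e1
  rw [real_inner_comm x' (g' 0), real_inner_comm x' (g' 1), real_inner_comm x' (g' 2)] at e2
  rw [h1, h2]
  linear_combination (σ 0) ^ 2 * (e1 - e2)

omit [FiniteDimensional ℝ E] in
theorem singSys_oblate {N : E →L[ℝ] E} {g : OrthonormalBasis (Fin 3) ℝ E} {σ : Fin 3 → ℝ}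
    (hS : SingSys N g σ) (h1 : σ 1 = σ 0)
    (g' : OrthonormalBasis (Fin 3) ℝ E) (hg : g' 2 = g 2) : SingSys N g' σ := by
  refine ⟨hS.1, fun x x' => ?_⟩
  rw [hS.2 x x']
  have e1 := g.sum_inner_mul_inner x x'
  have e2 := g'.sum_inner_mul_inner x x'
  rw [Fin.sum_univ_three] at e1 e2
  rw [Fin.sum_univ_three, Fin.sum_univ_three]
  rw [real_inner_comm x' (g 0), real_inner_comm x' (g 1), real_inner_comm x' (g 2)] at e1
  rw [real_inner_comm x' (g' 0), real_inner_comm x' (g' 1), real_inner_comm x' (g' 2), hg] at e2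
  rw [h1, hg]
  linear_combination (σ 0) ^ 2 * (e1 - e2)

theorem exists_basis_zero (hdim : Module.finrank ℝ E = 3) {n : E} (hn : ‖n‖ = 1) :
    ∃ b : OrthonormalBasis (Fin 3) ℝ E, b 0 = n := by
  have hv : Orthonormal ℝ (({0} : Set (Fin 3)).domRestrict (fun _ : Fin 3 => n)) := by
    rw [orthonormal_iff_ite]
    rintro ⟨i, hi⟩ ⟨j, hj⟩
    have hi' : i = 0 := hi
    have hj' : j = 0 := hj
    subst hi' hj'
    simp [hn]
  obtain ⟨b, hb⟩ := Orthonormal.exists_orthonormalBasis_extension_of_card_eq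
    (by simp [hdim]) hv
  exact ⟨b, hb 0 (by simp)⟩

theorem exists_basis_one_two (hdim : Module.finrank ℝ E = 3) {w₁ w₂ : E} (h1 : ‖w₁‖ = 1)
    (h2 : ‖w₂‖ = 1) (h12 : ⟪w₁, w₂⟫_ℝ = 0) :
    ∃ b : OrthonormalBasis (Fin 3) ℝ E, b 1 = w₁ ∧ b 2 = w₂ := by
  have h21 : ⟪w₂, w₁⟫_ℝ = 0 := by rw [real_inner_comm]; exact h12
  have hv : Orthonormal ℝ (({1, 2} : Set (Fin 3)).domRestrict (![0, w₁, w₂] : Fin 3 → E)) := by
    rw [orthonormal_iff_ite]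
    rintro ⟨i, hi⟩ ⟨j, hj⟩
    have hi' : i = 1 ∨ i = 2 := hi
    have hj' : j = 1 ∨ j = 2 := hj
    rcases hi' with rfl | rfl <;> rcases hj' with rfl | rfl <;>
      simp [Set.domRestrict, h1, h2, h12, h21]
  obtain ⟨b, hb⟩ := Orthonormal.exists_orthonormalBasis_extension_of_card_eq
    (by simp [hdim]) hv
  exact ⟨b, by simpa using hb 1 (by simp), by simpa using hb 2 (by simp)⟩

/-- Linear algebra of the oblate case: from at most four weighted contacts whose weighted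
sum is the short axis `g 2`, one contact `y j` and a convex combination of the others give two
slab normals with large determinant in a new frame keeping `g 2`. -/
theorem oblate_core (hdim : Module.finrank ℝ E = 3) (g : OrthonormalBasis (Fin 3) ℝ E) {n : ℕ}
    (hn : n ≤ 4) (y : Fin n → E) (c : Fin n → ℝ) (hy1 : ∀ j, ‖y j‖ = 1) (hc : ∀ j, 0 < c j)
    (hα0 : ∀ j, 0 ≤ ⟪y j, g 2⟫_ℝ) (hsum : ∑ j, c j = 2)
    (hα : ∑ j, c j * ⟪y j, g 2⟫_ℝ ^ 2 = 1)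
    (hg2 : ∑ j, (c j * ⟪y j, g 2⟫_ℝ) • y j = g 2) :
    ∃ (g' : OrthonormalBasis (Fin 3) ℝ E) (j : Fin n) (w : Fin n → ℝ), g' 2 = g 2 ∧
      (∀ k, 0 ≤ w k) ∧ ∑ k, w k = 1 ∧
      ⟪y j, g' 0⟫_ℝ = 0 ∧ ⟪∑ k, w k • y k, g' 0⟫_ℝ = 0 ∧
      16 / 25 ≤ |⟪y j, g' 1⟫_ℝ * ⟪∑ k, w k • y k, g' 2⟫_ℝ
        - ⟪y j, g' 2⟫_ℝ * ⟪∑ k, w k • y k, g' 1⟫_ℝ| := by
  classical
  have hgg : ⟪g 2, g 2⟫_ℝ = 1 := by
    rw [real_inner_self_eq_norm_sq, g.orthonormal.1 2]; norm_num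
  have hα1 : ∀ j, ⟪y j, g 2⟫_ℝ ^ 2 ≤ 1 := by
    intro j
    have h := abs_real_inner_le_norm (y j) (g 2)
    rw [hy1 j, g.orthonormal.1 2, mul_one] at h
    have h' := abs_le.1 h
    nlinarith
  obtain ⟨β, hβdef⟩ : ∃ β : Fin n → ℝ, β = fun j => Real.sqrt (1 - ⟪y j, g 2⟫_ℝ ^ 2) := ⟨_, rfl⟩
  have hβ0 : ∀ j, 0 ≤ β j := by
    intro j; rw [hβdef]; exact Real.sqrt_nonneg _
  have hab : ∀ j, ⟪y j, g 2⟫_ℝ ^ 2 + β j ^ 2 = 1 := by
    intro j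
    rw [hβdef]
    show ⟪y j, g 2⟫_ℝ ^ 2 + Real.sqrt (1 - ⟪y j, g 2⟫_ℝ ^ 2) ^ 2 = 1
    rw [Real.sq_sqrt (by linarith [hα1 j])]
    ring
  obtain ⟨j, hβj, hj⟩ := exists_good_contact hn c (fun j => ⟪y j, g 2⟫_ℝ) β hc hα0 hβ0 hab hsum hα
  obtain ⟨α, hαdef⟩ : ∃ α : ℝ, α = ⟪y j, g 2⟫_ℝ := ⟨_, rfl⟩
  obtain ⟨t, htdef⟩ : ∃ t : ℝ, t = c j * ⟪y j, g 2⟫_ℝ := ⟨_, rfl⟩
  obtain ⟨D, hDdef⟩ : ∃ D : ℝ, D = ∑ k, c k * ⟪y k, g 2⟫_ℝ - c j * ⟪y j, g 2⟫_ℝ := ⟨_, rfl⟩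
  rw [← hDdef] at hj
  have habj : α ^ 2 + β j ^ 2 = 1 := by rw [hαdef]; exact hab j
  have hyy : ⟪y j, y j⟫_ℝ = 1 := by rw [real_inner_self_eq_norm_sq, hy1 j]; norm_num
  -- the remaining sum
  obtain ⟨q0, hq0def⟩ : ∃ q0 : E, q0 = g 2 - t • y j := ⟨_, rfl⟩
  have hq0sum : q0 = ∑ k ∈ Finset.univ.erase j, (c k * ⟪y k, g 2⟫_ℝ) • y k := by
    have h := Finset.add_sum_erase Finset.univ (fun k => (c k * ⟪y k, g 2⟫_ℝ) • y k)
      (Finset.mem_univ j)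
    rw [hg2] at h
    rw [hq0def, htdef, sub_eq_iff_eq_add']
    exact h.symm
  have hDsum : D = ∑ k ∈ Finset.univ.erase j, c k * ⟪y k, g 2⟫_ℝ := by
    have h := Finset.add_sum_erase Finset.univ (fun k => c k * ⟪y k, g 2⟫_ℝ)
      (Finset.mem_univ j)
    rw [hDdef, ← h]
    ring
  have hq0norm : ‖q0‖ ≤ D := by
    rw [hq0sum, hDsum]
    refine (norm_sum_le _ _).trans (Finset.sum_le_sum (fun k _ => ?_))
    rw [norm_smul, hy1 k, mul_one, Real.norm_eq_abs,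
      abs_of_nonneg (mul_nonneg (hc k).le (hα0 k))]
  have hq0ne : q0 ≠ 0 := by
    intro h0
    have hg : g 2 = t • y j := by
      rw [hq0def] at h0
      exact sub_eq_zero.1 h0
    have e1 : α = t := by
      have h := congrArg (fun v => ⟪y j, v⟫_ℝ) hg
      simp only [real_inner_smul_right, hyy, mul_one] at h
      rw [hαdef]; exact h
    have e2 : (1 : ℝ) = t * α := by
      have h := congrArg (fun v => ⟪v, g 2⟫_ℝ) hg
      simp only [real_inner_smul_left, hgg] at h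
      rw [hαdef]; exact h
    have e3 : β j ^ 2 = 0 := by
      rw [← e1] at e2
      linarith
    have e4 : β j = 0 := by simpa using e3
    exact hβj.ne' e4
  have hD : 0 < D := lt_of_lt_of_le (norm_pos_iff.2 hq0ne) hq0norm
  -- the new frame
  obtain ⟨τ, hτdef⟩ : ∃ τ : E, τ = y j - α • g 2 := ⟨_, rfl⟩
  have hτg : ⟪τ, g 2⟫_ℝ = 0 := by
    rw [hτdef, inner_sub_left, real_inner_smul_left, hgg, ← hαdef]; ring
  have hyg : ⟪g 2, y j⟫_ℝ = α := by rw [real_inner_comm, hαdef]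
  have hττ : ⟪τ, τ⟫_ℝ = β j ^ 2 := by
    rw [hτdef]
    simp only [inner_sub_left, inner_sub_right, real_inner_smul_left, real_inner_smul_right,
      hyy, hgg, hyg, ← hαdef]
    nlinarith
  have hτnorm : ‖τ‖ = β j := by
    have h : ‖τ‖ ^ 2 = β j ^ 2 := by rw [← real_inner_self_eq_norm_sq, hττ]
    exact (sq_eq_sq₀ (norm_nonneg _) (hβ0 j)).1 h
  obtain ⟨w₁, hw₁def⟩ : ∃ w₁ : E, w₁ = (β j)⁻¹ • τ := ⟨_, rfl⟩
  have hw₁norm : ‖w₁‖ = 1 := by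
    rw [hw₁def, norm_smul, hτnorm, Real.norm_eq_abs, abs_of_pos (inv_pos.2 hβj)]
    exact inv_mul_cancel₀ hβj.ne'
  have hw₁g : ⟪w₁, g 2⟫_ℝ = 0 := by
    rw [hw₁def, real_inner_smul_left, hτg, mul_zero]
  obtain ⟨g', hg'1, hg'2⟩ := exists_basis_one_two hdim hw₁norm (g.orthonormal.1 2) hw₁g
  have hon := orthonormal_iff_ite.mp g'.orthonormal
  have h10 : ⟪g' 1, g' 0⟫_ℝ = 0 := by rw [hon]; simp
  have h20 : ⟪g' 2, g' 0⟫_ℝ = 0 := by rw [hon]; simp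
  have h11 : ⟪g' 1, g' 1⟫_ℝ = 1 := by rw [hon]; simp
  have h21 : ⟪g' 2, g' 1⟫_ℝ = 0 := by rw [hon]; simp
  have h12 : ⟪g' 1, g' 2⟫_ℝ = 0 := by rw [hon]; simp
  have h22 : ⟪g' 2, g' 2⟫_ℝ = 1 := by rw [hon]; simp
  have hyj : y j = β j • g' 1 + α • g' 2 := by
    rw [hg'1, hg'2, hw₁def, smul_smul, mul_inv_cancel₀ hβj.ne', one_smul, hτdef]
    abel
  have hy0 : ⟪y j, g' 0⟫_ℝ = 0 := by
    rw [hyj, inner_add_left, real_inner_smul_left, real_inner_smul_left, h10, h20]; ring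
  have hy1' : ⟪y j, g' 1⟫_ℝ = β j := by
    rw [hyj, inner_add_left, real_inner_smul_left, real_inner_smul_left, h11, h21]; ring
  have hy2' : ⟪y j, g' 2⟫_ℝ = α := by
    rw [hyj, inner_add_left, real_inner_smul_left, real_inner_smul_left, h12, h22]; ring
  have hq00 : ⟪q0, g' 0⟫_ℝ = 0 := by
    rw [hq0def, inner_sub_left, real_inner_smul_left, hy0, ← hg'2, h20]; ring
  have hq01 : ⟪q0, g' 1⟫_ℝ = -(t * β j) := by
    rw [hq0def, inner_sub_left, real_inner_smul_left, hy1', ← hg'2, h21]; ring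
  have hq02 : ⟪q0, g' 2⟫_ℝ = 1 - t * α := by
    rw [hq0def, inner_sub_left, real_inner_smul_left, hy2', ← hg'2, h22]
  -- the weights
  obtain ⟨w, hwdef⟩ : ∃ w : Fin n → ℝ,
      w = fun k => if k = j then 0 else c k * ⟪y k, g 2⟫_ℝ / D := ⟨_, rfl⟩
  have hw0 : ∀ k, 0 ≤ w k := by
    intro k
    rw [hwdef]
    by_cases hk : k = j
    · simp [hk]
    · simp only [hk, if_false]
      exact div_nonneg (mul_nonneg (hc k).le (hα0 k)) hD.le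
  have hwj : w j = 0 := by rw [hwdef]; simp
  have hwk : ∀ k ∈ Finset.univ.erase j, w k = c k * ⟪y k, g 2⟫_ℝ / D := by
    intro k hk
    rw [hwdef]
    simp [Finset.ne_of_mem_erase hk]
  have hwsum : ∑ k, w k = 1 := by
    rw [← Finset.sum_erase (f := w) Finset.univ hwj, Finset.sum_congr rfl hwk, ← Finset.sum_div,
      ← hDsum]
    exact div_self hD.ne'
  have hq : ∑ k, w k • y k = D⁻¹ • q0 := by
    have h0 : w j • y j = 0 := by rw [hwj, zero_smul]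
    rw [← Finset.sum_erase (f := fun k => w k • y k) Finset.univ h0, hq0sum, Finset.smul_sum]
    refine Finset.sum_congr rfl (fun k hk => ?_)
    rw [hwk k hk, smul_smul]
    congr 1
    ring
  refine ⟨g', j, w, hg'2, hw0, hwsum, hy0, ?_, ?_⟩
  · rw [hq, real_inner_smul_left, hq00, mul_zero]
  · rw [hq, real_inner_smul_left, real_inner_smul_left, hy1', hy2', hq01, hq02]
    have e : β j * (D⁻¹ * (1 - t * α)) - α * (D⁻¹ * -(t * β j)) = β j / D := by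
      field_simp
      ring
    rw [e, abs_of_nonneg (div_nonneg (hβ0 j) hD.le), le_div_iff₀ hD]
    exact hj

/-- The case analysis: a frame `g'` that is still a singular system of `N` for the same `σ`,
and two slab normals orthogonal to `g' 0` with determinant at least `16/25`. -/
theorem exists_data (hdim : Module.finrank ℝ E = 3) {K : Set E} (N : E ≃L[ℝ] E)
    {g : OrthonormalBasis (Fin 3) ℝ E} {σ : Fin 3 → ℝ} (hS : SingSys (N : E →L[ℝ] E) g σ)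
    (h10 : σ 1 ≤ σ 0) (h21 : σ 2 ≤ σ 1)
    (Y : Set E) (hYc : IsCompact Y) (hY1 : ∀ y ∈ Y, ‖y‖ = 1) (hYs : ∀ y ∈ Y, -y ∈ Y)
    (hslab : ∀ y ∈ Y, ∀ z : E, N z ∈ K → |⟪z, y⟫_ℝ| ≤ 1)
    (hstar : ∀ H : E →L[ℝ] E, Improves (N : E →L[ℝ] E) H → ∃ y ∈ Y, 0 ≤ ⟪H y, y⟫_ℝ) :
    ∃ (g' : OrthonormalBasis (Fin 3) ℝ E) (p q : E), SingSys (N : E →L[ℝ] E) g' σ ∧
      (∀ z : E, N z ∈ K → |⟪z, p⟫_ℝ| ≤ 1) ∧ (∀ z : E, N z ∈ K → |⟪z, q⟫_ℝ| ≤ 1) ∧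
      ⟪p, g' 0⟫_ℝ = 0 ∧ ⟪q, g' 0⟫_ℝ = 0 ∧
      16 / 25 ≤ |⟪p, g' 1⟫_ℝ * ⟪q, g' 2⟫_ℝ - ⟪p, g' 2⟫_ℝ * ⟪q, g' 1⟫_ℝ| := by
  rcases lt_or_eq_of_le h10 with h1 | h1
  · -- prolate case
    obtain ⟨y₁, hy₁, y₂, hy₂, h₁0, h₂0, h12⟩ :=
      prolate_contacts hdim g Y hYc hY1 (hQ_prolate hdim hS h1 h21 Y hstar)
    exact ⟨g, y₁, y₂, hS, hslab y₁ hy₁, hslab y₂ hy₂, h₁0, h₂0,
      det_of_unit g (hY1 y₁ hy₁) (hY1 y₂ hy₂) h₁0 h₂0 h12⟩
  · rcases lt_or_eq_of_le (h21.trans h10) with h2 | h2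
    · -- oblate case
      obtain ⟨n, y, c, hn, hyY, hc, hα0, hsum, hα, hg2⟩ :=
        oblate_contacts hdim g Y hYc hY1 hYs (hQ_oblate hdim hS h1 h2 Y hY1 hstar)
      obtain ⟨g', j, w, hg', hw0, hwsum, hp0, hq0, hdet⟩ :=
        oblate_core hdim g hn y c (fun j => hY1 _ (hyY j)) hc hα0 hsum hα hg2
      refine ⟨g', y j, ∑ k, w k • y k, singSys_oblate hS h1 g' hg', hslab _ (hyY j), ?_,
        hp0, hq0, hdet⟩
      intro z hz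
      rw [inner_sum]
      calc |∑ k, ⟪z, w k • y k⟫_ℝ| ≤ ∑ k, |⟪z, w k • y k⟫_ℝ| := Finset.abs_sum_le_sum_abs _ _
        _ ≤ ∑ k, w k := by
          refine Finset.sum_le_sum (fun k _ => ?_)
          rw [real_inner_smul_right, abs_mul, abs_of_nonneg (hw0 k)]
          exact mul_le_of_le_one_right (hw0 k) (hslab _ (hyY k) z hz)
        _ = 1 := hwsum
    · -- ball case
      have h2' : σ 2 = σ 0 := h2
      obtain ⟨y₁, hy₁, y₂, hy₂, h12⟩ :=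
        ball_contacts hdim g Y hYc hY1 (hQ_ball hdim hS h1 h2' Y hstar)
      obtain ⟨n, hn, hn1, hn2⟩ := Vale.Agent.Lib.P243.exists_normal hdim y₁ y₂
      have hnn : ‖‖n‖⁻¹ • n‖ = 1 := norm_smul_inv_norm hn
      obtain ⟨g', hg'⟩ := exists_basis_zero hdim hnn
      have hp0 : ⟪y₁, g' 0⟫_ℝ = 0 := by
        rw [hg', real_inner_smul_right, real_inner_comm, hn1, mul_zero]
      have hq0 : ⟪y₂, g' 0⟫_ℝ = 0 := by
        rw [hg', real_inner_smul_right, real_inner_comm, hn2, mul_zero]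
      exact ⟨g', y₁, y₂, singSys_ball hS h1 h2' g', hslab y₁ hy₁, hslab y₂ hy₂, hp0, hq0,
        det_of_unit g' (hY1 y₁ hy₁) (hY1 y₂ hy₂) hp0 hq0 h12⟩

/-- Lemma E: a centrally symmetric convex body contains an ellipsoid, with semi-axes
`σ 1, σ 2 ≤ σ 0`, and lies between two pairs of parallel planes parallel to the long axis `f 0`
whose cross-section parallelogram has area at most `(25/4) σ 1 σ 2`. -/
theorem exists_ellipsoid (hdim : Module.finrank ℝ E = 3) {K : Set E} (hK : Convex ℝ K)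
    (hKc : IsCompact K) (hKi : (interior K).Nonempty) (hsym : ∀ x ∈ K, -x ∈ K) :
    ∃ (f : OrthonormalBasis (Fin 3) ℝ E) (σ : Fin 3 → ℝ) (a₁ a₂ b₁ b₂ : ℝ),
      (∀ i, 0 < σ i) ∧ (∀ i, σ i ≤ σ 0) ∧ ellipsoid f σ ⊆ K ∧
      (∀ x ∈ K, |a₁ * ⟪x, f 1⟫_ℝ + a₂ * ⟪x, f 2⟫_ℝ| ≤ 1 ∧
        |b₁ * ⟪x, f 1⟫_ℝ + b₂ * ⟪x, f 2⟫_ℝ| ≤ 1) ∧
      16 / 25 ≤ |a₁ * b₂ - a₂ * b₁| * (σ 1 * σ 2) := by
  obtain ⟨N, r, hr, hrN, hNK, hopt⟩ := exists_optimum hdim hK hKc hKi hsym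
  obtain ⟨g, σ, hS, h10, h21, -⟩ := exists_singSys hdim N
  have hKcl := hKc.isClosed
  obtain ⟨g', p, q, hS', hp, hq, hp0, hq0, hdet⟩ :=
    exists_data hdim (K := K) N hS h10 h21 (contacts K N) (contacts_compact K N)
      (fun y hy => hy.1) (fun y hy => contacts_neg hsym N hy)
      (fun y hy => contacts_slab hK hKcl hKi hsym N hNK hy)
      (contacts_star hKcl N r hr hrN hNK hopt)
  obtain ⟨f, -, hNf, hell⟩ := ellipsoid_of_singSys N hS'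
  have hσ := hS'.1
  have hσ1 := hσ 1
  have hσ2 := hσ 2
  refine ⟨f, σ, ⟪p, g' 1⟫_ℝ / σ 1, ⟪p, g' 2⟫_ℝ / σ 2, ⟪q, g' 1⟫_ℝ / σ 1, ⟪q, g' 2⟫_ℝ / σ 2,
    hσ, ?_, ?_, ?_, ?_⟩
  · intro i
    fin_cases i
    · exact le_refl _
    · exact h10
    · exact h21.trans h10
  · rw [hell]
    rintro x ⟨z, hz, rfl⟩
    exact hNK z (by simpa using hz)
  · intro x hx
    obtain ⟨z, rfl⟩ := N.surjective x
    have key : ∀ v : E, ⟪v, g' 0⟫_ℝ = 0 →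
        ⟪v, g' 1⟫_ℝ / σ 1 * ⟪N z, f 1⟫_ℝ + ⟪v, g' 2⟫_ℝ / σ 2 * ⟪N z, f 2⟫_ℝ = ⟪z, v⟫_ℝ := by
      intro v hv
      rw [hNf z 1, hNf z 2]
      have e := g'.sum_inner_mul_inner z v
      rw [Fin.sum_univ_three, real_inner_comm v (g' 0), hv, real_inner_comm v (g' 1),
        real_inner_comm v (g' 2)] at e
      rw [← e]
      field_simp
      ring
    rw [key p hp0, key q hq0]
    exact ⟨hp z hx, hq z hx⟩
  · have e : ⟪p, g' 1⟫_ℝ / σ 1 * (⟪q, g' 2⟫_ℝ / σ 2) - ⟪p, g' 2⟫_ℝ / σ 2 * (⟪q, g' 1⟫_ℝ / σ 1)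
        = (⟪p, g' 1⟫_ℝ * ⟪q, g' 2⟫_ℝ - ⟪p, g' 2⟫_ℝ * ⟪q, g' 1⟫_ℝ) / (σ 1 * σ 2) := by
      field_simp
    rw [e, abs_div, abs_of_pos (mul_pos hσ1 hσ2), div_mul_cancel₀ _ (mul_pos hσ1 hσ2).ne']
    exact hdet

end Vale.Agent.Lib.P243.helper23.Ell
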