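import Mathlib
import Vale.Agent.Lib.P243.helper23.Ell.Defs

open MeasureTheory Measure Set
open scoped ENNReal NNReal InnerProductSpace Real

namespace Vale.Agent.Lib.P243.helper23.Ell

/-- The arcsine integral over a chord. -/
theorem arc_integral (A t₀ R : ℝ) (hA : 0 < A) (hR : 0 < R) :
    IntervalIntegrable (fun t => (√(A * (R ^ 2 - (t - t₀) ^ 2)))⁻¹) volume (t₀ - R) (t₀ + R) ∧
    ∫ t in (t₀ - R)..(t₀ + R), (√(A * (R ^ 2 - (t - t₀) ^ 2)))⁻¹ = π / √A := by
  have hsA : 0 < √A := Real.sqrt_pos.2 hA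
  have hle : t₀ - R ≤ t₀ + R := by linarith
  have hder : ∀ t ∈ Ioo (t₀ - R) (t₀ + R),
      HasDerivAt (fun t => Real.arcsin ((t - t₀) / R) / √A)
        ((√(A * (R ^ 2 - (t - t₀) ^ 2)))⁻¹) t := by
    intro t ht
    have h1 : (t - t₀) / R ≠ -1 := by
      intro h
      have : t - t₀ = -R := by field_simp at h; linarith
      linarith [ht.1]
    have h2 : (t - t₀) / R ≠ 1 := by
      intro h
      have : t - t₀ = R := by field_simp at h; linarith
      linarith [ht.2]
    have hd := ((Real.hasDerivAt_arcsin h1 h2).comp t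
      (((hasDerivAt_id t).sub_const t₀).div_const R)).div_const (√A)
    have hpos : 0 < 1 - ((t - t₀) / R) ^ 2 := by
      have : ((t - t₀) / R) ^ 2 < 1 := by
        rw [div_pow, div_lt_one (by positivity)]
        nlinarith [ht.1, ht.2]
      linarith
    have e : A * (R ^ 2 - (t - t₀) ^ 2) = A * R ^ 2 * (1 - ((t - t₀) / R) ^ 2) := by
      field_simp
    have key : (√(A * (R ^ 2 - (t - t₀) ^ 2)))⁻¹
        = 1 / √(1 - ((t - t₀) / R) ^ 2) * (1 / R) / √A := by
      have hs : 0 < √(1 - ((t - t₀) / R) ^ 2) := Real.sqrt_pos.2 hpos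
      rw [e, Real.sqrt_mul (by positivity), Real.sqrt_mul hA.le, Real.sqrt_sq hR.le]
      field_simp
    rw [key]
    exact hd
  have hcont : Continuous (fun t => Real.arcsin ((t - t₀) / R) / √A) := by
    have := Real.continuous_arcsin
    fun_prop
  have hint : IntervalIntegrable (fun t => (√(A * (R ^ 2 - (t - t₀) ^ 2)))⁻¹) volume
      (t₀ - R) (t₀ + R) := by
    refine intervalIntegral.intervalIntegrable_deriv_of_nonneg hcont.continuousOn ?_ ?_
    · intro t ht
      rw [min_eq_left hle, max_eq_right hle] at ht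
      exact hder t ht
    · intro t _
      positivity
  refine ⟨hint, ?_⟩
  rw [intervalIntegral.integral_eq_sub_of_hasDerivAt_of_le hle hcont.continuousOn hder hint]
  have e1 : (t₀ + R - t₀) / R = 1 := by
    rw [add_sub_cancel_left]; exact div_self hR.ne'
  have e2 : (t₀ - R - t₀) / R = -1 := by
    rw [sub_sub_cancel_left, neg_div, div_self hR.ne']
  rw [e1, e2, Real.arcsin_one, Real.arcsin_neg_one]
  ring

/-- The weight profile `y ↦ (1 - y)^(-1/2)` (zero for `y ≥ 1`). -/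
noncomputable def w1 (y : ℝ) : ℝ≥0∞ := ENNReal.ofReal (√(1 - y))⁻¹

theorem measurable_w1 : Measurable w1 := by
  unfold w1
  fun_prop

theorem w1_eq_zero {y : ℝ} (hy : 1 ≤ y) : w1 y = 0 := by
  unfold w1
  rw [Real.sqrt_eq_zero_of_nonpos (by linarith)]
  simp

theorem lintegral_chord (A t₀ R : ℝ) (hA : 0 < A) (hR : 0 < R) :
    ∫⁻ t, ENNReal.ofReal (√(A * (R ^ 2 - (t - t₀) ^ 2)))⁻¹ = ENNReal.ofReal (π / √A) := by
  obtain ⟨hint, hval⟩ := arc_integral A t₀ R hA hR
  have hle : t₀ - R ≤ t₀ + R := by linarith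
  have hfun : (fun t => ENNReal.ofReal (√(A * (R ^ 2 - (t - t₀) ^ 2)))⁻¹)
      = (Ioc (t₀ - R) (t₀ + R)).indicator
        (fun t => ENNReal.ofReal (√(A * (R ^ 2 - (t - t₀) ^ 2)))⁻¹) := by
    funext t
    by_cases ht : t ∈ Ioc (t₀ - R) (t₀ + R)
    · rw [indicator_of_mem ht]
    · rw [indicator_of_notMem ht]
      have h0 : A * (R ^ 2 - (t - t₀) ^ 2) ≤ 0 := by
        have : R ^ 2 ≤ (t - t₀) ^ 2 := by
          rw [mem_Ioc, not_and_or, not_lt, not_le] at ht
          rcases ht with h | h <;> nlinarith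
        nlinarith
      rw [Real.sqrt_eq_zero_of_nonpos h0]
      simp
  rw [hfun, lintegral_indicator measurableSet_Ioc, ← ofReal_integral_eq_lintegral_ofReal,
    ← intervalIntegral.integral_of_le hle, hval]
  · exact (intervalIntegrable_iff_integrableOn_Ioc_of_le hle).1 hint
  · exact Filter.Eventually.of_forall (fun t => by positivity)

/-- Every line integral of the weight is at most `π / √A`. -/
theorem lintegral_quad_le (A B C : ℝ) (hA : 0 < A) :
    ∫⁻ t, w1 (A * t ^ 2 + 2 * B * t + C) ≤ ENNReal.ofReal (π / √A) := by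
  obtain ⟨t₀, ht₀⟩ : ∃ t₀ : ℝ, t₀ = -B / A := ⟨_, rfl⟩
  obtain ⟨D, hD⟩ : ∃ D : ℝ, D = (1 - C) / A + B ^ 2 / A ^ 2 := ⟨_, rfl⟩
  have hq : ∀ t, 1 - (A * t ^ 2 + 2 * B * t + C) = A * (D - (t - t₀) ^ 2) := by
    intro t
    rw [ht₀, hD]
    field_simp
    ring
  by_cases hD0 : 0 < D
  · have hR : 0 < √D := Real.sqrt_pos.2 hD0
    have e : ∀ t, w1 (A * t ^ 2 + 2 * B * t + C)
        = ENNReal.ofReal (√(A * ((√D) ^ 2 - (t - t₀) ^ 2)))⁻¹ := by
      intro t
      unfold w1
      rw [hq, Real.sq_sqrt hD0.le]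
    simp_rw [e]
    exact (lintegral_chord A t₀ (√D) hA hR).le
  · have e : ∀ t, w1 (A * t ^ 2 + 2 * B * t + C) = 0 := by
      intro t
      refine w1_eq_zero ?_
      have : A * (D - (t - t₀) ^ 2) ≤ 0 := by
        have h1 : D - (t - t₀) ^ 2 ≤ 0 := by nlinarith [sq_nonneg (t - t₀)]
        nlinarith
      linarith [hq t]
    simp [e]

/-- The integral of the weight along a central chord direction is exactly `π / √A`. -/
theorem lintegral_quad_eq (A C : ℝ) (hA : 0 < A) (hC : C < 1) :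
    ∫⁻ t, w1 (A * t ^ 2 + C) = ENNReal.ofReal (π / √A) := by
  have hD0 : 0 < (1 - C) / A := div_pos (by linarith) hA
  have hR : 0 < √((1 - C) / A) := Real.sqrt_pos.2 hD0
  have e : ∀ t, w1 (A * t ^ 2 + C)
      = ENNReal.ofReal (√(A * ((√((1 - C) / A)) ^ 2 - (t - 0) ^ 2)))⁻¹ := by
    intro t
    unfold w1
    rw [Real.sq_sqrt hD0.le]
    congr 3
    field_simp
    ring
  simp_rw [e]
  exact lintegral_chord A 0 _ hA hR

/-- The open ellipse with semi-axes `a, b` has area at least `π a b`. -/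
theorem ellipse_area_ge (a b : ℝ) (ha : 0 < a) (hb : 0 < b) :
    ENNReal.ofReal (π * a * b)
      ≤ volume {q : ℝ × ℝ | (q.1 / a) ^ 2 + (q.2 / b) ^ 2 < 1} := by
  set S : Set (ℝ × ℝ) := {q : ℝ × ℝ | (q.1 / a) ^ 2 + (q.2 / b) ^ 2 < 1} with hS
  have hSm : MeasurableSet S := by
    have : IsOpen S := isOpen_lt (by fun_prop) continuous_const
    exact this.measurableSet
  rw [Measure.volume_eq_prod, Measure.prod_apply hSm]
  have hslice : ∀ x : ℝ, ENNReal.ofReal (2 * b * √(1 - (x / a) ^ 2))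
      ≤ volume (Prod.mk x ⁻¹' S) := by
    intro x
    have hsub : Ioo (-(b * √(1 - (x / a) ^ 2))) (b * √(1 - (x / a) ^ 2)) ⊆ Prod.mk x ⁻¹' S := by
      intro y hy
      show (x / a) ^ 2 + (y / b) ^ 2 < 1
      have hr : 0 ≤ √(1 - (x / a) ^ 2) := Real.sqrt_nonneg _
      have hpos : 0 < √(1 - (x / a) ^ 2) := by
        by_contra h
        have h0 : √(1 - (x / a) ^ 2) = 0 := le_antisymm (not_lt.1 h) hr
        rw [h0] at hy
        simp at hy
      have h1 : 0 < 1 - (x / a) ^ 2 := Real.sqrt_pos.1 hpos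
      have habs : |y / b| < √(1 - (x / a) ^ 2) := by
        rw [abs_lt]
        constructor
        · rw [lt_div_iff₀ hb]; linarith [hy.1]
        · rw [div_lt_iff₀ hb]; linarith [hy.2]
      have hy2 : (y / b) ^ 2 < 1 - (x / a) ^ 2 := by
        calc (y / b) ^ 2 = |y / b| ^ 2 := (sq_abs _).symm
          _ < (√(1 - (x / a) ^ 2)) ^ 2 := by
              exact pow_lt_pow_left₀ habs (abs_nonneg _) (by norm_num)
          _ = 1 - (x / a) ^ 2 := Real.sq_sqrt h1.le
      linarith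
    calc ENNReal.ofReal (2 * b * √(1 - (x / a) ^ 2))
        = volume (Ioo (-(b * √(1 - (x / a) ^ 2))) (b * √(1 - (x / a) ^ 2))) := by
          rw [Real.volume_Ioo]; congr 1; ring
      _ ≤ _ := measure_mono hsub
  have hle : -a ≤ a := by linarith
  calc ENNReal.ofReal (π * a * b)
      = ENNReal.ofReal (∫ x in (-a)..a, 2 * b * √(1 - (x / a) ^ 2)) := by
        congr 1
        have h := intervalIntegral.integral_comp_div (a := -a) (b := a)
          (fun u => 2 * b * √(1 - u ^ 2)) ha.ne'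
        rw [h, neg_div, div_self ha.ne', intervalIntegral.integral_const_mul,
          integral_sqrt_one_sub_sq]
        rw [smul_eq_mul]
        ring
    _ = ∫⁻ x in Ioc (-a) a, ENNReal.ofReal (2 * b * √(1 - (x / a) ^ 2)) := by
        rw [intervalIntegral.integral_of_le hle, ofReal_integral_eq_lintegral_ofReal]
        · have hc : Continuous (fun x : ℝ => 2 * b * √(1 - (x / a) ^ 2)) := by fun_prop
          exact hc.integrableOn_Ioc
        · exact Filter.Eventually.of_forall (fun x => by positivity)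
    _ ≤ ∫⁻ x, ENNReal.ofReal (2 * b * √(1 - (x / a) ^ 2)) := setLIntegral_le_lintegral _ _
    _ ≤ ∫⁻ x, volume (Prod.mk x ⁻¹' S) := lintegral_mono hslice

variable {E : Type*} [NormedAddCommGroup E] [InnerProductSpace ℝ E] [FiniteDimensional ℝ E]
  [MeasurableSpace E] [BorelSpace E]

/-- Coordinates with respect to an orthonormal basis, as a measurable equivalence. -/
noncomputable def coordEquiv (b : OrthonormalBasis (Fin 3) ℝ E) : E ≃ᵐ ℝ × ℝ × ℝ :=
  (b.measurableEquiv.trans (MeasurableEquiv.toLp 2 (Fin 3 → ℝ)).symm).trans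
    ((MeasurableEquiv.piFinSuccAbove (fun _ => ℝ) 0).trans
      (MeasurableEquiv.prodCongr (MeasurableEquiv.refl ℝ) MeasurableEquiv.finTwoArrow))

omit [FiniteDimensional ℝ E] in
theorem coordEquiv_apply (b : OrthonormalBasis (Fin 3) ℝ E) (x : E) :
    coordEquiv b x = (⟪b 0, x⟫_ℝ, ⟪b 1, x⟫_ℝ, ⟪b 2, x⟫_ℝ) := by
  simp only [coordEquiv, MeasurableEquiv.trans_apply]
  have h : ∀ i, (MeasurableEquiv.toLp 2 (Fin 3 → ℝ)).symm (b.measurableEquiv x) i = ⟪b i, x⟫_ℝ := by
    intro i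
    exact b.repr_apply_apply x i
  ext
  · exact h 0
  · exact h 1
  · exact h 2

theorem coordEquiv_mp (b : OrthonormalBasis (Fin 3) ℝ E) :
    MeasurePreserving (coordEquiv b) volume volume := by
  unfold coordEquiv
  refine (b.measurePreserving_measurableEquiv.trans
    (EuclideanSpace.volume_preserving_symm_measurableEquiv_toLp _)).trans
    ((volume_preserving_piFinSuccAbove (fun _ => ℝ) 0).trans ?_)
  exact (MeasurePreserving.id volume).prod (volume_preserving_finTwoArrow ℝ)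

omit [FiniteDimensional ℝ E] in
/-- The parametrisation of a plane by two orthonormal vectors carries Lebesgue measure to
planar area. -/
theorem plane_measure (b : OrthonormalBasis (Fin 3) ℝ E) (S : Set (ℝ × ℝ)) :
    (μHE[2] : Measure E) ((fun q : ℝ × ℝ => q.1 • b 1 + q.2 • b 2) '' S) = volume S := by
  set L : EuclideanSpace ℝ (Fin 2) → E := fun y => y 0 • b 1 + y 1 • b 2 with hL
  have h12 : ⟪b 1, b 2⟫_ℝ = 0 := b.orthonormal.2 (by decide)
  have h21 : ⟪b 2, b 1⟫_ℝ = 0 := b.orthonormal.2 (by decide)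
  have h11 : ⟪b 1, b 1⟫_ℝ = 1 := by
    rw [real_inner_self_eq_norm_sq, b.orthonormal.1 1]; norm_num
  have h22 : ⟪b 2, b 2⟫_ℝ = 1 := by
    rw [real_inner_self_eq_norm_sq, b.orthonormal.1 2]; norm_num
  have hiso : Isometry L := by
    refine Isometry.of_dist_eq (fun x y => ?_)
    rw [dist_eq_norm, dist_eq_norm, EuclideanSpace.norm_eq]
    have e : L x - L y = (x 0 - y 0) • b 1 + (x 1 - y 1) • b 2 := by
      simp only [hL]; module
    rw [e, ← Real.sqrt_sq (norm_nonneg ((x 0 - y 0) • b 1 + (x 1 - y 1) • b 2))]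
    congr 1
    rw [← real_inner_self_eq_norm_sq]
    simp only [inner_add_left, inner_add_right, real_inner_smul_left, real_inner_smul_right,
      h12, h21, h11, h22, Fin.sum_univ_two, Real.norm_eq_abs, sq_abs, PiLp.sub_apply]
    ring
  set g : EuclideanSpace ℝ (Fin 2) ≃ᵐ ℝ × ℝ :=
    (MeasurableEquiv.toLp 2 (Fin 2 → ℝ)).symm.trans MeasurableEquiv.finTwoArrow with hg
  have hgm : MeasurePreserving g volume volume :=
    (EuclideanSpace.volume_preserving_symm_measurableEquiv_toLp _).trans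
      (volume_preserving_finTwoArrow ℝ)
  have himg : (fun q : ℝ × ℝ => q.1 • b 1 + q.2 • b 2) '' S = L '' (g ⁻¹' S) := by
    ext z
    constructor
    · rintro ⟨q, hq, rfl⟩
      obtain ⟨y, rfl⟩ := g.surjective q
      exact ⟨y, hq, rfl⟩
    · rintro ⟨y, hy, rfl⟩
      exact ⟨g y, hy, rfl⟩
  rw [himg, hiso.euclideanHausdorffMeasure_image,
    EuclideanSpace.euclideanHausdorffMeasure_eq_volume, hgm.measure_preimage_equiv]

/-- The Archimedes weight of the ellipsoid: `(1 - ∑ i, (⟪x, f i⟫ / s i)^2)^(-1/2)` inside the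
open ellipsoid and `0` outside. -/
noncomputable def wt (f : OrthonormalBasis (Fin 3) ℝ E) (s : Fin 3 → ℝ) (x : E) : ℝ≥0∞ :=
  w1 (∑ i, (⟪x, f i⟫_ℝ / s i) ^ 2)

omit [FiniteDimensional ℝ E] in
theorem measurable_wt (f : OrthonormalBasis (Fin 3) ℝ E) (s : Fin 3 → ℝ) :
    Measurable (wt f s) := by
  unfold wt
  exact measurable_w1.comp (Continuous.measurable (by fun_prop))

omit [FiniteDimensional ℝ E] [MeasurableSpace E] [BorelSpace E] in
/-- Every line integral of the weight is at most `π` times the largest semi-axis. -/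
theorem line_le (f : OrthonormalBasis (Fin 3) ℝ E) (s : Fin 3 → ℝ) (hs : ∀ i, 0 < s i)
    (h1 : s 1 ≤ s 0) (h2 : s 2 ≤ s 0) (d z : E) (hd : ‖d‖ = 1) :
    ∫⁻ t : ℝ, wt f s (t • d + z) ≤ ENNReal.ofReal (π * s 0) := by
  obtain ⟨A, hA⟩ : ∃ A : ℝ, A = ∑ i, (⟪d, f i⟫_ℝ / s i) ^ 2 := ⟨_, rfl⟩
  obtain ⟨B, hB⟩ : ∃ B : ℝ, B = ∑ i, ⟪d, f i⟫_ℝ * ⟪z, f i⟫_ℝ / s i ^ 2 := ⟨_, rfl⟩
  obtain ⟨C, hC⟩ : ∃ C : ℝ, C = ∑ i, (⟪z, f i⟫_ℝ / s i) ^ 2 := ⟨_, rfl⟩
  have hs0 := hs 0
  have hs1 := hs 1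
  have hs2 := hs 2
  have hq : ∀ t : ℝ, wt f s (t • d + z) = w1 (A * t ^ 2 + 2 * B * t + C) := by
    intro t
    unfold wt
    congr 1
    simp only [hA, hB, hC, Fin.sum_univ_three, inner_add_left, real_inner_smul_left]
    field_simp
    ring
  have hpars : ⟪d, f 0⟫_ℝ ^ 2 + ⟪d, f 1⟫_ℝ ^ 2 + ⟪d, f 2⟫_ℝ ^ 2 = 1 := by
    have h := f.sum_sq_inner_left d
    rw [Fin.sum_univ_three, hd] at h
    rw [h]; norm_num
  have hAge : (1 / s 0) ^ 2 ≤ A := by
    rw [hA, Fin.sum_univ_three]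
    have e0 : (⟪d, f 0⟫_ℝ / s 0) ^ 2 = ⟪d, f 0⟫_ℝ ^ 2 * (1 / s 0) ^ 2 := by ring
    have e1 : ⟪d, f 1⟫_ℝ ^ 2 * (1 / s 0) ^ 2 ≤ (⟪d, f 1⟫_ℝ / s 1) ^ 2 := by
      have h : (1 / s 0) ^ 2 ≤ (1 / s 1) ^ 2 := by
        have : 1 / s 0 ≤ 1 / s 1 := one_div_le_one_div_of_le hs1 h1
        have h0 : 0 ≤ 1 / s 0 := by positivity
        nlinarith
      have e : (⟪d, f 1⟫_ℝ / s 1) ^ 2 = ⟪d, f 1⟫_ℝ ^ 2 * (1 / s 1) ^ 2 := by ring
      rw [e]
      exact mul_le_mul_of_nonneg_left h (sq_nonneg _)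
    have e2 : ⟪d, f 2⟫_ℝ ^ 2 * (1 / s 0) ^ 2 ≤ (⟪d, f 2⟫_ℝ / s 2) ^ 2 := by
      have h : (1 / s 0) ^ 2 ≤ (1 / s 2) ^ 2 := by
        have : 1 / s 0 ≤ 1 / s 2 := one_div_le_one_div_of_le hs2 h2
        have h0 : 0 ≤ 1 / s 0 := by positivity
        nlinarith
      have e : (⟪d, f 2⟫_ℝ / s 2) ^ 2 = ⟪d, f 2⟫_ℝ ^ 2 * (1 / s 2) ^ 2 := by ring
      rw [e]
      exact mul_le_mul_of_nonneg_left h (sq_nonneg _)
    have e3 : (1 / s 0) ^ 2 = (⟪d, f 0⟫_ℝ ^ 2 + ⟪d, f 1⟫_ℝ ^ 2 + ⟪d, f 2⟫_ℝ ^ 2) * (1 / s 0) ^ 2 := by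
      rw [hpars, one_mul]
    rw [e3, e0]
    linarith
  have hApos : 0 < A := lt_of_lt_of_le (by positivity) hAge
  have hsq : 1 / s 0 ≤ √A := (Real.le_sqrt' (by positivity)).2 hAge
  have hsqpos : 0 < √A := Real.sqrt_pos.2 hApos
  simp_rw [hq]
  refine (lintegral_quad_le A B C hApos).trans (ENNReal.ofReal_le_ofReal ?_)
  rw [div_le_iff₀ hsqpos]
  have h3 : 1 ≤ s 0 * √A := by
    have := mul_le_mul_of_nonneg_left hsq hs0.le
    rwa [mul_one_div_cancel hs0.ne'] at this
  nlinarith [Real.pi_pos]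

omit [MeasurableSpace E] [BorelSpace E] in
/-- A unit vector is the first vector of an orthonormal basis. -/
theorem exists_onb_first (hdim : Module.finrank ℝ E = 3) (d : E) (hd : ‖d‖ = 1) :
    ∃ b : OrthonormalBasis (Fin 3) ℝ E, b 0 = d := by
  have hv : Orthonormal ℝ (({0} : Set (Fin 3)).domRestrict (fun _ : Fin 3 => d)) :=
    ⟨fun _ => hd, fun i j hij => absurd (Subsingleton.elim i j) hij⟩
  obtain ⟨b, hb⟩ := hv.exists_orthonormalBasis_extension_of_card_eq (by simp [hdim])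
  exact ⟨b, hb 0 rfl⟩

/-- The weighted mass of a cylinder is at most `π s₀` times the area of its base. -/
theorem cyl_mass_le (hdim : Module.finrank ℝ E = 3) (f : OrthonormalBasis (Fin 3) ℝ E)
    (s : Fin 3 → ℝ) (hs : ∀ i, 0 < s i) (h1 : s 1 ≤ s 0) (h2 : s 2 ≤ s 0)
    (d : E) (hd : ‖d‖ = 1) (Bm : Set E) (hBm : MeasurableSet Bm) :
    ∫⁻ x in {x | x - ⟪x, d⟫_ℝ • d ∈ Bm}, wt f s x
      ≤ ENNReal.ofReal (π * s 0) * (μHE[2] : Measure E) Bm := by
  obtain ⟨b, hb0⟩ := exists_onb_first hdim d hd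
  set P : ℝ × ℝ → E := fun q => q.1 • b 1 + q.2 • b 2 with hP
  have hPc : Continuous P := by fun_prop
  have hexp : ∀ x : E, ⟪b 0, x⟫_ℝ • b 0 + (⟪b 1, x⟫_ℝ • b 1 + ⟪b 2, x⟫_ℝ • b 2) = x := by
    intro x
    have h := b.sum_repr' x
    rw [Fin.sum_univ_three] at h
    rw [← add_assoc]
    exact h
  set H : ℝ × ℝ × ℝ → ℝ≥0∞ :=
    (Prod.snd ⁻¹' (P ⁻¹' Bm)).indicator (fun p => wt f s (p.1 • d + P p.2)) with hH
  have hHm : Measurable H := by
    refine Measurable.indicator ?_ (measurable_snd (hPc.measurable hBm))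
    exact (measurable_wt f s).comp (Continuous.measurable (by fun_prop))
  have hCm : MeasurableSet {x : E | x - ⟪x, d⟫_ℝ • d ∈ Bm} := by
    have hc : Continuous (fun x : E => x - ⟪x, d⟫_ℝ • d) := by fun_prop
    exact hc.measurable hBm
  have hcomp : ∀ x : E,
      ({x : E | x - ⟪x, d⟫_ℝ • d ∈ Bm}).indicator (wt f s) x = H (coordEquiv b x) := by
    intro x
    have hx := hexp x
    have hpt : (coordEquiv b x).1 • d + P (coordEquiv b x).2 = x := by
      rw [coordEquiv_apply, ← hb0]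
      exact hx
    have hproj : x - ⟪x, d⟫_ℝ • d = P (coordEquiv b x).2 := by
      rw [coordEquiv_apply, real_inner_comm, ← hb0]
      show x - ⟪b 0, x⟫_ℝ • b 0 = ⟪b 1, x⟫_ℝ • b 1 + ⟪b 2, x⟫_ℝ • b 2
      rw [sub_eq_iff_eq_add, add_comm]
      exact hx.symm
    by_cases hxC : x ∈ {x : E | x - ⟪x, d⟫_ℝ • d ∈ Bm}
    · have hm : coordEquiv b x ∈ Prod.snd ⁻¹' (P ⁻¹' Bm) := by
        show P (coordEquiv b x).2 ∈ Bm
        rw [← hproj]
        exact hxC
      rw [indicator_of_mem hxC, hH, indicator_of_mem hm]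
      show wt f s x = wt f s ((coordEquiv b x).1 • d + P (coordEquiv b x).2)
      rw [hpt]
    · have hm : coordEquiv b x ∉ Prod.snd ⁻¹' (P ⁻¹' Bm) := by
        intro h
        apply hxC
        show x - ⟪x, d⟫_ℝ • d ∈ Bm
        rw [hproj]
        exact h
      rw [indicator_of_notMem hxC, hH, indicator_of_notMem hm]
  rw [← lintegral_indicator hCm]
  simp_rw [hcomp]
  rw [(coordEquiv_mp b).lintegral_comp_emb (coordEquiv b).measurableEmbedding H,
    Measure.volume_eq_prod, lintegral_prod_symm' H hHm]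
  calc ∫⁻ q : ℝ × ℝ, ∫⁻ t : ℝ, H (t, q)
      ≤ ∫⁻ q : ℝ × ℝ, (P ⁻¹' Bm).indicator (fun _ => ENNReal.ofReal (π * s 0)) q := by
        refine lintegral_mono (fun q => ?_)
        by_cases hq : q ∈ P ⁻¹' Bm
        · rw [indicator_of_mem hq]
          have e : ∀ t : ℝ, H (t, q) = wt f s (t • d + P q) := by
            intro t
            simp only [hH]
            rw [indicator_of_mem]
            exact hq
          simp_rw [e]
          exact line_le f s hs h1 h2 d (P q) hd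
        · have e : ∀ t : ℝ, H (t, q) = 0 := by
            intro t
            simp only [hH]
            rw [indicator_of_notMem]
            exact hq
          simp [e]
    _ = ENNReal.ofReal (π * s 0) * volume (P ⁻¹' Bm) :=
        lintegral_indicator_const (hPc.measurable hBm) _
    _ = ENNReal.ofReal (π * s 0) * (μHE[2] : Measure E) (P '' (P ⁻¹' Bm)) := by
        rw [hP, plane_measure b]
    _ ≤ ENNReal.ofReal (π * s 0) * (μHE[2] : Measure E) Bm := by
        gcongr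
        exact image_preimage_subset _ _

/-- The total weighted mass of the ellipsoid is at least `π² s₀ s₁ s₂`. -/
theorem total_mass_ge (f : OrthonormalBasis (Fin 3) ℝ E) (s : Fin 3 → ℝ) (hs : ∀ i, 0 < s i) :
    ENNReal.ofReal (π * s 0) * ENNReal.ofReal (π * s 1 * s 2) ≤ ∫⁻ x, wt f s x := by
  have hs0 := hs 0
  set G : ℝ × ℝ × ℝ → ℝ≥0∞ :=
    fun p => w1 ((p.1 / s 0) ^ 2 + ((p.2.1 / s 1) ^ 2 + (p.2.2 / s 2) ^ 2)) with hG
  have hGm : Measurable G := measurable_w1.comp (Continuous.measurable (by fun_prop))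
  have hcomp : ∀ x : E, wt f s x = G (coordEquiv f x) := by
    intro x
    rw [coordEquiv_apply]
    simp only [hG, wt, Fin.sum_univ_three]
    rw [real_inner_comm (f 0) x, real_inner_comm (f 1) x, real_inner_comm (f 2) x, add_assoc]
  simp_rw [hcomp]
  rw [(coordEquiv_mp f).lintegral_comp_emb (coordEquiv f).measurableEmbedding G,
    Measure.volume_eq_prod, lintegral_prod_symm' G hGm]
  set S : Set (ℝ × ℝ) := {q : ℝ × ℝ | (q.1 / s 1) ^ 2 + (q.2 / s 2) ^ 2 < 1} with hS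
  have hSm : MeasurableSet S := by
    have : IsOpen S := isOpen_lt (by fun_prop) continuous_const
    exact this.measurableSet
  calc ENNReal.ofReal (π * s 0) * ENNReal.ofReal (π * s 1 * s 2)
      ≤ ENNReal.ofReal (π * s 0) * volume S := by
        gcongr
        exact ellipse_area_ge _ _ (hs 1) (hs 2)
    _ = ∫⁻ q : ℝ × ℝ, S.indicator (fun _ => ENNReal.ofReal (π * s 0)) q :=
        (lintegral_indicator_const hSm _).symm
    _ ≤ ∫⁻ q : ℝ × ℝ, ∫⁻ t : ℝ, G (t, q) := by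
        refine lintegral_mono (fun q => ?_)
        by_cases hq : q ∈ S
        · rw [indicator_of_mem hq]
          have e : ∀ t : ℝ, G (t, q)
              = w1 ((1 / s 0 ^ 2) * t ^ 2 + ((q.1 / s 1) ^ 2 + (q.2 / s 2) ^ 2)) := by
            intro t
            simp only [hG]
            congr 2
            field_simp
          simp_rw [e]
          rw [lintegral_quad_eq _ _ (by positivity) hq, one_div, Real.sqrt_inv,
            Real.sqrt_sq hs0.le, div_inv_eq_mul]
        · rw [indicator_of_notMem hq]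
          exact zero_le

/-- **Covering an ellipsoid by cylinders.**  If finitely many cylinders `B i + ℝ (d i)` (unit
axis directions `d i`, bases `B i` in the planes orthogonal to the axes) cover the solid
ellipsoid with orthonormal axes `f` and semi-axes `s 0 ≥ s 1, s 2`, then the total base area is
at least `π s 1 s 2`, the area of the shadow of the ellipsoid along its longest axis. -/
theorem ellipsoid_cover (hdim : Module.finrank ℝ E = 3) (f : OrthonormalBasis (Fin 3) ℝ E)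
    (s : Fin 3 → ℝ) (hs : ∀ i, 0 < s i) (h1 : s 1 ≤ s 0) (h2 : s 2 ≤ s 0)
    {ι : Type*} [Fintype ι] (d : ι → E) (hd : ∀ i, ‖d i‖ = 1) (B : ι → Set E)
    (hB : ∀ i, ∀ x ∈ B i, ⟪x, d i⟫_ℝ = 0)
    (hcov : ellipsoid f s ⊆ ⋃ i, {x | ∃ b ∈ B i, ∃ t : ℝ, x = b + t • d i}) :
    ENNReal.ofReal (π * s 1 * s 2) ≤ ∑ i, (μHE[2] : Measure E) (B i) := by
  have hBmm : ∀ i, MeasurableSet (toMeasurable (μHE[2] : Measure E) (B i)) :=
    fun i => measurableSet_toMeasurable _ _
  set C : ι → Set E :=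
    fun i => {x | x - ⟪x, d i⟫_ℝ • d i ∈ toMeasurable (μHE[2] : Measure E) (B i)} with hC
  have hCm : ∀ i, MeasurableSet (C i) := by
    intro i
    have hc : Continuous (fun x : E => x - ⟪x, d i⟫_ℝ • d i) := by fun_prop
    exact hc.measurable (hBmm i)
  have hsupp : ∀ x, x ∉ ⋃ i, C i → wt f s x = 0 := by
    intro x hx
    refine w1_eq_zero ?_
    by_contra hlt
    have hxe : x ∈ ellipsoid f s := (not_le.1 hlt).le
    obtain ⟨i, b, hb, t, rfl⟩ := mem_iUnion.1 (hcov hxe)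
    apply hx
    refine mem_iUnion.2 ⟨i, ?_⟩
    show b + t • d i - ⟪b + t • d i, d i⟫_ℝ • d i ∈ toMeasurable (μHE[2] : Measure E) (B i)
    have e : b + t • d i - ⟪b + t • d i, d i⟫_ℝ • d i = b := by
      rw [inner_add_left, hB i b hb, real_inner_smul_left, real_inner_self_eq_norm_sq, hd i]
      simp
    rw [e]
    exact subset_toMeasurable _ _ hb
  have hmass := total_mass_ge f s hs
  have h3 : ∫⁻ x, wt f s x = ∫⁻ x in ⋃ i, C i, wt f s x := by
    rw [← lintegral_indicator (MeasurableSet.iUnion hCm)]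
    refine lintegral_congr (fun x => ?_)
    by_cases hx : x ∈ ⋃ i, C i
    · rw [indicator_of_mem hx]
    · rw [indicator_of_notMem hx, hsupp x hx]
  have h4 : ∫⁻ x in ⋃ i, C i, wt f s x ≤ ∑ i, ∫⁻ x in C i, wt f s x := by
    refine (lintegral_iUnion_le C (wt f s)).trans ?_
    rw [tsum_fintype]
  have h5 : ∀ i, ∫⁻ x in C i, wt f s x
      ≤ ENNReal.ofReal (π * s 0) * (μHE[2] : Measure E) (B i) := by
    intro i
    have h := cyl_mass_le hdim f s hs h1 h2 (d i) (hd i) _ (hBmm i)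
    rwa [measure_toMeasurable] at h
  have h6 : ENNReal.ofReal (π * s 0) * ENNReal.ofReal (π * s 1 * s 2)
      ≤ ENNReal.ofReal (π * s 0) * ∑ i, (μHE[2] : Measure E) (B i) := by
    rw [Finset.mul_sum]
    exact hmass.trans (h3.le.trans (h4.trans (Finset.sum_le_sum (fun i _ => h5 i))))
  have hpos : ENNReal.ofReal (π * s 0) ≠ 0 := by
    rw [Ne, ENNReal.ofReal_eq_zero, not_le]
    exact mul_pos Real.pi_pos (hs 0)
  exact (ENNReal.mul_le_mul_iff_right hpos ENNReal.ofReal_ne_top).1 h6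

end Vale.Agent.Lib.P243.helper23.Ell
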