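import Mathlib
import Vale.Agent.Lib.P243.Frame

open MeasureTheory Measure Set
open scoped ENNReal NNReal InnerProductSpace

namespace Vale.Agent.Lib.P243.helper23.Ell

open Vale.Agent.Lib.P243 (planeMap planeMap_apply frameMap frameMap_apply)

variable {E : Type*} [NormedAddCommGroup E] [InnerProductSpace ℝ E]

/-- The coordinate identification of the Euclidean plane with `ℝ × ℝ`. -/
noncomputable def e2 : EuclideanSpace ℝ (Fin 2) ≃ᵐ ℝ × ℝ :=
  (MeasurableEquiv.toLp 2 (Fin 2 → ℝ)).symm.trans MeasurableEquiv.finTwoArrow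

theorem e2_mp : MeasurePreserving e2 volume volume :=
  (EuclideanSpace.volume_preserving_symm_measurableEquiv_toLp (Fin 2)).trans
    (volume_preserving_finTwoArrow ℝ)

theorem e2_apply (x : EuclideanSpace ℝ (Fin 2)) : e2 x = (x 0, x 1) := rfl

/-- The coordinate identification of Euclidean three-space with `ℝ × ℝ × ℝ`. -/
noncomputable def e3 : EuclideanSpace ℝ (Fin 3) ≃ᵐ ℝ × ℝ × ℝ :=
  (MeasurableEquiv.toLp 2 (Fin 3 → ℝ)).symm.trans
    ((MeasurableEquiv.piFinSuccAbove (fun _ => ℝ) 0).trans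
      (MeasurableEquiv.prodCongr (MeasurableEquiv.refl ℝ) MeasurableEquiv.finTwoArrow))

theorem e3_apply (x : EuclideanSpace ℝ (Fin 3)) : e3 x = (x 0, x 1, x 2) := rfl

theorem e3_mp : MeasurePreserving e3 volume volume := by
  refine (EuclideanSpace.volume_preserving_symm_measurableEquiv_toLp (Fin 3)).trans
    ((volume_preserving_piFinSuccAbove (fun _ => ℝ) 0).trans ?_)
  exact (MeasurePreserving.id volume).prod (volume_preserving_finTwoArrow ℝ)

theorem planeMap_norm_sq {v n : E} (hv : ‖v‖ = 1) (hn : ‖n‖ = 1) (hvn : ⟪v, n⟫_ℝ = 0)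
    (p : ℝ × ℝ) : ‖planeMap v n p‖ ^ 2 = p.1 ^ 2 + p.2 ^ 2 := by
  have hvv : ⟪v, v⟫_ℝ = 1 := by rw [real_inner_self_eq_norm_sq, hv]; norm_num
  have hnn : ⟪n, n⟫_ℝ = 1 := by rw [real_inner_self_eq_norm_sq, hn]; norm_num
  have hnv : ⟪n, v⟫_ℝ = 0 := by rw [real_inner_comm]; exact hvn
  rw [planeMap_apply, ← real_inner_self_eq_norm_sq]
  simp only [inner_add_left, inner_add_right, real_inner_smul_left, real_inner_smul_right,
    hvv, hnn, hvn, hnv]
  ring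

theorem frameMap_norm_sq {u v n : E} (hu : ‖u‖ = 1) (hv : ‖v‖ = 1) (hn : ‖n‖ = 1)
    (huv : ⟪u, v⟫_ℝ = 0) (hun : ⟪u, n⟫_ℝ = 0) (hvn : ⟪v, n⟫_ℝ = 0)
    (p : ℝ × ℝ × ℝ) : ‖frameMap u v n p‖ ^ 2 = p.1 ^ 2 + p.2.1 ^ 2 + p.2.2 ^ 2 := by
  have huu : ⟪u, u⟫_ℝ = 1 := by rw [real_inner_self_eq_norm_sq, hu]; norm_num
  have hvv : ⟪v, v⟫_ℝ = 1 := by rw [real_inner_self_eq_norm_sq, hv]; norm_num
  have hnn : ⟪n, n⟫_ℝ = 1 := by rw [real_inner_self_eq_norm_sq, hn]; norm_num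
  have hvu : ⟪v, u⟫_ℝ = 0 := by rw [real_inner_comm]; exact huv
  have hnu : ⟪n, u⟫_ℝ = 0 := by rw [real_inner_comm]; exact hun
  have hnv : ⟪n, v⟫_ℝ = 0 := by rw [real_inner_comm]; exact hvn
  rw [frameMap_apply, ← real_inner_self_eq_norm_sq]
  simp only [inner_add_left, inner_add_right, real_inner_smul_left, real_inner_smul_right,
    huu, hvv, hnn, huv, hun, hvn, hvu, hnu, hnv]
  ring

theorem planeMap_isometry {v n : E} (hv : ‖v‖ = 1) (hn : ‖n‖ = 1) (hvn : ⟪v, n⟫_ℝ = 0) :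
    Isometry (fun x : EuclideanSpace ℝ (Fin 2) => planeMap v n (e2 x)) := by
  rw [isometry_iff_dist_eq]
  intro x y
  rw [dist_eq_norm, dist_eq_norm, ← map_sub]
  have h1 := planeMap_norm_sq hv hn hvn (e2 x - e2 y)
  have h2 : ‖x - y‖ ^ 2 = (x 0 - y 0) ^ 2 + (x 1 - y 1) ^ 2 := by
    rw [EuclideanSpace.norm_eq, Real.sq_sqrt (by positivity), Fin.sum_univ_two]
    simp
  have h3 : ‖planeMap v n (e2 x - e2 y)‖ ^ 2 = ‖x - y‖ ^ 2 := by
    rw [h1, h2, e2_apply, e2_apply]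
    simp only [Prod.fst_sub, Prod.snd_sub]
  exact (sq_eq_sq₀ (norm_nonneg _) (norm_nonneg _)).1 h3

theorem frameMap_isometry {u v n : E} (hu : ‖u‖ = 1) (hv : ‖v‖ = 1) (hn : ‖n‖ = 1)
    (huv : ⟪u, v⟫_ℝ = 0) (hun : ⟪u, n⟫_ℝ = 0) (hvn : ⟪v, n⟫_ℝ = 0) :
    Isometry (fun x : EuclideanSpace ℝ (Fin 3) => frameMap u v n (e3 x)) := by
  rw [isometry_iff_dist_eq]
  intro x y
  rw [dist_eq_norm, dist_eq_norm, ← map_sub]
  have h1 := frameMap_norm_sq hu hv hn huv hun hvn (e3 x - e3 y)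
  have h2 : ‖x - y‖ ^ 2 = (x 0 - y 0) ^ 2 + (x 1 - y 1) ^ 2 + (x 2 - y 2) ^ 2 := by
    rw [EuclideanSpace.norm_eq, Real.sq_sqrt (by positivity), Fin.sum_univ_three]
    simp
  have h3 : ‖frameMap u v n (e3 x - e3 y)‖ ^ 2 = ‖x - y‖ ^ 2 := by
    rw [h1, h2, e3_apply, e3_apply]
    simp only [Prod.fst_sub, Prod.snd_sub]
  exact (sq_eq_sq₀ (norm_nonneg _) (norm_nonneg _)).1 h3

variable [MeasurableSpace E] [BorelSpace E]

/-- For an orthonormal pair, the plane parametrisation carries Lebesgue measure to planar area. -/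
theorem planeMap_area {v n : E} (hv : ‖v‖ = 1) (hn : ‖n‖ = 1) (hvn : ⟪v, n⟫_ℝ = 0)
    (S : Set (ℝ × ℝ)) : (μHE[2] : Measure E) (planeMap v n '' S) = volume S := by
  have hiso := planeMap_isometry hv hn hvn
  have h1 : planeMap v n '' S
      = (fun x : EuclideanSpace ℝ (Fin 2) => planeMap v n (e2 x)) '' (e2 ⁻¹' S) := by
    ext y
    constructor
    · rintro ⟨p, hp, rfl⟩
      exact ⟨e2.symm p, by simpa using hp, by simp⟩
    · rintro ⟨x, hx, rfl⟩
      exact ⟨e2 x, hx, rfl⟩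
  rw [h1, hiso.euclideanHausdorffMeasure_image,
    EuclideanSpace.euclideanHausdorffMeasure_eq_volume 2, e2_mp.measure_preimage_equiv]

variable [FiniteDimensional ℝ E]

/-- For an orthonormal frame of a three-dimensional space, the frame parametrisation carries
Lebesgue measure to the volume. -/
theorem frameMap_vol (hdim : Module.finrank ℝ E = 3) {u v n : E} (hu : ‖u‖ = 1) (hv : ‖v‖ = 1)
    (hn : ‖n‖ = 1) (huv : ⟪u, v⟫_ℝ = 0) (hun : ⟪u, n⟫_ℝ = 0) (hvn : ⟪v, n⟫_ℝ = 0)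
    (S : Set (ℝ × ℝ × ℝ)) : (volume : Measure E) (frameMap u v n '' S) = volume S := by
  have hiso := frameMap_isometry hu hv hn huv hun hvn
  have h1 : frameMap u v n '' S
      = (fun x : EuclideanSpace ℝ (Fin 3) => frameMap u v n (e3 x)) '' (e3 ⁻¹' S) := by
    ext y
    constructor
    · rintro ⟨p, hp, rfl⟩
      exact ⟨e3.symm p, by simpa using hp, by simp⟩
    · rintro ⟨x, hx, rfl⟩
      exact ⟨e3 x, hx, rfl⟩
  have h2 : (volume : Measure E) = μHE[3] := by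
    rw [← hdim]; exact InnerProductSpace.euclideanHausdorffMeasure_eq_volume.symm
  rw [h1, h2, hiso.euclideanHausdorffMeasure_image,
    EuclideanSpace.euclideanHausdorffMeasure_eq_volume 3, e3_mp.measure_preimage_equiv]

omit [MeasurableSpace E] [BorelSpace E] in
theorem frameMap_bijective (hdim : Module.finrank ℝ E = 3) {u v n : E} (hu : ‖u‖ = 1)
    (hv : ‖v‖ = 1) (hn : ‖n‖ = 1) (huv : ⟪u, v⟫_ℝ = 0) (hun : ⟪u, n⟫_ℝ = 0)
    (hvn : ⟪v, n⟫_ℝ = 0) : Function.Bijective (frameMap u v n) := by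
  have hinj : Function.Injective (frameMap u v n) := by
    rw [← LinearMap.ker_eq_bot, LinearMap.ker_eq_bot']
    intro p hp
    have h := frameMap_norm_sq hu hv hn huv hun hvn p
    rw [hp, norm_zero] at h
    have h1 : p.1 = 0 := by nlinarith [sq_nonneg p.1, sq_nonneg p.2.1, sq_nonneg p.2.2]
    have h2 : p.2.1 = 0 := by nlinarith [sq_nonneg p.1, sq_nonneg p.2.1, sq_nonneg p.2.2]
    have h3 : p.2.2 = 0 := by nlinarith [sq_nonneg p.1, sq_nonneg p.2.1, sq_nonneg p.2.2]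
    exact Prod.ext h1 (Prod.ext h2 h3)
  have hfr : Module.finrank ℝ (ℝ × ℝ × ℝ) = Module.finrank ℝ E := by rw [hdim]; simp
  exact ⟨hinj, (LinearMap.injective_iff_surjective_of_finrank_eq_finrank hfr).1 hinj⟩

theorem frameMap_mp (hdim : Module.finrank ℝ E = 3) {u v n : E} (hu : ‖u‖ = 1) (hv : ‖v‖ = 1)
    (hn : ‖n‖ = 1) (huv : ⟪u, v⟫_ℝ = 0) (hun : ⟪u, n⟫_ℝ = 0) (hvn : ⟪v, n⟫_ℝ = 0) :
    MeasurePreserving (frameMap u v n) volume volume := by
  have hbij := frameMap_bijective hdim hu hv hn huv hun hvn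
  have hm : Measurable (frameMap u v n) :=
    (LinearMap.continuous_of_finiteDimensional _).measurable
  refine ⟨hm, ?_⟩
  ext T hT
  rw [Measure.map_apply hm hT, ← frameMap_vol hdim hu hv hn huv hun hvn,
    image_preimage_eq _ hbij.2]

end Vale.Agent.Lib.P243.helper23.Ell
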