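import Mathlib
import Vale.Agent.Lib.P243.helper23.Ell.Defs
import Vale.Agent.Lib.P243.helper23.Ell.Plane

/-!
Ticket E1 of the symmetric-bodies plan: a set lying in two slabs whose normals are
combinations of `f 1` and `f 2` has a projection along `f 0` of area at most `4 / |det|`.
-/

open MeasureTheory Measure Set
open scoped ENNReal NNReal InnerProductSpace

namespace Vale.Agent.Lib.P243.helper23.Ell

open Vale.Agent.Lib.P243 (planeMap planeMap_apply)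

/-- The linear map of the coordinate plane with matrix rows `(a₁, a₂)` and `(b₁, b₂)`. -/
noncomputable def slabLin (a₁ a₂ b₁ b₂ : ℝ) : (ℝ × ℝ) →ₗ[ℝ] (ℝ × ℝ) where
  toFun p := (a₁ * p.1 + a₂ * p.2, b₁ * p.1 + b₂ * p.2)
  map_add' p q := by ext <;> simp <;> ring
  map_smul' c p := by ext <;> simp <;> ring

theorem slabLin_apply (a₁ a₂ b₁ b₂ : ℝ) (p : ℝ × ℝ) :
    slabLin a₁ a₂ b₁ b₂ p = (a₁ * p.1 + a₂ * p.2, b₁ * p.1 + b₂ * p.2) := rfl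

theorem slabLin_det (a₁ a₂ b₁ b₂ : ℝ) :
    LinearMap.det (slabLin a₁ a₂ b₁ b₂) = a₁ * b₂ - a₂ * b₁ := by
  rw [← LinearMap.det_toMatrix (Module.Basis.finTwoProd ℝ), Matrix.det_fin_two]
  simp [LinearMap.toMatrix_apply, slabLin, Module.Basis.finTwoProd]

/-- The parallelogram cut out by the two slabs in the coordinate plane. -/
def slabSet (a₁ a₂ b₁ b₂ : ℝ) : Set (ℝ × ℝ) :=
  {p | |a₁ * p.1 + a₂ * p.2| ≤ 1 ∧ |b₁ * p.1 + b₂ * p.2| ≤ 1}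

theorem slabSet_eq_preimage (a₁ a₂ b₁ b₂ : ℝ) :
    slabSet a₁ a₂ b₁ b₂ = slabLin a₁ a₂ b₁ b₂ ⁻¹' (Icc (-1 : ℝ) 1 ×ˢ Icc (-1 : ℝ) 1) := by
  ext p
  show (|a₁ * p.1 + a₂ * p.2| ≤ 1 ∧ |b₁ * p.1 + b₂ * p.2| ≤ 1) ↔ _
  rw [mem_preimage, slabLin_apply, mem_prod, mem_Icc, mem_Icc, abs_le, abs_le]

/-- The parallelogram has Lebesgue measure `4 / |det|`. -/
theorem volume_slabSet (a₁ a₂ b₁ b₂ : ℝ) (hdet : a₁ * b₂ - a₂ * b₁ ≠ 0) :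
    volume (slabSet a₁ a₂ b₁ b₂) = ENNReal.ofReal (4 / |a₁ * b₂ - a₂ * b₁|) := by
  have hd : LinearMap.det (slabLin a₁ a₂ b₁ b₂) ≠ 0 := by rw [slabLin_det]; exact hdet
  rw [slabSet_eq_preimage, addHaar_preimage_linearMap volume hd, slabLin_det,
    Measure.volume_eq_prod, Measure.prod_prod, Real.volume_Icc]
  have h2 : (1 : ℝ) - -1 = 2 := by norm_num
  rw [h2, ← ENNReal.ofReal_mul (by norm_num), ← ENNReal.ofReal_mul (abs_nonneg _), abs_inv]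
  congr 1
  ring

variable {E : Type*} [NormedAddCommGroup E] [InnerProductSpace ℝ E]

/-- Decomposition of the projection along `f 0` in the orthonormal basis `f`. -/
theorem sub_inner_smul_eq_planeMap (f : OrthonormalBasis (Fin 3) ℝ E) (x : E) :
    x - ⟪x, f 0⟫_ℝ • f 0 = planeMap (f 1) (f 2) (⟪x, f 1⟫_ℝ, ⟪x, f 2⟫_ℝ) := by
  have h := f.sum_repr' x
  rw [Fin.sum_univ_three, real_inner_comm x (f 0), real_inner_comm x (f 1),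
    real_inner_comm x (f 2)] at h
  rw [planeMap_apply]
  calc x - ⟪x, f 0⟫_ℝ • f 0
      = (⟪x, f 0⟫_ℝ • f 0 + ⟪x, f 1⟫_ℝ • f 1 + ⟪x, f 2⟫_ℝ • f 2) - ⟪x, f 0⟫_ℝ • f 0 := by
        rw [h]
    _ = ⟪x, f 1⟫_ℝ • f 1 + ⟪x, f 2⟫_ℝ • f 2 := by abel

set_option linter.unusedVariables false in
/-- Ticket E1: a set inside the two slabs `|a₁⟪x,f 1⟫ + a₂⟪x,f 2⟫| ≤ 1` and
`|b₁⟪x,f 1⟫ + b₂⟪x,f 2⟫| ≤ 1` has a projection along `f 0` of area at most `4 / |a₁b₂ - a₂b₁|`. -/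
theorem shadow_le [MeasurableSpace E] [BorelSpace E] (hdim : Module.finrank ℝ E = 3)
    (f : OrthonormalBasis (Fin 3) ℝ E) {K : Set E}
    (a₁ a₂ b₁ b₂ : ℝ) (hdet : a₁ * b₂ - a₂ * b₁ ≠ 0)
    (hK : ∀ x ∈ K, |a₁ * ⟪x, f 1⟫_ℝ + a₂ * ⟪x, f 2⟫_ℝ| ≤ 1 ∧
      |b₁ * ⟪x, f 1⟫_ℝ + b₂ * ⟪x, f 2⟫_ℝ| ≤ 1) :
    (μHE[2] : Measure E) ((fun x => x - ⟪x, f 0⟫_ℝ • f 0) '' K)
      ≤ ENNReal.ofReal (4 / |a₁ * b₂ - a₂ * b₁|) := by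
  have h1 : ‖f 1‖ = 1 := f.orthonormal.1 1
  have h2 : ‖f 2‖ = 1 := f.orthonormal.1 2
  have h12 : ⟪f 1, f 2⟫_ℝ = 0 := f.orthonormal.2 (by decide)
  have hsub : (fun x => x - ⟪x, f 0⟫_ℝ • f 0) '' K
      ⊆ planeMap (f 1) (f 2) '' slabSet a₁ a₂ b₁ b₂ := by
    rintro _ ⟨x, hx, rfl⟩
    exact ⟨(⟪x, f 1⟫_ℝ, ⟪x, f 2⟫_ℝ), hK x hx, (sub_inner_smul_eq_planeMap f x).symm⟩
  calc (μHE[2] : Measure E) ((fun x => x - ⟪x, f 0⟫_ℝ • f 0) '' K)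
      ≤ (μHE[2] : Measure E) (planeMap (f 1) (f 2) '' slabSet a₁ a₂ b₁ b₂) := measure_mono hsub
    _ = volume (slabSet a₁ a₂ b₁ b₂) := planeMap_area h1 h2 h12 _
    _ = ENNReal.ofReal (4 / |a₁ * b₂ - a₂ * b₁|) := volume_slabSet a₁ a₂ b₁ b₂ hdet

end Vale.Agent.Lib.P243.helper23.Ell
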