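import Mathlib
import Vale.Agent.Lib.P243.helper23.Ell.Cases
import Vale.Agent.Lib.P243.helper23.Ell.Cov
import Vale.Agent.Lib.P243.helper23.Ell.Shadow
import Vale.Agent.Lib.P243.helper23.SymAll

open MeasureTheory Measure Set
open scoped ENNReal NNReal InnerProductSpace

namespace Vale.Agent.Lib.P243.helper23.Ell

variable {E : Type*} [NormedAddCommGroup E] [InnerProductSpace ℝ E] [FiniteDimensional ℝ E]
  [MeasurableSpace E] [BorelSpace E]

/-- An origin-symmetric convex body and any finite covering by cylinders: the total base area is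
at least `4π/25` (which exceeds one half) of the least projection area. -/
theorem sym_half (hdim : Module.finrank ℝ E = 3)
    {K : Set E} (hK : Convex ℝ K) (hKc : IsCompact K) (hKi : (interior K).Nonempty)
    (hsym : ∀ x ∈ K, -x ∈ K) {ι : Type*} [Fintype ι]
    (d : ι → E) (hd1 : ∀ i, ‖d i‖ = 1)
    (B : ι → Set E) (hB : ∀ i, ∀ x ∈ B i, ⟪x, d i⟫_ℝ = 0)
    (hcov : K ⊆ ⋃ i, {x | ∃ b ∈ B i, ∃ s : ℝ, x = b + s • d i}) :
    ENNReal.ofReal (4 * Real.pi / 25) * (⨅ w : {w : E // ‖w‖ = 1}, (μHE[2] : Measure E)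
        ((fun x => x - ⟪x, (w : E)⟫_ℝ • (w : E)) '' K))
      ≤ ∑ i, (μHE[2] : Measure E) (B i) := by
  obtain ⟨f, σ, a₁, a₂, b₁, b₂, hσ, hσ0, hell, hslab, hdet⟩ :=
    exists_ellipsoid hdim hK hKc hKi hsym
  have hσ1 := hσ 1
  have hσ2 := hσ 2
  have hcover := ellipsoid_cover hdim f σ hσ (hσ0 1) (hσ0 2) d hd1 B hB (hell.trans hcov)
  have hdpos : 0 < |a₁ * b₂ - a₂ * b₁| := by
    by_contra h
    have h0 : |a₁ * b₂ - a₂ * b₁| = 0 := le_antisymm (not_lt.1 h) (abs_nonneg _)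
    rw [h0, zero_mul] at hdet
    norm_num at hdet
  have hdne : a₁ * b₂ - a₂ * b₁ ≠ 0 := abs_pos.1 hdpos
  have hshadow := shadow_le hdim f a₁ a₂ b₁ b₂ hdne hslab
  have hf0 : ‖f 0‖ = 1 := f.orthonormal.1 0
  have hinf : (⨅ w : {w : E // ‖w‖ = 1}, (μHE[2] : Measure E)
      ((fun x => x - ⟪x, (w : E)⟫_ℝ • (w : E)) '' K))
      ≤ (μHE[2] : Measure E) ((fun x => x - ⟪x, f 0⟫_ℝ • f 0) '' K) :=
    iInf_le (fun w : {w : E // ‖w‖ = 1} => (μHE[2] : Measure E)
      ((fun x => x - ⟪x, (w : E)⟫_ℝ • (w : E)) '' K)) ⟨f 0, hf0⟩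
  have hpi : 0 < Real.pi := Real.pi_pos
  have hreal : 4 * Real.pi / 25 * (4 / |a₁ * b₂ - a₂ * b₁|) ≤ Real.pi * σ 1 * σ 2 := by
    have h1 : 4 * Real.pi / 25 * (4 / |a₁ * b₂ - a₂ * b₁|)
        = Real.pi * (16 / 25 / |a₁ * b₂ - a₂ * b₁|) := by ring
    have h2 : 16 / 25 / |a₁ * b₂ - a₂ * b₁| ≤ σ 1 * σ 2 := by
      rw [div_le_iff₀ hdpos]
      linarith
    rw [h1, mul_assoc]
    exact mul_le_mul_of_nonneg_left h2 hpi.le
  calc ENNReal.ofReal (4 * Real.pi / 25) * (⨅ w : {w : E // ‖w‖ = 1}, (μHE[2] : Measure E)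
        ((fun x => x - ⟪x, (w : E)⟫_ℝ • (w : E)) '' K))
      ≤ ENNReal.ofReal (4 * Real.pi / 25) * ENNReal.ofReal (4 / |a₁ * b₂ - a₂ * b₁|) := by
        gcongr
        exact hinf.trans hshadow
    _ = ENNReal.ofReal (4 * Real.pi / 25 * (4 / |a₁ * b₂ - a₂ * b₁|)) := by
        rw [← ENNReal.ofReal_mul (by positivity)]
    _ ≤ ENNReal.ofReal (Real.pi * σ 1 * σ 2) := ENNReal.ofReal_le_ofReal hreal
    _ ≤ ∑ i, (μHE[2] : Measure E) (B i) := hcover

/-- A convex body symmetric about a point `c` and any finite covering by cylinders: the total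
base area is at least `4π/25` of the least projection area. -/
theorem sym_center_pi (hdim : Module.finrank ℝ E = 3)
    {K : Set E} (hK : Convex ℝ K) (hKc : IsCompact K) (hKi : (interior K).Nonempty)
    (c : E) (hsym : ∀ x ∈ K, c + c - x ∈ K) {ι : Type*} [Fintype ι]
    (d : ι → E) (hd1 : ∀ i, ‖d i‖ = 1)
    (B : ι → Set E) (hB : ∀ i, ∀ x ∈ B i, ⟪x, d i⟫_ℝ = 0)
    (hcov : K ⊆ ⋃ i, {x | ∃ b ∈ B i, ∃ s : ℝ, x = b + s • d i}) :
    ENNReal.ofReal (4 * Real.pi / 25) * (⨅ w : {w : E // ‖w‖ = 1}, (μHE[2] : Measure E)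
        ((fun x => x - ⟪x, (w : E)⟫_ℝ • (w : E)) '' K))
      ≤ ∑ i, (μHE[2] : Measure E) (B i) := by
  obtain ⟨K', hK'def⟩ : ∃ K' : Set E, K' = (fun x => c + x) ⁻¹' K := ⟨_, rfl⟩
  have hK' : Convex ℝ K' := by rw [hK'def]; exact hK.translate_preimage_right c
  have hKc' : IsCompact K' := by
    rw [hK'def]
    exact (Homeomorph.addLeft c).isCompact_preimage.2 hKc
  have hKi' : (interior K').Nonempty := by
    obtain ⟨z, hz⟩ := hKi
    refine ⟨-c + z, ?_⟩
    rw [hK'def]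
    have h := (Homeomorph.addLeft c).preimage_interior K
    have hz' : -c + z ∈ (Homeomorph.addLeft c) ⁻¹' interior K := by
      show c + (-c + z) ∈ interior K
      rw [add_neg_cancel_left]
      exact hz
    rw [h] at hz'
    exact hz'
  have hsym' : ∀ x ∈ K', -x ∈ K' := by
    intro x hx
    rw [hK'def] at hx ⊢
    have h := hsym _ hx
    show c + -x ∈ K
    have e : c + c - (c + x) = c + -x := by abel
    rwa [e] at h
  obtain ⟨B', hB'def⟩ : ∃ B' : ι → Set E,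
      B' = fun i => (fun b => b + (⟪c, d i⟫_ℝ • d i - c)) '' B i := ⟨_, rfl⟩
  have hdd : ∀ i, ⟪d i, d i⟫_ℝ = 1 := by
    intro i
    rw [real_inner_self_eq_norm_sq, hd1 i]
    norm_num
  have hB' : ∀ i, ∀ x ∈ B' i, ⟪x, d i⟫_ℝ = 0 := by
    intro i x hx
    rw [hB'def] at hx
    obtain ⟨b, hb, rfl⟩ := hx
    rw [inner_add_left, inner_sub_left, real_inner_smul_left, hB i b hb, hdd i]
    ring
  have hcov' : K' ⊆ ⋃ i, {x | ∃ b ∈ B' i, ∃ s : ℝ, x = b + s • d i} := by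
    intro x hx
    rw [hK'def] at hx
    obtain ⟨i, b, hb, s, hbs⟩ := mem_iUnion.1 (hcov hx)
    refine mem_iUnion.2 ⟨i, b + (⟪c, d i⟫_ℝ • d i - c), ?_, s - ⟪c, d i⟫_ℝ, ?_⟩
    · rw [hB'def]
      exact ⟨b, hb, rfl⟩
    · have hbs' : c + x = b + s • d i := hbs
      have hx' : x = b + s • d i - c := by
        rw [← hbs']
        abel
      rw [hx']
      module
  have hareaB : ∀ i, (μHE[2] : Measure E) (B' i) = (μHE[2] : Measure E) (B i) := by
    intro i
    rw [hB'def]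
    exact (isometry_add_right _).euclideanHausdorffMeasure_image _
  have hareaK : ∀ w : E, (μHE[2] : Measure E) ((fun x => x - ⟪x, w⟫_ℝ • w) '' K')
      = (μHE[2] : Measure E) ((fun x => x - ⟪x, w⟫_ℝ • w) '' K) := by
    intro w
    rw [hK'def]
    exact Vale.Agent.Lib.P243.helper23.proj_translate c w K
  have key := sym_half hdim hK' hKc' hKi' hsym' d hd1 B' hB' hcov'
  simp only [hareaB, hareaK] at key
  exact key

/-- A convex body symmetric about a point `c` and any finite covering by cylinders: the total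
base area is at least half of the least projection area (Bang's half-area inequality for
centrally symmetric bodies). -/
theorem sym_center_half (hdim : Module.finrank ℝ E = 3)
    {K : Set E} (hK : Convex ℝ K) (hKc : IsCompact K) (hKi : (interior K).Nonempty)
    (c : E) (hsym : ∀ x ∈ K, c + c - x ∈ K) {ι : Type*} [Fintype ι]
    (d : ι → E) (hd1 : ∀ i, ‖d i‖ = 1)
    (B : ι → Set E) (hB : ∀ i, ∀ x ∈ B i, ⟪x, d i⟫_ℝ = 0)
    (hcov : K ⊆ ⋃ i, {x | ∃ b ∈ B i, ∃ s : ℝ, x = b + s • d i}) :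
    (1 / 2 : ℝ≥0∞) * (⨅ w : {w : E // ‖w‖ = 1}, (μHE[2] : Measure E)
        ((fun x => x - ⟪x, (w : E)⟫_ℝ • (w : E)) '' K))
      ≤ ∑ i, (μHE[2] : Measure E) (B i) := by
  have key := sym_center_pi hdim hK hKc hKi c hsym d hd1 B hB hcov
  have hhalf : (1 / 2 : ℝ≥0∞) ≤ ENNReal.ofReal (4 * Real.pi / 25) := by
    have h1 : (1 / 2 : ℝ≥0∞) = ENNReal.ofReal (1 / 2) := by
      rw [ENNReal.ofReal_div_of_pos (by norm_num)]
      simp
    rw [h1]
    refine ENNReal.ofReal_le_ofReal ?_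
    have := Real.pi_gt_d2
    linarith
  exact (mul_le_mul_left hhalf _).trans key

end Vale.Agent.Lib.P243.helper23.Ell
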