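import Mathlib
import Vale.Agent.Lib.P243.helper23.Ell.Defs
import Vale.Agent.Lib.P243.helper23.Ell.Optimum
import Vale.Agent.Lib.P243.helper23.Ell.Cov
import Vale.Agent.Lib.P243.helper23.Ell.Shadow

/-!
The case-independent end of the symmetric-bodies chain: two linear functionals `p`, `q`
orthogonal to the first singular direction and bounded by `1` on `N⁻¹ K` give two slabs around
`K`; with the covering bound for the inscribed ellipsoid and the shadow bound this yields the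
half-area inequality in the direction of the longest axis.
-/

open MeasureTheory Measure Set
open scoped ENNReal NNReal InnerProductSpace Real

namespace Vale.Agent.Lib.P243.helper23.Ell

variable {E : Type*} [NormedAddCommGroup E] [InnerProductSpace ℝ E]

/-- Coordinates of an inner product in an orthonormal basis, when the first coordinate of one
factor vanishes. -/
theorem inner_eq_two_coords (g : OrthonormalBasis (Fin 3) ℝ E) (z p : E)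
    (hp0 : ⟪p, g 0⟫_ℝ = 0) :
    ⟪z, p⟫_ℝ = ⟪z, g 1⟫_ℝ * ⟪p, g 1⟫_ℝ + ⟪z, g 2⟫_ℝ * ⟪p, g 2⟫_ℝ := by
  have h := g.sum_inner_mul_inner z p
  rw [Fin.sum_univ_three, real_inner_comm p (g 0), real_inner_comm p (g 1),
    real_inner_comm p (g 2), hp0] at h
  linarith

/-- One functional bounded by `1` on `N⁻¹ K` and orthogonal to `g 0` gives a slab around the
symmetric set `K`, written in the coordinates `⟪x, f 1⟫`, `⟪x, f 2⟫`. -/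
theorem slab_of_functional {K : Set E} (hsym : ∀ x ∈ K, -x ∈ K) (N : E ≃L[ℝ] E)
    (g f : OrthonormalBasis (Fin 3) ℝ E) (σ : Fin 3 → ℝ) (hσ : ∀ i, 0 < σ i)
    (hf : ∀ z i, ⟪N z, f i⟫_ℝ = σ i * ⟪z, g i⟫_ℝ)
    {p : E} (hp : ∀ z : E, N z ∈ K → ⟪z, p⟫_ℝ ≤ 1) (hp0 : ⟪p, g 0⟫_ℝ = 0) :
    ∀ x ∈ K, |⟪p, g 1⟫_ℝ / σ 1 * ⟪x, f 1⟫_ℝ + ⟪p, g 2⟫_ℝ / σ 2 * ⟪x, f 2⟫_ℝ| ≤ 1 := by
  intro x hx
  set z : E := N.symm x with hz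
  have hNz : N z = x := by simp [hz]
  have h1 : ⟪x, f 1⟫_ℝ = σ 1 * ⟪z, g 1⟫_ℝ := by rw [← hNz]; exact hf z 1
  have h2 : ⟪x, f 2⟫_ℝ = σ 2 * ⟪z, g 2⟫_ℝ := by rw [← hNz]; exact hf z 2
  have hs1 : σ 1 ≠ 0 := (hσ 1).ne'
  have hs2 : σ 2 ≠ 0 := (hσ 2).ne'
  have key : ⟪p, g 1⟫_ℝ / σ 1 * ⟪x, f 1⟫_ℝ + ⟪p, g 2⟫_ℝ / σ 2 * ⟪x, f 2⟫_ℝ = ⟪z, p⟫_ℝ := by
    rw [inner_eq_two_coords g z p hp0, h1, h2]
    field_simp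
  rw [key, abs_le]
  constructor
  · have hneg : N (-z) ∈ K := by
      rw [map_neg, hNz]
      exact hsym x hx
    have := hp (-z) hneg
    rw [inner_neg_left] at this
    linarith
  · exact hp z (by rw [hNz]; exact hx)

/-- Two functionals bounded by `1` on `N⁻¹ K` and orthogonal to `g 0` give two slabs around the
symmetric set `K`. -/
theorem slabs_of_functionals {K : Set E} (hsym : ∀ x ∈ K, -x ∈ K) (N : E ≃L[ℝ] E)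
    (g f : OrthonormalBasis (Fin 3) ℝ E) (σ : Fin 3 → ℝ) (hσ : ∀ i, 0 < σ i)
    (hf : ∀ z i, ⟪N z, f i⟫_ℝ = σ i * ⟪z, g i⟫_ℝ)
    {p q : E} (hp : ∀ z : E, N z ∈ K → ⟪z, p⟫_ℝ ≤ 1) (hq : ∀ z : E, N z ∈ K → ⟪z, q⟫_ℝ ≤ 1)
    (hp0 : ⟪p, g 0⟫_ℝ = 0) (hq0 : ⟪q, g 0⟫_ℝ = 0) :
    ∀ x ∈ K, |⟪p, g 1⟫_ℝ / σ 1 * ⟪x, f 1⟫_ℝ + ⟪p, g 2⟫_ℝ / σ 2 * ⟪x, f 2⟫_ℝ| ≤ 1 ∧
      |⟪q, g 1⟫_ℝ / σ 1 * ⟪x, f 1⟫_ℝ + ⟪q, g 2⟫_ℝ / σ 2 * ⟪x, f 2⟫_ℝ| ≤ 1 :=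
  fun x hx => ⟨slab_of_functional hsym N g f σ hσ hf hp hp0 x hx,
    slab_of_functional hsym N g f σ hσ hf hq hq0 x hx⟩

/-- Lagrange identity for two unit vectors orthogonal to `g 0`. -/
theorem det2_sq_of_unit (g : OrthonormalBasis (Fin 3) ℝ E) {p q : E} (hp : ‖p‖ = 1)
    (hq : ‖q‖ = 1) (hp0 : ⟪p, g 0⟫_ℝ = 0) (hq0 : ⟪q, g 0⟫_ℝ = 0) :
    (⟪p, g 1⟫_ℝ * ⟪q, g 2⟫_ℝ - ⟪p, g 2⟫_ℝ * ⟪q, g 1⟫_ℝ) ^ 2 = 1 - ⟪p, q⟫_ℝ ^ 2 := by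
  have hpp : ⟪p, p⟫_ℝ = 1 := by rw [real_inner_self_eq_norm_sq, hp]; norm_num
  have hqq : ⟪q, q⟫_ℝ = 1 := by rw [real_inner_self_eq_norm_sq, hq]; norm_num
  have e1 := inner_eq_two_coords g p p hp0
  have e2 := inner_eq_two_coords g q q hq0
  have e3 := inner_eq_two_coords g p q hq0
  rw [hpp] at e1
  rw [hqq] at e2
  rw [e3]
  linear_combination (-(⟪q, g 1⟫_ℝ * ⟪q, g 1⟫_ℝ + ⟪q, g 2⟫_ℝ * ⟪q, g 2⟫_ℝ)) * e1 - e2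

/-- Two unit vectors orthogonal to `g 0` with `⟪p, q⟫² ≤ 1/2` have a coordinate determinant of
absolute value at least `16/25`. -/
theorem det2_ge_of_inner_sq_le (g : OrthonormalBasis (Fin 3) ℝ E) {p q : E} (hp : ‖p‖ = 1)
    (hq : ‖q‖ = 1) (hp0 : ⟪p, g 0⟫_ℝ = 0) (hq0 : ⟪q, g 0⟫_ℝ = 0)
    (hpq : ⟪p, q⟫_ℝ ^ 2 ≤ 1 / 2) :
    16 / 25 ≤ |⟪p, g 1⟫_ℝ * ⟪q, g 2⟫_ℝ - ⟪p, g 2⟫_ℝ * ⟪q, g 1⟫_ℝ| := by
  have h := det2_sq_of_unit g hp hq hp0 hq0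
  have h2 : (16 / 25 : ℝ) ^ 2 ≤ (⟪p, g 1⟫_ℝ * ⟪q, g 2⟫_ℝ - ⟪p, g 2⟫_ℝ * ⟪q, g 1⟫_ℝ) ^ 2 := by
    rw [h]; norm_num; linarith
  by_contra hlt
  rw [not_le] at hlt
  have h3 : |⟪p, g 1⟫_ℝ * ⟪q, g 2⟫_ℝ - ⟪p, g 2⟫_ℝ * ⟪q, g 1⟫_ℝ| ^ 2 < (16 / 25 : ℝ) ^ 2 := by
    nlinarith [abs_nonneg (⟪p, g 1⟫_ℝ * ⟪q, g 2⟫_ℝ - ⟪p, g 2⟫_ℝ * ⟪q, g 1⟫_ℝ)]
  rw [sq_abs] at h3
  linarith

variable [FiniteDimensional ℝ E] [MeasurableSpace E] [BorelSpace E]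

/-- **End of the chain.**  Let `K` be symmetric, `N` map the unit ball into `K`, `(g, σ)` a
singular system of `N` with `σ 1, σ 2 ≤ σ 0`, and `p`, `q` two vectors orthogonal to `g 0` with
`⟪z, p⟫ ≤ 1` and `⟪z, q⟫ ≤ 1` whenever `N z ∈ K`, whose coordinate determinant in `(g 1, g 2)`
has absolute value at least `16/25`.  Then every covering of `K` by cylinders has total base
area at least half the area of the projection of `K` along some unit direction `w`. -/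
theorem half_area_of_functionals (hdim : Module.finrank ℝ E = 3) {K : Set E}
    (hsym : ∀ x ∈ K, -x ∈ K) (N : E ≃L[ℝ] E) (hNK : ∀ z : E, ‖z‖ ≤ 1 → N z ∈ K)
    {g : OrthonormalBasis (Fin 3) ℝ E} {σ : Fin 3 → ℝ} (hS : SingSys (N : E →L[ℝ] E) g σ)
    (h1 : σ 1 ≤ σ 0) (h2 : σ 2 ≤ σ 0) {p q : E}
    (hp : ∀ z : E, N z ∈ K → ⟪z, p⟫_ℝ ≤ 1) (hq : ∀ z : E, N z ∈ K → ⟪z, q⟫_ℝ ≤ 1)
    (hp0 : ⟪p, g 0⟫_ℝ = 0) (hq0 : ⟪q, g 0⟫_ℝ = 0)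
    (hdet : 16 / 25 ≤ |⟪p, g 1⟫_ℝ * ⟪q, g 2⟫_ℝ - ⟪p, g 2⟫_ℝ * ⟪q, g 1⟫_ℝ|)
    {ι : Type*} [Fintype ι] (d : ι → E) (hd : ∀ i, ‖d i‖ = 1) (B : ι → Set E)
    (hB : ∀ i, ∀ x ∈ B i, ⟪x, d i⟫_ℝ = 0)
    (hcov : K ⊆ ⋃ i, {x | ∃ b ∈ B i, ∃ t : ℝ, x = b + t • d i}) :
    ∃ w : E, ‖w‖ = 1 ∧
      (1 / 2 : ℝ≥0∞) * (μHE[2] : Measure E) ((fun x => x - ⟪x, w⟫_ℝ • w) '' K)
        ≤ ∑ i, (μHE[2] : Measure E) (B i) := by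
  obtain ⟨f, -, hf, hell⟩ := ellipsoid_of_singSys N hS
  have hσ : ∀ i, 0 < σ i := hS.1
  have hEK : ellipsoid f σ ⊆ K := by
    rw [hell]
    rintro _ ⟨z, hz, rfl⟩
    exact hNK z (by simpa [Metric.mem_closedBall, dist_zero_right] using hz)
  have hcovE := ellipsoid_cover hdim f σ hσ h1 h2 d hd B hB (hEK.trans hcov)
  have hsl := slabs_of_functionals hsym N g f σ hσ hf hp hq hp0 hq0
  have hs1 : σ 1 ≠ 0 := (hσ 1).ne'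
  have hs2 : σ 2 ≠ 0 := (hσ 2).ne'
  have hs12 : 0 < σ 1 * σ 2 := mul_pos (hσ 1) (hσ 2)
  set D : ℝ := ⟪p, g 1⟫_ℝ * ⟪q, g 2⟫_ℝ - ⟪p, g 2⟫_ℝ * ⟪q, g 1⟫_ℝ with hD
  have hDpos : 0 < |D| := lt_of_lt_of_le (by norm_num) hdet
  have hab : ⟪p, g 1⟫_ℝ / σ 1 * (⟪q, g 2⟫_ℝ / σ 2) - ⟪p, g 2⟫_ℝ / σ 2 * (⟪q, g 1⟫_ℝ / σ 1)
      = D / (σ 1 * σ 2) := by
    rw [hD]; field_simp
  have hab0 : ⟪p, g 1⟫_ℝ / σ 1 * (⟪q, g 2⟫_ℝ / σ 2) - ⟪p, g 2⟫_ℝ / σ 2 * (⟪q, g 1⟫_ℝ / σ 1)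
      ≠ 0 := by
    rw [hab]
    exact div_ne_zero (abs_pos.mp hDpos) hs12.ne'
  have hsh := shadow_le hdim f (⟪p, g 1⟫_ℝ / σ 1) (⟪p, g 2⟫_ℝ / σ 2) (⟪q, g 1⟫_ℝ / σ 1)
    (⟪q, g 2⟫_ℝ / σ 2) hab0 hsl
  rw [hab, abs_div, abs_of_pos hs12] at hsh
  refine ⟨f 0, f.orthonormal.1 0, ?_⟩
  have h12 : (1 / 2 : ℝ≥0∞) = ENNReal.ofReal (1 / 2) := by
    rw [ENNReal.ofReal_div_of_pos (by norm_num)]; simp
  have hreal : 1 / 2 * (4 / (|D| / (σ 1 * σ 2))) ≤ π * σ 1 * σ 2 := by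
    have hpi : (25 : ℝ) / 8 ≤ π := by linarith [Real.pi_gt_d2]
    have e : 1 / 2 * (4 / (|D| / (σ 1 * σ 2))) = 2 * (σ 1 * σ 2) / |D| := by
      field_simp; ring
    rw [e, div_le_iff₀ hDpos]
    nlinarith [mul_le_mul_of_nonneg_left hdet hs12.le, mul_le_mul_of_nonneg_right hpi hs12.le]
  calc (1 / 2 : ℝ≥0∞) * (μHE[2] : Measure E) ((fun x => x - ⟪x, f 0⟫_ℝ • f 0) '' K)
      ≤ (1 / 2 : ℝ≥0∞) * ENNReal.ofReal (4 / (|D| / (σ 1 * σ 2))) := by gcongr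
    _ = ENNReal.ofReal (1 / 2 * (4 / (|D| / (σ 1 * σ 2)))) := by
        rw [h12, ← ENNReal.ofReal_mul (by norm_num)]
    _ ≤ ENNReal.ofReal (π * σ 1 * σ 2) := ENNReal.ofReal_le_ofReal hreal
    _ ≤ ∑ i, (μHE[2] : Measure E) (B i) := hcovE

end Vale.Agent.Lib.P243.helper23.Ell
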